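import Vale.Agent.P082.Defs
import Vale.Agent.P104.VN1
import Vale.Agent.P104.Flat

/-! Shared definitions: bar cochains on lists, averagings, weak ultralimits. -/

namespace Vale.Agent.P082

open scoped InnerProductSpace
open Filter Topology Vale.Agent.P104

section Bar

variable {A : Type*} [NormedRing A] [NormedAlgebra ℂ A]

/-- The bar differential of a cochain on lists. -/
def Bd : List A → (List A → A) → A
  | y₀ :: y₁ :: l, G => G (y₀ * y₁ :: l) - Bd (y₁ :: l) (fun w => G (y₀ :: w))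
  | _, _ => 0

/-- A bimodular multilinear cochain, bounded by `C` on lists of length `m`. -/
structure Coch (G : List A → A) (m : ℕ) (C : ℝ) : Prop where
  ml : ∀ l₁ l₂ : List A, IsLinearMap ℂ fun a => G (l₁ ++ a :: l₂)
  lm : ∀ (x y : A) (l : List A), G (x * y :: l) = x * G (y :: l)
  rm : ∀ (l : List A) (y x : A), G (l ++ [y * x]) = G (l ++ [y]) * x
  bdd : ∀ l : List A, ‖G l‖ ≤ C * (l.map norm).prod
  len : ∀ l : List A, l.length ≠ m → G l = 0

/-- `F z` is a coboundary of a cochain of norm at most `C`. -/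
def Sol (F : List A → A) (n : ℕ) (z : A) (C : ℝ) : Prop :=
  ∃ β, Coch β (n + 1) C ∧ ∀ l : List A, l.length = n + 2 → Bd l β = F l * z

/-- An invariant averaging on the class of maps of finite gauge `Gd`. -/
structure Avg (Gd : (A →L[ℂ] A) → ℝ → Prop) (ρ : (A →L[ℂ] A) → A) (z : A) : Prop where
  add : ∀ ψ ψ' c c', Gd ψ c → Gd ψ' c' → ρ (ψ + ψ') = ρ ψ + ρ ψ'
  smul : ∀ (t : ℂ) ψ c, Gd ψ c → ρ (t • ψ) = t • ρ ψ
  norm : ∀ ψ c, Gd ψ c → ‖ρ ψ‖ ≤ c
  left : ∀ y ψ c, Gd ψ c → ρ (ContinuousLinearMap.mul ℂ A y ∘L ψ) = y * ρ ψ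
  right : ∀ x ψ c, Gd ψ c → ρ (ψ ∘L ContinuousLinearMap.mul ℂ A x) = ρ ψ * x
  id : ∀ y, ρ (ContinuousLinearMap.mul ℂ A y) = y * z

end Bar

section VN

variable {K : Type*} [NormedAddCommGroup K] [InnerProductSpace ℂ K] [CompleteSpace K]

/-- The von Neumann algebra as a type. -/
abbrev Alg (M : VonNeumannAlgebra K) : Type _ := ↥M.toStarSubalgebra

variable {M : VonNeumannAlgebra K}

noncomputable instance algCStar : CStarAlgebra (Alg M) :=
  StarSubalgebra.cstarAlgebra _ (h_closed := vn_isClosed M)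

instance algOrd : StarOrderedRing (Alg M) := by
  refine StarOrderedRing.of_nonneg_iff' (fun h z => ?_) fun x => ⟨fun h => ?_, ?_⟩
  · exact add_le_add_right (show _ ≤ _ from h : (_ : K →L[ℂ] K) ≤ _) z.1
  · have h0 : (0 : K →L[ℂ] K) ≤ x.1 := h
    refine ⟨⟨CFC.sqrt x.1, mem_of_commute (M := M) fun y hy => ?_⟩, Subtype.ext ?_⟩
    · have hc : Commute x.1 y := commute_of_mem (M := M) x.2 hy
      rw [CFC.sqrt_eq_cfc]
      exact (hc.cfc_nnreal _).symm.eq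
    · change x.1 = star (CFC.sqrt x.1) * CFC.sqrt x.1
      rw [(CFC.sqrt_nonneg x.1).isSelfAdjoint.star_eq, CFC.sqrt_mul_sqrt_self x.1 h0]
  · rintro ⟨s, rfl⟩
    exact star_mul_self_nonneg s.1

/-- Complete boundedness of a map on `M`, with constant `c`. -/
def CB (ψ : Alg M →L[ℂ] Alg M) (c : ℝ) : Prop :=
  0 ≤ c ∧ ∀ (I J : Type) [Fintype I] [Fintype J] (X : I → J → Alg M),
    Contr (fun i j => (X i j).1) 1 → Contr (fun i j => (ψ (X i j)).1) c

/-- A central projection of `M`. -/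
structure Cen (z : Alg M) : Prop where
  proj : IsStarProjection z
  comm : ∀ x, z * x = x * z

theorem exists_wlim {ι : Type*} (U : Ultrafilter ι) (v : ι → Alg M) (C : ℝ)
    (hb : ∀ i, ‖v i‖ ≤ C) : ∃ w : Alg M, ∀ ξ η : K,
      Tendsto (fun i => ⟪η, (v i).1 ξ⟫_ℂ) U (𝓝 ⟪η, w.1 ξ⟫_ℂ) := by
  have hC : ∀ i ξ η, ‖⟪η, (v i).1 ξ⟫_ℂ‖ ≤ C * ‖ξ‖ * ‖η‖ := fun i ξ η => by
    rw [mul_comm]
    exact (norm_inner_le_norm _ _).trans (mul_le_mul_of_nonneg_left (((v i).1.le_opNorm ξ).trans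
      (mul_le_mul_of_nonneg_right (hb i) (norm_nonneg _))) (norm_nonneg _))
  have h1 : ∀ ξ η : K, ∃ c : ℂ, Tendsto (fun i => ⟪η, (v i).1 ξ⟫_ℂ) U (𝓝 c) ∧
      ‖c‖ ≤ C * ‖ξ‖ * ‖η‖ := fun ξ η => by
    obtain ⟨c, hc, h⟩ := (isCompact_closedBall (0 : ℂ) (C * ‖ξ‖ * ‖η‖)).ultrafilter_le_nhds
      (U.map fun i => ⟪η, (v i).1 ξ⟫_ℂ) (by
        rw [le_principal_iff, Ultrafilter.mem_coe, Ultrafilter.mem_map]
        exact Eventually.of_forall fun i => mem_closedBall_zero_iff.2 (hC i ξ η))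
    exact ⟨c, h, mem_closedBall_zero_iff.1 hc⟩
  choose c hc hcb using h1
  let B : K →ₗ⋆[ℂ] K →ₗ[ℂ] ℂ := LinearMap.mk₂'ₛₗ (starRingEnd ℂ) (RingHom.id ℂ)
    (fun η ξ => c ξ η)
    (fun a b ξ => tendsto_nhds_unique (hc ξ (a + b)) (by
      simpa only [inner_add_left] using (hc ξ a).add (hc ξ b)))
    (fun t a ξ => tendsto_nhds_unique (hc ξ (t • a)) (by
      simpa only [inner_smul_left, smul_eq_mul] using (hc ξ a).const_mul _))
    (fun η a b => tendsto_nhds_unique (hc (a + b) η) (by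
      simpa only [map_add, inner_add_right] using (hc a η).add (hc b η)))
    (fun t η a => tendsto_nhds_unique (hc (t • a) η) (by
      simpa only [map_smul, inner_smul_right, smul_eq_mul, RingHom.id_apply] using (hc a η).const_mul _))
  let B' : K →L⋆[ℂ] K →L[ℂ] ℂ := B.mkContinuous₂ C fun η ξ => by
    rw [mul_right_comm]
    exact hcb ξ η
  let w : K →L[ℂ] K := star (InnerProductSpace.continuousLinearMapOfBilin B')
  have hw : ∀ ξ η, ⟪η, w ξ⟫_ℂ = c ξ η := fun ξ η => by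
    rw [inner_star_right, InnerProductSpace.continuousLinearMapOfBilin_apply]
    rfl
  refine ⟨⟨w, mem_of_commute (M := M) fun y hy => ?_⟩, fun ξ η => by rw [hw]; exact hc ξ η⟩
  ext ξ
  refine ext_inner_left ℂ fun η => ?_
  rw [mul_apply_eq_comp, mul_apply_eq_comp, ← inner_star_left, hw, hw]
  refine tendsto_nhds_unique (hc ξ (star y η)) ((hc (y ξ) η).congr fun i => ?_)
  rw [inner_star_left, ← mul_apply_eq_comp, commute_of_mem (M := M) (v i).2 hy, mul_apply_eq_comp]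

open Classical in
/-- The weak operator limit of a bounded family along an ultrafilter. -/
noncomputable def wlim {ι : Type*} (U : Ultrafilter ι) (v : ι → Alg M) : Alg M :=
  if h : ∃ C, ∀ i, ‖v i‖ ≤ C then (exists_wlim U v h.choose h.choose_spec).choose else 0

variable {ι : Type*} {U : Ultrafilter ι} {v v' : ι → Alg M} {C C' : ℝ}

theorem wlim_spec (hb : ∀ i, ‖v i‖ ≤ C) (ξ η : K) :
    Tendsto (fun i => ⟪η, (v i).1 ξ⟫_ℂ) U (𝓝 ⟪η, (wlim U v).1 ξ⟫_ℂ) := by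
  have h : ∃ C, ∀ i, ‖v i‖ ≤ C := ⟨C, hb⟩
  rw [wlim, dif_pos h]
  exact (exists_wlim U v h.choose h.choose_spec).choose_spec ξ η

theorem wlim_eq (hb : ∀ i, ‖v i‖ ≤ C) {w : Alg M}
    (h : ∀ ξ η, Tendsto (fun i => ⟪η, (v i).1 ξ⟫_ℂ) U (𝓝 ⟪η, w.1 ξ⟫_ℂ)) : wlim U v = w := by
  refine Subtype.ext (ContinuousLinearMap.ext fun ξ => ext_inner_left ℂ fun η => ?_)
  exact tendsto_nhds_unique (wlim_spec hb ξ η) (h ξ η)

theorem wlim_const (w : Alg M) : wlim U (fun _ => w) = w :=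
  wlim_eq (C := ‖w‖) (fun _ => le_rfl) fun _ _ => tendsto_const_nhds

theorem wlim_congr (hb : ∀ i, ‖v i‖ ≤ C) (hb' : ∀ i, ‖v' i‖ ≤ C') (h : ∀ᶠ i in U, v i = v' i) :
    wlim U v = wlim U v' :=
  wlim_eq hb fun ξ η => (wlim_spec hb' ξ η).congr' (h.mono fun i hi => by simp only [hi])

theorem wlim_add (hb : ∀ i, ‖v i‖ ≤ C) (hb' : ∀ i, ‖v' i‖ ≤ C') :
    wlim U (fun i => v i + v' i) = wlim U v + wlim U v' :=
  wlim_eq (C := C + C') (fun i => (norm_add_le _ _).trans (add_le_add (hb i) (hb' i))) fun ξ η => by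
    have := (wlim_spec (U := U) hb ξ η).add (wlim_spec hb' ξ η)
    simp only [← inner_add_right] at this
    exact this

theorem wlim_smul (hb : ∀ i, ‖v i‖ ≤ C) (t : ℂ) :
    wlim U (fun i => t • v i) = t • wlim U v :=
  wlim_eq (C := ‖t‖ * C) (fun i => (norm_smul_le _ _).trans
    (mul_le_mul_of_nonneg_left (hb i) (norm_nonneg _))) fun ξ η => by
    have := (wlim_spec (U := U) hb ξ η).const_mul t
    simp only [← inner_smul_right] at this
    exact this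

theorem wlim_sub (hb : ∀ i, ‖v i‖ ≤ C) (hb' : ∀ i, ‖v' i‖ ≤ C') :
    wlim U (fun i => v i - v' i) = wlim U v - wlim U v' :=
  wlim_eq (C := C + C') (fun i => (norm_sub_le _ _).trans (add_le_add (hb i) (hb' i))) fun ξ η => by
    have := (wlim_spec (U := U) hb ξ η).sub (wlim_spec hb' ξ η)
    simp only [← inner_sub_right] at this
    exact this

theorem wlim_mul_left (hb : ∀ i, ‖v i‖ ≤ C) (y : Alg M) :
    wlim U (fun i => y * v i) = y * wlim U v :=
  wlim_eq (C := ‖y‖ * C) (fun i => (norm_mul_le _ _).trans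
    (mul_le_mul_of_nonneg_left (hb i) (norm_nonneg _))) fun ξ η => by
    have := wlim_spec (U := U) hb ξ (star y.1 η)
    simp only [inner_star_left] at this
    exact this

theorem wlim_mul_right (hb : ∀ i, ‖v i‖ ≤ C) (y : Alg M) :
    wlim U (fun i => v i * y) = wlim U v * y :=
  wlim_eq (C := C * ‖y‖) (fun i => (norm_mul_le _ _).trans
    (mul_le_mul_of_nonneg_right (hb i) (norm_nonneg _))) fun ξ η => wlim_spec hb (y.1 ξ) η

/-- Lower semicontinuity of column norms under weak limits. -/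
theorem wlim_col_le {I J : Type*} [Fintype I] [Fintype J] (X : ι → I → J → Alg M)
    (hb : ∀ t i j, ‖X t i j‖ ≤ C) (ξ : J → K) {B : ℝ}
    (h : ∀ ε > 0, ∀ᶠ t in U, ∑ i, ‖∑ j, (X t i j).1 (ξ j)‖ ^ 2 ≤ B + ε) :
    ∑ i, ‖∑ j, (wlim U fun t => X t i j).1 (ξ j)‖ ^ 2 ≤ B := by
  set η : I → K := fun i => ∑ j, (wlim U fun t => X t i j).1 (ξ j) with hη
  have h1 : Tendsto (fun t => ∑ i, (2 * (⟪η i, ∑ j, (X t i j).1 (ξ j)⟫_ℂ).re - ‖η i‖ ^ 2)) U
      (𝓝 (∑ i, (2 * (⟪η i, η i⟫_ℂ).re - ‖η i‖ ^ 2))) := by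
    refine tendsto_finsetSum _ fun i _ => Tendsto.sub_const (Tendsto.const_mul _ ?_) _
    refine (Complex.continuous_re.tendsto _).comp ?_
    conv => enter [3, 1, 3]; rw [hη]
    simp only [inner_sum]
    exact tendsto_finsetSum _ fun j _ => wlim_spec (fun t => hb t i j) _ _
  have h2 : ∀ i, 2 * (⟪η i, η i⟫_ℂ).re - ‖η i‖ ^ 2 = ‖η i‖ ^ 2 := fun i => by
    have := inner_self_eq_norm_sq (𝕜 := ℂ) (η i)
    change (⟪η i, η i⟫_ℂ).re = _ at this
    linarith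
  simp only [h2] at h1
  refine le_of_forall_pos_le_add fun ε hε => le_of_tendsto h1 ((h ε hε).mono fun t ht => ?_)
  refine le_trans (Finset.sum_le_sum fun i _ => ?_) ht
  have := norm_sub_sq (𝕜 := ℂ) (η i) (∑ j, (X t i j).1 (ξ j))
  change _ = _ - 2 * (⟪η i, _⟫_ℂ).re + _ at this
  nlinarith [sq_nonneg ‖η i - ∑ j, (X t i j).1 (ξ j)‖]

theorem wlim_norm_le (hb : ∀ i, ‖v i‖ ≤ C) : ‖wlim U v‖ ≤ C := by
  obtain ⟨i₀⟩ := U.neBot.nonempty
  have hC : 0 ≤ C := (norm_nonneg _).trans (hb i₀)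
  refine ContinuousLinearMap.opNorm_le_bound _ hC fun ξ => le_of_sq_le_sq ?_ (by positivity)
  have := wlim_col_le (U := U) (I := Unit) (J := Unit) (fun t _ _ => v t) (fun t _ _ => hb t)
    (fun _ => ξ) (B := (C * ‖ξ‖) ^ 2) fun ε hε => Eventually.of_forall fun t => by
      have h1 : ‖(v t).1 ξ‖ ≤ C * ‖ξ‖ :=
        ((v t).1.le_opNorm ξ).trans (mul_le_mul_of_nonneg_right (hb t) (norm_nonneg _))
      have h2 := pow_le_pow_left₀ (norm_nonneg _) h1 2
      simp only [Finset.univ_unique, Finset.sum_singleton]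
      linarith
  simpa using this

theorem wlim_of_strong (hb : ∀ i, ‖v i‖ ≤ C) {w : Alg M}
    (h : ∀ ξ, Tendsto (fun i => (v i).1 ξ) U (𝓝 (w.1 ξ))) : wlim U v = w :=
  wlim_eq hb fun ξ _ => tendsto_const_nhds.inner (h ξ)

end VN

end Vale.Agent.P082
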