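import Vale.Agent.P082.Stmts

/-! Assembly of the vanishing theorem from its parts. -/

namespace Vale.Agent.P082

open Vale.Agent.P104

universe u

theorem bd_add {A : Type*} [NormedRing A] (l : List A) (G H : List A → A) :
    Bd l (fun w => G w - H w) = Bd l G - Bd l H := by
  induction l generalizing G H with
  | nil => simp [Bd]
  | cons y l ih =>
    cases l with
    | nil => simp [Bd]
    | cons y' l =>
      simp only [Bd]
      rw [ih (fun w => G (y :: w)) (fun w => H (y :: w))]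
      abel

theorem gauge_norm {A : Type*} [NormedRing A] [NormedAlgebra ℂ A] :
    Gauge (fun (ψ : A →L[ℂ] A) c => ‖ψ‖ ≤ c) := by
  refine ⟨fun ψ ψ' c c' h h' => ?_, fun t ψ c h => ?_, fun x ψ c h => ?_, fun y => ?_⟩
  · exact (ContinuousLinearMap.opNorm_add_le ψ ψ').trans (add_le_add h h')
  · exact (ContinuousLinearMap.opNorm_smul_le t ψ).trans
      (mul_le_mul_of_nonneg_left h (norm_nonneg _))
  · have h0 : 0 ≤ c := (norm_nonneg ψ).trans h
    refine ContinuousLinearMap.opNorm_le_bound _ (by positivity) fun a => ?_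
    refine (ψ.le_of_opNorm_le h _).trans ?_
    rw [mul_assoc]
    exact mul_le_mul_of_nonneg_left (norm_mul_le x a) h0
  · exact ContinuousLinearMap.opNorm_mul_apply_le ℂ A y

theorem slices_norm {A : Type*} [NormedRing A] [NormedAlgebra ℂ A] (h1 : ‖(1 : A)‖ ≤ 1)
    {F : List A → A} {m n : ℕ} {C : ℝ} (hC : 0 ≤ C) (h : Coch F m C) :
    Slices (fun (ψ : A →L[ℂ] A) c => ‖ψ‖ ≤ c) F n C := by
  intro l _
  have hp : 0 ≤ (l.map norm).prod := List.prod_nonneg (by simp +contextual)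
  have hb : ∀ a, ‖F (l ++ [a, 1])‖ ≤ C * (l.map norm).prod * ‖a‖ := fun a => by
    refine (h.bdd _).trans ?_
    simp only [List.map_append, List.prod_append, List.map_cons, List.map_nil, List.prod_cons,
      List.prod_nil, mul_one, ← mul_assoc]
    exact mul_le_of_le_one_right (by positivity) h1
  exact ⟨(IsLinearMap.mk' _ (h.ml l [1])).mkContinuous _ hb, fun _ => rfl,
    LinearMap.mkContinuous_norm_le _ (by positivity) _⟩

theorem Coch.mono {A : Type*} [NormedRing A] [NormedAlgebra ℂ A] {F : List A → A} {m : ℕ}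
    {C C' : ℝ} (h : Coch F m C) (hC : C ≤ C') : Coch F m C' :=
  ⟨h.ml, h.lm, h.rm, fun l => (h.bdd l).trans (mul_le_mul_of_nonneg_right hC
    (List.prod_nonneg (by simp +contextual))), h.len⟩

theorem Coch.sub {A : Type*} [NormedRing A] [NormedAlgebra ℂ A] {F G : List A → A} {m : ℕ}
    {C C' : ℝ} (h : Coch F m C) (h' : Coch G m C') : Coch (fun w => F w - G w) m (C + C') where
  ml l l' := ⟨fun a b => by rw [(h.ml l l').1, (h'.ml l l').1]; abel,
    fun c a => by rw [(h.ml l l').2, (h'.ml l l').2, smul_sub]⟩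
  lm x y l := by rw [h.lm, h'.lm, mul_sub]
  rm l y x := by rw [h.rm, h'.rm, sub_mul]
  bdd l := (norm_sub_le _ _).trans (by rw [add_mul]; exact add_le_add (h.bdd l) (h'.bdd l))
  len l hl := by rw [h.len l hl, h'.len l hl, sub_zero]

variable {K : Type u} [NormedAddCommGroup K] [InnerProductSpace ℂ K] [CompleteSpace K]
  (M : VonNeumannAlgebra K)

theorem vanish_of (hA1 : BarStmt.{u}) (hA2 : SolAvgStmt.{u}) (hS : StructStmt M)
    (hG : GlueStmt M) (hI : AvgIStmt M) (hII : AvgIIStmt M) (hCB : AvgCBStmt M)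
    (hC : CopiesStmt M) (k : ℕ)
    (f : ContinuousMultilinearMap ℂ (fun _ : Fin (k + 1) => Alg M) (Alg M))
    (hf : ∀ a, hochD f a = 0) :
    ∃ g : ContinuousMultilinearMap ℂ (fun _ : Fin k => Alg M) (Alg M), ∀ a, f a = hochD g a := by
  have h1 : ‖(1 : Alg M)‖ ≤ 1 := ContinuousLinearMap.norm_id_le
  obtain ⟨F, C, hC0, hF, hc, hfin⟩ := hA1 (Alg M) h1 k f hf
  refine hfin ((k + 3) * C) (hG F _ _ (by positivity) fun p hp hp0 => ?_)
  obtain ⟨z, hz, hz0, hpz, h⟩ := hS p hp hp0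
  refine ⟨z, hz, hz0, hpz, ?_⟩
  have key : (∃ ρ, Avg (fun (ψ : Alg M →L[ℂ] Alg M) c => ‖ψ‖ ≤ c) ρ z) →
      Sol F (k + 1) z ((k + 3) * C) := fun ⟨ρ, hρ⟩ => by
    obtain ⟨β, hβ, h2⟩ := hA2 _ _ ρ z F k C C gauge_norm hρ hz.comm hF hc (slices_norm h1 hC0 hF)
    exact ⟨β, hβ.mono (by nlinarith [(k.cast_nonneg : (0 : ℝ) ≤ k)]), h2⟩
  rcases h with h | h | h
  · obtain ⟨G, H, hG1, hG2, hG3, hH1, hH2⟩ := hC z F k C hC0 hz h hF hc
    obtain ⟨hg, ρ, hρ⟩ := hCB
    obtain ⟨β, hβ, h2⟩ := hA2 _ _ ρ 1 G k C C hg hρ (by simp) hG1 hG2 hG3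
    refine ⟨_, (hβ.sub hH1).mono (le_of_eq (by ring)), fun l hl => ?_⟩
    rw [bd_add, h2 l hl, hH2 l hl, mul_one, sub_sub_cancel]
  · exact key (hI z hz h)
  · exact key (hII z hz h)

end Vale.Agent.P082
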