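import Vale.Agent.P082.AvgCB1

/-! Averaging completely bounded maps to module maps. -/

namespace Vale.Agent.P082

open scoped InnerProductSpace
open Filter Topology Vale.Agent.P104 Finset

universe u

variable {K : Type u} [NormedAddCommGroup K] [InnerProductSpace ℂ K] [CompleteSpace K]
  {M : VonNeumannAlgebra K}

/-- Operations on maps. -/
abbrev Proc (M : VonNeumannAlgebra K) : Type u := (Alg M →L[ℂ] Alg M) → (Alg M →L[ℂ] Alg M)

/-- An admissible operation. -/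
structure Good (P : Proc M) : Prop where
  cb : ∀ ψ c, CB ψ c → CB (P ψ) c
  add : ∀ ψ ψ' c c', CB ψ c → CB ψ' c' → P (ψ + ψ') = P ψ + P ψ'
  smul : ∀ (t : ℂ) ψ c, CB ψ c → P (t • ψ) = t • P ψ
  left : ∀ y ψ c, CB ψ c → P (LM y ∘L ψ) = LM y ∘L P ψ
  right : ∀ x ψ c, CB ψ c → P (ψ ∘L LM x) = P ψ ∘L LM x
  id : ∀ y, P (LM y) = LM y

/-- Pointwise weak limit of operations. -/
def PLim {ι : Type u} (U : Ultrafilter ι) (P : ι → Proc M) (Q : Proc M) : Prop :=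
  ∀ ψ c, CB ψ c → ∀ a, WT U (fun t => P t ψ a) (Q ψ a)

/-- Closed and invariant sets of operations. -/
structure Inv (T : Set (Proc M)) : Prop where
  cl : ∀ (ι : Type u) (U : Ultrafilter ι) (P : ι → Proc M) (Q : Proc M), (∀ᶠ t in U, P t ∈ T) →
    PLim U P Q → Q ∈ T
  kr : ∀ (κ : Type) [Fintype κ] (a : κ → Alg M), ∑ k, a k * star (a k) = 1 → ∀ P ∈ T,
    (fun ψ => kr a (P ψ)) ∈ T

theorem exists_plim {ι : Type u} (U : Ultrafilter ι) (P : ι → Proc M) (h : ∀ t, Good (P t)) :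
    ∃ Q, PLim U P Q := by
  have : ∀ ψ : Alg M →L[ℂ] Alg M, ∃ g : Alg M →L[ℂ] Alg M, ∀ c, CB ψ c →
      ∀ a, WT U (fun t => P t ψ a) (g a) := fun ψ => by
    by_cases hc : ∃ c, CB ψ c
    · obtain ⟨c, hc⟩ := hc
      obtain ⟨g, hg⟩ := exists_wtL U (fun t => P t ψ) fun t => ((h t).cb ψ c hc).norm_le
      exact ⟨g, fun _ _ => hg⟩
    · exact ⟨0, fun c h => absurd ⟨c, h⟩ hc⟩
  choose Q hQ using this
  exact ⟨Q, hQ⟩

theorem inv_good : Inv {P : Proc M | Good P} where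
  cl ι U P Q hP hQ := by
    refine ⟨fun ψ c h => cb_iff.2 ⟨h.1, bz_of_lim (hQ ψ c h)
      (hP.mono fun t ht => (cb_iff.1 (ht.cb ψ c h)).2) fun _ _ => tendsto_const_nhds⟩,
      fun ψ ψ' c c' h h' => ?_, fun s ψ c h => ?_, fun y ψ c h => ?_, fun x ψ c h => ?_,
      fun y => ?_⟩ <;> ext1 a
    · exact (hQ _ _ (gauge_cb.add _ _ _ _ h h') a).unique ((hQ _ _ h a).add (hQ _ _ h' a))
        (hP.mono fun t ht => by rw [ht.add _ _ _ _ h h']; rfl)
    · exact (hQ _ _ (h.smul s) a).unique ((hQ _ _ h a).smul s)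
        (hP.mono fun t ht => by rw [ht.smul _ _ _ h]; rfl)
    · exact (hQ _ _ (h.left y) a).unique ((hQ _ _ h a).mul_left y)
        (hP.mono fun t ht => by rw [ht.left _ _ _ h]; rfl)
    · exact (hQ _ _ (h.right x) a).unique (hQ _ _ h (x * a))
        (hP.mono fun t ht => by rw [ht.right _ _ _ h]; rfl)
    · exact (hQ _ _ (gauge_cb.mul y) a).unique (wt_const _) (hP.mono fun t ht => by rw [ht.id])
  kr κ _ a ha P hP := by
    refine ⟨fun ψ c h => cb_iff.2 ⟨h.1, (cb_iff.1 (hP.cb ψ c h)).2.kr' (by simp) ha⟩,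
      fun ψ ψ' c c' h h' => ?_, fun s ψ c h => ?_, fun y ψ c h => ?_, fun x ψ c h => ?_,
      fun y => ?_⟩ <;> ext1 b
    · simp [hP.add _ _ _ _ h h', kr_apply, add_mul, sum_add_distrib]
    · simp [hP.smul _ _ _ h, kr_apply, smul_sum]
    · simp [hP.left _ _ _ h, kr_apply, mul_sum, mul_assoc]
    · simp [hP.right _ _ _ h, kr_apply, mul_assoc]
    · simp [hP.id, kr_apply, mul_assoc, ← mul_sum, ha]

theorem exists_min : ∃ T : Set (Proc M), (∀ P ∈ T, Good P) ∧ T.Nonempty ∧ Inv T ∧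
    ∀ T' ⊆ T, T'.Nonempty → Inv T' → T ⊆ T' := by
  classical
  have g0 : Good (fun ψ => ψ : Proc M) :=
    ⟨fun _ _ h => h, fun _ _ _ _ _ _ => rfl, fun _ _ _ _ => rfl, fun _ _ _ _ => rfl,
      fun _ _ _ _ => rfl, fun _ => rfl⟩
  obtain ⟨T, -, ⟨T1, T2, T3⟩, T4⟩ := zorn_superset_nonempty
    {T : Set (Proc M) | (∀ P ∈ T, Good P) ∧ T.Nonempty ∧ Inv T} (fun c hc ch hne => by
      refine ⟨⋂₀ c, ⟨fun P hP => (hc hne.some_mem).1 P (hP _ hne.some_mem), ?_,
        fun ι U P Q hP hQ t ht => (hc ht).2.2.cl ι U P Q (hP.mono fun s hs => hs t ht) hQ,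
        fun κ _ a ha P hP t ht => (hc ht).2.2.kr κ a ha P (hP t ht)⟩,
        fun s hs => Set.sInter_subset_of_mem hs⟩
      obtain ⟨l, hl, h⟩ := chain_filter (fun s t : Set (Proc M) => t ⊆ s) c hne
        (fun _ _ => subset_rfl) (fun _ _ _ _ _ _ h h' => h'.trans h)
        fun a ha b hb => (ch.total ha hb).symm
      have : ∀ t : Set (Proc M), ∃ P, Good P ∧ (t ∈ c → P ∈ t) := fun t => by
        by_cases ht : t ∈ c
        · obtain ⟨P, hP⟩ := (hc ht).2.1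
          exact ⟨P, (hc ht).1 P hP, fun _ => hP⟩
        · exact ⟨_, g0, fun h => absurd h ht⟩
      choose P P1 P2 using this
      obtain ⟨Q, hQ⟩ := exists_plim (Ultrafilter.of l) P P1
      exact ⟨Q, fun t ht => (hc ht).2.2.cl _ _ P Q
        (((h t ht).filter_mono (Ultrafilter.of_le l)).mono fun s hs => hs.2 (P2 s hs.1)) hQ⟩)
    {P | Good P} ⟨fun _ h => h, ⟨_, g0⟩, inv_good⟩
  exact ⟨T, T1, T2, T3, fun T' h1 h2 h3 => T4 ⟨fun P hP => T1 P (h1 hP), h2, h3⟩ h1⟩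

theorem exists_lower {d : Alg M} (hd : d ≠ 0) : ∃ (q : Alg M) (ε : ℝ), IsStarProjection q ∧ q ≠ 0 ∧
    0 < ε ∧ ∀ ξ, q.1 ξ = ξ → ε * ‖ξ‖ ^ 2 ≤ ‖d.1 ξ‖ ^ 2 := by
  have n0 : 0 < ‖d.1‖ := norm_pos_iff.2 fun h => hd (Subtype.ext h)
  obtain ⟨y, hy⟩ : ∃ y, y = ((‖d.1‖⁻¹ : ℝ) : ℂ) • d.1 := ⟨_, rfl⟩
  have yM : y ∈ M := hy ▸ vn_smul_mem _ d.2
  have yn : ‖star y * y‖ = 1 := by
    rw [CStarRing.norm_star_mul_self, hy, norm_smul, Complex.norm_real, norm_inv, norm_norm,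
      inv_mul_cancel₀ n0.ne', one_mul]
  obtain ⟨E, E0, E1, -, E2, E3, -⟩ := bis_mem (M := M) (mul_mem (star_mem yM) yM)
    (IsStarProjection.one _) (star_mul_self_nonneg y)
    ((CStarAlgebra.norm_le_one_iff_of_nonneg _ (star_mul_self_nonneg y)).1 yn.le)
  refine ⟨⟨E, E0⟩, ‖d.1‖ ^ 2 / 2, proj_coe.2 E1, fun h => ?_, by positivity, fun ξ hξ => ?_⟩
  · have h0 : E = 0 := congrArg Subtype.val h
    rw [h0, sub_zero] at E2 E3
    have := (CStarAlgebra.norm_le_one_iff_of_nonneg _ E2).2 E3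
    rw [norm_smul, yn] at this
    norm_num at this
  · have h1 := ((ContinuousLinearMap.nonneg_iff_isPositive _).1 E2).re_inner_nonneg_right ξ
    change E ξ = ξ at hξ
    rw [sub_apply, hξ, inner_sub_right, smul_apply, inner_smul_right, map_sub,
      inner_self_eq_norm_sq] at h1
    have h2 := norm_sq_apply y ξ
    have h3 : ‖y ξ‖ = ‖d.1‖⁻¹ * ‖d.1 ξ‖ := by
      rw [hy, smul_apply, norm_smul, Complex.norm_real, norm_inv, norm_norm]
    have h4 : ‖d.1 ξ‖ = ‖d.1‖ * ‖y ξ‖ := by rw [h3, mul_inv_cancel_left₀ n0.ne']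
    simp only [RCLike.re_to_complex, Complex.mul_re, Complex.re_ofNat, Complex.im_ofNat] at h1
    rw [h4, mul_pow]
    nlinarith [sq_nonneg ‖d.1‖]

theorem Bz.gain {z u : Alg M} (hz : ∀ x, z * x = x * z) (hu : u ∈ unitary (Alg M))
    {φ : Alg M →L[ℂ] Alg M} {r : ℝ} (h : Bz z φ fun ξ => r * ‖ξ‖ ^ 2) {t : ℂ} (ht : star t = t)
    (ht2 : t * t = 2⁻¹) : Bz z (P082.kr ![t • 1, t • u] φ)
      fun ξ => r * ‖ξ‖ ^ 2 - ‖(φ 1 - φ u * star u).1 ξ‖ ^ 2 / 4 := by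
  classical
  intro I J _ _ X hX ξ hξ
  have tn : ‖t‖ ^ 2 = 2⁻¹ := by rw [sq, ← norm_mul, ht2]; simp
  have un : ∀ {v : Alg M}, star v * v = 1 → ∀ ζ, ‖v.1 ζ‖ ^ 2 = ‖ζ‖ ^ 2 := fun {v} hv ζ =>
    norm_sq_of_star_mul_eq (y := 1) (by rw [star_one, one_mul]; exact congrArg Subtype.val hv) ζ
  have := h (I ⊕ J) (J ⊕ J) (fun i j => Sum.elim
      (fun i => Sum.elim (fun j => X i j * t • 1) (fun j => X i j * t • u) j)
      (fun i => Sum.elim (fun j => if i = j then t • 1 else 0)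
        (fun j => if i = j then -t • u else 0) j) i) (fun ζ => ?_)
    (Sum.elim (fun j => t • ξ j) fun j => t • (star u).1 (ξ j)) ?_
  · simp only [Fintype.sum_sum_type, Sum.elim_inl, Sum.elim_inr, norm_smul, mul_pow, tn,
      un (v := star u) (by rw [star_star]; exact hu.2)] at this
    have e1 : ∀ i, ∑ j, (φ (X i j * t • 1)).1 (t • ξ j) + ∑ j, (φ (X i j * t • u)).1
        (t • (star u).1 (ξ j)) = ∑ j, (P082.kr ![t • 1, t • u] φ (X i j)).1 (ξ j) := fun i => by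
      rw [← sum_add_distrib]
      refine sum_congr rfl fun j _ => ?_
      simp [kr_apply, ht]
    have e2 : ∀ i, ∑ j, (φ (if i = j then t • 1 else 0)).1 (t • ξ j) +
        ∑ j, (φ (if i = j then -t • u else 0)).1 (t • (star u).1 (ξ j)) =
        (2⁻¹ : ℂ) • (φ 1 - φ u * star u).1 (ξ i) := fun i => by
      rw [sum_eq_single i (fun j _ c => by simp [c.symm]) (by simp),
        sum_eq_single i (fun j _ c => by simp [c.symm]) (by simp), ← ht2]
      simp [smul_sub, smul_smul, sub_eq_add_neg]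
    simp only [e1, e2, norm_smul, mul_pow, norm_inv, Complex.norm_ofNat] at this
    simp only [sum_sub_distrib, ← mul_sum, ← sum_div] at this ⊢
    linarith
  · have h1 := hX fun j => t • (ζ (.inl j) + u.1 (ζ (.inr j)))
    simp only [Fintype.sum_sum_type, Sum.elim_inl, Sum.elim_inr, one_pow, one_mul] at h1 ⊢
    have e1 : ∀ i, ∑ j, (X i j * t • 1).1 (ζ (.inl j)) + ∑ j, (X i j * t • u).1 (ζ (.inr j)) =
        ∑ j, (X i j).1 (t • (ζ (.inl j) + u.1 (ζ (.inr j)))) := fun i => by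
      rw [← sum_add_distrib]
      refine sum_congr rfl fun j _ => ?_
      simp
    have e2 : ∀ i, ∑ j, (if i = j then t • 1 else 0 : Alg M).1 (ζ (.inl j)) +
        ∑ j, (if i = j then -t • u else 0 : Alg M).1 (ζ (.inr j)) =
        t • (ζ (.inl i) - u.1 (ζ (.inr i))) := fun i => by
      rw [sum_eq_single i (fun j _ c => by simp [c.symm]) (by simp),
        sum_eq_single i (fun j _ c => by simp [c.symm]) (by simp)]
      simp [smul_sub, sub_eq_add_neg]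
    simp only [e1, e2]
    refine (add_le_add h1 le_rfl).trans_eq ?_
    simp only [← sum_add_distrib, norm_smul, mul_pow, tn]
    refine sum_congr rfl fun j _ => ?_
    have := parallelogram_law_with_norm ℂ (ζ (.inl j)) (u.1 (ζ (.inr j)))
    have := un hu.1 (ζ (.inr j))
    nlinarith
  · rintro (j | j)
    · simp [hξ]
    · simp only [Sum.elim_inr, map_smul]
      congr 1
      change (z * star u).1 _ = _
      rw [hz]
      change (star u).1 (z.1 _) = _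
      rw [hξ]

theorem sum_equivFin {α β γ : Type*} [AddCommMonoid β] (F : Finset α) (r : γ) (v : α → γ)
    (f : γ → β) : ∑ o : Option (Fin F.card), f (o.elim r fun k => v (F.equivFin.symm k).1) =
      f r + ∑ w ∈ F, f (v w) := by
  simp only [Fintype.sum_option, Option.elim]
  rw [F.equivFin.symm.sum_comp fun w => f (v w.1), sum_coe_sort F fun w => f (v w)]

theorem modular {T : Set (Proc M)} (h1 : ∀ P ∈ T, Good P) (h3 : Inv T)
    (h4 : ∀ T' ⊆ T, T'.Nonempty → Inv T' → T ⊆ T') {P : Proc M} (hP : P ∈ T)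
    {ψ : Alg M →L[ℂ] Alg M} {c : ℝ} (hψ : CB ψ c) {u : Alg M} (hu : u ∈ unitary (Alg M)) :
    P ψ 1 - P ψ u * star u = 0 := by
  classical
  by_contra hd
  obtain ⟨q, ε, q1, q2, e0, q3⟩ := exists_lower hd
  obtain ⟨z, S, z1, z2, z3, z4, z5⟩ := cover q q1
  obtain ⟨t, t1, t2⟩ : ∃ t : ℂ, star t = t ∧ t * t = 2⁻¹ :=
    ⟨(√2⁻¹ : ℝ), Complex.conj_ofReal _, by
      rw [← Complex.ofReal_mul, Real.mul_self_sqrt (by norm_num)]; simp⟩
  have m1 : ∑ k, ![t • (1 : Alg M), t • u] k * star (![t • (1 : Alg M), t • u] k) = 1 := by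
    simp only [Fin.sum_univ_two, Matrix.cons_val_zero, Matrix.cons_val_one, star_smul, t1,
      smul_mul_smul_comm, t2, star_one, mul_one, hu.2, ← add_smul]
    norm_num
  obtain ⟨g, hg⟩ : ∃ g : Finset S → Alg M, ∀ F, g F = ∑ w ∈ F, w.1 * star w.1 := ⟨_, fun _ => rfl⟩
  have g1 : ∀ F, IsStarProjection (g F) := fun F => hg F ▸ proj_sumA F _
    (fun w => pi_fin (z3 _ w.2).1) fun w w' c => by
      rw [mul_assoc, ← mul_assoc (star w.1), z4 _ w.2 _ w'.2 fun e => c (Subtype.ext e), zero_mul,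
        mul_zero]
  obtain ⟨a, ha⟩ : ∃ a : (F : Finset S) → Option (Fin F.card) → Alg M, ∀ F o,
      a F o = o.elim (1 - g F) fun k => (F.equivFin.symm k).1.1 := ⟨_, fun _ _ => rfl⟩
  have a1 : ∀ F, ∑ o, a F o * star (a F o) = 1 := fun F => by
    simp only [ha]
    rw [sum_equivFin F _ Subtype.val fun x => x * star x, ← hg, (g1 F).one_sub.2.star_eq,
      (g1 F).one_sub.1.eq, sub_add_cancel]
  have step : ∀ r : ℝ, (Bz z (P ψ) fun ξ => r * ‖ξ‖ ^ 2) →
      Bz z (P ψ) fun ξ => (r - ε / 4) * ‖ξ‖ ^ 2 := fun r hr => by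
    have k1 := hr.gain z1.comm hu t1 t2
    have p1 := h3.kr _ _ m1 P hP
    have p2 := fun F => h3.kr _ _ (a1 F) _ p1
    let U := Ultrafilter.of (atTop : Filter (Finset S))
    obtain ⟨Q, hQ⟩ := exists_plim U _ fun F => h1 _ (p2 F)
    refine (h4 {P' ∈ T | Bz z (P' ψ) fun ξ => (r - ε / 4) * ‖ξ‖ ^ 2} (fun _ h => h.1)
      ⟨Q, h3.cl _ U _ Q (.of_forall p2) hQ, ?_⟩ ⟨fun ι V P' Q' k2 k3 =>
        ⟨h3.cl _ V _ _ (k2.mono fun _ h => h.1) k3, bz_of_lim (k3 ψ c hψ) (k2.mono fun _ h => h.2)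
          fun _ _ => tendsto_const_nhds⟩, fun κ _ b hb P' k2 =>
        ⟨h3.kr _ _ hb _ k2.1, k2.2.kr' z1.comm hb⟩⟩ hP).2
    refine bz_of_lim (g := fun F ξ => r * ‖ξ‖ ^ 2 - ε / 4 * (⟪ξ, (g F).1 ξ⟫_ℂ).re) (hQ ψ c hψ)
      (.of_forall fun F => (k1.kr z1.comm (a1 F)).mono fun ξ _ => ?_) fun ξ hξ => ?_
    · rw [sum_sub_distrib, ← mul_sum, sum_star_apply (a1 F), ← sum_div]
      simp only [ha]
      rw [sum_equivFin F _ Subtype.val fun x => ‖(P ψ 1 - P ψ u * star u).1 ((star x).1 ξ)‖ ^ 2]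
      have k4 : ε * (⟪ξ, (g F).1 ξ⟫_ℂ).re ≤
          ∑ w ∈ F, ‖(P ψ 1 - P ψ u * star u).1 ((star w.1).1 ξ)‖ ^ 2 := by
        simp only [hg, AddSubmonoidClass.coe_finset_sum, _root_.sum_apply, inner_sum,
          Complex.re_sum, mul_sum]
        refine sum_le_sum fun w _ => le_of_eq_of_le ?_ (q3 _ ?_)
        · rw [norm_sq_apply]
          change _ = ε * (⟪ξ, (star (star w.1) * star w.1).1 ξ⟫_ℂ).re
          rw [star_star]
        · change (q * star w.1).1 ξ = _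
          rw [← q1.2.star_eq, ← star_mul, (z3 _ w.2).2.1]
      nlinarith [sq_nonneg ‖(P ψ 1 - P ψ u * star u).1 ((star (1 - g F)).1 ξ)‖]
    · have k5 : Tendsto (fun F => (g F).1 ξ) atTop (𝓝 ξ) := by
        have := z5 ξ
        rw [hξ] at this
        simp only [hg, AddSubmonoidClass.coe_finset_sum, _root_.sum_apply]
        exact this
      have k6 := ((Complex.continuous_re.tendsto _).comp
        ((tendsto_const_nhds (x := ξ)).inner (𝕜 := ℂ) k5)).mono_left (Ultrafilter.of_le _)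
      have k7 : (⟪ξ, ξ⟫_ℂ).re = ‖ξ‖ ^ 2 := inner_self_eq_norm_sq (𝕜 := ℂ) ξ
      rw [k7] at k6
      rw [sub_mul]
      exact (k6.const_mul _).const_sub _
  have all : ∀ m : ℕ, Bz z (P ψ) fun ξ => (c ^ 2 - m * (ε / 4)) * ‖ξ‖ ^ 2 := fun m => by
    induction m with
    | zero =>
      intro I J _ _ X hX ξ _
      simpa using (cb_iff.1 ((h1 P hP).cb ψ c hψ)).2 I J X hX ξ fun _ => rfl
    | succ m ih => exact (step _ ih).mono fun ξ _ => le_of_eq (by push_cast; ring)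
  obtain ⟨m, hm⟩ := exists_nat_gt (c ^ 2 / (ε / 4))
  rw [div_lt_iff₀ (by positivity)] at hm
  refine q2 (Subtype.ext (ContinuousLinearMap.ext fun ξ => ?_))
  have := all m Empty Unit (fun _ _ => 0) (fun _ => by simp) (fun _ => q.1 ξ) fun _ =>
    congrArg (fun x : Alg M => x.1 ξ) z2
  simp only [univ_eq_empty, sum_empty, univ_unique, sum_singleton] at this
  by_contra n
  have : 0 < ‖q.1 ξ‖ ^ 2 := pow_pos (norm_pos_iff.2 n) 2
  nlinarith

theorem avgCB : AvgCBStmt M := by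
  obtain ⟨T, h1, ⟨P, hP⟩, h3, h4⟩ := exists_min (M := M)
  have g := h1 P hP
  refine ⟨gauge_cb, fun ψ => P ψ 1, fun ψ ψ' c c' h h' => by rw [g.add _ _ _ _ h h']; rfl,
    fun t ψ c h => by rw [g.smul _ _ _ h]; rfl,
    fun ψ c h => (g.cb ψ c h).apply_le ContinuousLinearMap.norm_id_le,
    fun y ψ c h => by rw [g.left _ _ _ h]; rfl, fun x ψ c h => ?_, fun y => by rw [g.id]; rfl⟩
  rw [g.right _ _ _ h]
  change P ψ (x * 1) = P ψ 1 * x
  obtain ⟨u, s, e, -⟩ := CStarAlgebra.exists_sum_four_unitary x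
  have k : ∀ i, P ψ (u i) = P ψ 1 * u i := fun i => by
    rw [sub_eq_zero.1 (modular h1 h3 h4 hP h (u i).2), mul_assoc, (u i).2.1, mul_one]
  rw [mul_one, e, map_sum, mul_sum]
  simp only [map_smul, k, mul_smul_comm]

end Vale.Agent.P082
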