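import Vale.Agent.P082.Cover

/-! Completely bounded maps: gauge properties, weak limits and Kraus maps. -/

namespace Vale.Agent.P082

open scoped InnerProductSpace
open Filter Topology Vale.Agent.P104 Finset

universe u

variable {K : Type u} [NormedAddCommGroup K] [InnerProductSpace ℂ K] [CompleteSpace K]
  {M : VonNeumannAlgebra K}

section Contr

variable {I J : Type*} [Fintype I] [Fintype J] {X Y : I → J → (K →L[ℂ] K)} {c c' : ℝ}

omit [CompleteSpace K] in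
theorem contr_add (h : Contr X c) (h' : Contr Y c') (hc : 0 ≤ c) (hc' : 0 ≤ c') :
    Contr (fun i j => X i j + Y i j) (c + c') := fun ζ => by
  have h1 := h ζ
  have h2 := h' ζ
  have h3 := sum_mul_sq_le_sq_mul_sq univ (fun i => ‖∑ j, X i j (ζ j)‖) fun i => ‖∑ j, Y i j (ζ j)‖
  have S0 : 0 ≤ ∑ j, ‖ζ j‖ ^ 2 := by positivity
  have h4 : ∑ i, ‖∑ j, X i j (ζ j)‖ * ‖∑ j, Y i j (ζ j)‖ ≤ c * c' * ∑ j, ‖ζ j‖ ^ 2 :=
    le_of_sq_le_sq (h3.trans ((mul_le_mul h1 h2 (by positivity) (by positivity)).trans_eq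
      (by ring))) (by positivity)
  calc _ ≤ ∑ i, (‖∑ j, X i j (ζ j)‖ ^ 2 + 2 * (‖∑ j, X i j (ζ j)‖ * ‖∑ j, Y i j (ζ j)‖) +
        ‖∑ j, Y i j (ζ j)‖ ^ 2) := sum_le_sum fun i _ => by
          simp only [add_apply, sum_add_distrib]
          exact (pow_le_pow_left₀ (norm_nonneg _) (norm_add_le _ _) 2).trans_eq (by ring)
    _ ≤ _ := by
      simp only [sum_add_distrib, ← mul_sum]
      nlinarith

omit [CompleteSpace K] in
theorem contr_mul (h : Contr X c) (y : K →L[ℂ] K) : Contr (fun i j => y * X i j) (‖y‖ * c) :=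
  fun ζ => by
    rw [mul_pow, mul_assoc]
    refine le_trans ?_ (mul_le_mul_of_nonneg_left (h ζ) (by positivity))
    rw [mul_sum]
    refine sum_le_sum fun i _ => ?_
    simp only [mul_apply_eq_comp, ← map_sum, ← mul_pow]
    exact pow_le_pow_left₀ (norm_nonneg _) (y.le_opNorm _) 2

omit [CompleteSpace K] in
theorem contr_smul (h : Contr X c) (t : ℂ) : Contr (fun i j => t • X i j) (‖t‖ * c) := fun ζ => by
  simp only [smul_apply, ← smul_sum, norm_smul, mul_pow, ← mul_sum, mul_assoc]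
  exact mul_le_mul_of_nonneg_left (h ζ) (by positivity)

omit [CompleteSpace K] in
theorem contr_mono (h : Contr X c) (hc : 0 ≤ c) (hcc : c ≤ c') : Contr X c' := fun ζ =>
  (h ζ).trans (by gcongr)

end Contr

/-- Left multiplication. -/
noncomputable abbrev LM (y : Alg M) : Alg M →L[ℂ] Alg M := ContinuousLinearMap.mul ℂ (Alg M) y

variable {ψ ψ' φ : Alg M →L[ℂ] Alg M} {c c' : ℝ}

theorem CB.smul (h : CB ψ c) (t : ℂ) : CB (t • ψ) (‖t‖ * c) :=
  ⟨mul_nonneg (norm_nonneg _) h.1, fun I J _ _ X hX => contr_smul (h.2 I J X hX) t⟩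

theorem CB.left (h : CB ψ c) (y : Alg M) : CB (LM y ∘L ψ) (‖y‖ * c) :=
  ⟨mul_nonneg (norm_nonneg _) h.1, fun I J _ _ X hX => contr_mul (h.2 I J X hX) y.1⟩

theorem CB.right (h : CB ψ c) (x : Alg M) : CB (ψ ∘L LM x) (c * ‖x‖) := by
  obtain ⟨y, hy, e⟩ : ∃ y : Alg M, ‖y‖ ≤ 1 ∧ x = (‖x‖ : ℂ) • y := by
    by_cases h0 : x = 0
    · exact ⟨0, by simp, by simp [h0]⟩
    have := norm_ne_zero_iff.2 h0
    refine ⟨(‖x‖ : ℂ)⁻¹ • x, by
      rw [norm_smul, norm_inv, Complex.norm_real, norm_norm, inv_mul_cancel₀ this], ?_⟩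
    rw [smul_smul, mul_inv_cancel₀ (by exact_mod_cast this), one_smul]
  have h1 : CB (ψ ∘L LM y) c := ⟨h.1, fun I J _ _ X hX => h.2 I J (fun i j => y * X i j)
    (contr_mono (contr_mul hX y.1) (by positivity) (by rw [mul_one]; exact hy))⟩
  have h2 := h1.smul (‖x‖ : ℂ)
  rw [Complex.norm_real, norm_norm, mul_comm] at h2
  convert h2 using 1
  ext1 a
  nth_rw 1 [e]
  simp

theorem gauge_cb : Gauge (CB (M := M)) where
  add _ _ _ _ h h' := ⟨add_nonneg h.1 h'.1, fun I J _ _ X hX =>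
    contr_add (h.2 I J X hX) (h'.2 I J X hX) h.1 h'.1⟩
  smul t _ _ h := h.smul t
  right x _ _ h := h.right x
  mul y := ⟨norm_nonneg _, fun I J _ _ X hX => by simpa using contr_mul hX y.1⟩

theorem CB.apply_le (h : CB ψ c) {a : Alg M} (ha : ‖a‖ ≤ 1) : ‖ψ a‖ ≤ c := by
  refine ContinuousLinearMap.opNorm_le_bound _ h.1 fun ξ => le_of_sq_le_sq ?_
    (mul_nonneg h.1 (norm_nonneg _))
  have := h.2 Unit Unit (fun _ _ => a) (fun ζ => by simpa using sq_norm_apply_le ha (ζ ())) fun _ => ξ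
  simpa [mul_pow] using this

theorem CB.norm_le (h : CB ψ c) : ‖ψ‖ ≤ c :=
  ContinuousLinearMap.opNorm_le_of_unit_norm h.1 fun _ ha => h.apply_le ha.le

/-- Weak operator convergence. -/
def WT {ι : Type*} (l : Filter ι) (v : ι → Alg M) (w : Alg M) : Prop :=
  ∀ ξ η : K, Tendsto (fun i => ⟪η, (v i).1 ξ⟫_ℂ) l (𝓝 ⟪η, w.1 ξ⟫_ℂ)

section WT

variable {ι : Type*} {l : Filter ι} {v v' : ι → Alg M} {w w' : Alg M}

theorem WT.unique [l.NeBot] (h : WT l v w) (h' : WT l v' w') (e : ∀ᶠ i in l, v i = v' i) : w = w' :=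
  Subtype.ext (ContinuousLinearMap.ext fun ξ => ext_inner_left ℂ fun η =>
    tendsto_nhds_unique ((h ξ η).congr' (e.mono fun i hi => by simp only [hi])) (h' ξ η))

theorem wt_const (w : Alg M) : WT l (fun _ => w) w := fun _ _ => tendsto_const_nhds

theorem WT.add (h : WT l v w) (h' : WT l v' w') : WT l (fun i => v i + v' i) (w + w') :=
  fun ξ η => by simpa [inner_add_right] using (h ξ η).add (h' ξ η)

theorem WT.smul (h : WT l v w) (t : ℂ) : WT l (fun i => t • v i) (t • w) :=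
  fun ξ η => by simpa [inner_smul_right] using (h ξ η).const_mul t

theorem WT.mul_left (h : WT l v w) (y : Alg M) : WT l (fun i => y * v i) (y * w) := fun ξ η => by
  have := h ξ (star y.1 η)
  simp only [inner_star_left] at this
  exact this

theorem WT.mul_right (h : WT l v w) (y : Alg M) : WT l (fun i => v i * y) (w * y) :=
  fun ξ η => h (y.1 ξ) η

theorem WT.sum {κ : Type*} (s : Finset κ) {v : κ → ι → Alg M} {w : κ → Alg M}
    (h : ∀ k, WT l (v k) (w k)) : WT l (fun i => ∑ k ∈ s, v k i) (∑ k ∈ s, w k) := fun ξ η => by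
  simpa [inner_sum] using tendsto_finsetSum s fun k _ => h k ξ η

theorem wt_col_le [l.NeBot] {I J : Type*} [Fintype I] [Fintype J] {X : ι → I → J → Alg M}
    {Z : I → J → Alg M} (hX : ∀ i j, WT l (fun t => X t i j) (Z i j)) (ξ : J → K) {B : ℝ}
    (h : ∀ ε > 0, ∀ᶠ t in l, ∑ i, ‖∑ j, (X t i j).1 (ξ j)‖ ^ 2 ≤ B + ε) :
    ∑ i, ‖∑ j, (Z i j).1 (ξ j)‖ ^ 2 ≤ B := by
  set η : I → K := fun i => ∑ j, (Z i j).1 (ξ j) with hη
  have h1 : Tendsto (fun t => ∑ i, (2 * (⟪η i, ∑ j, (X t i j).1 (ξ j)⟫_ℂ).re - ‖η i‖ ^ 2)) l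
      (𝓝 (∑ i, (2 * (⟪η i, η i⟫_ℂ).re - ‖η i‖ ^ 2))) := by
    refine tendsto_finsetSum _ fun i _ => Tendsto.sub_const (Tendsto.const_mul _ ?_) _
    refine (Complex.continuous_re.tendsto _).comp ?_
    conv => enter [3, 1, 3]; rw [hη]
    simp only [inner_sum]
    exact tendsto_finsetSum _ fun j _ => hX i j _ _
  have h2 : ∀ i, 2 * (⟪η i, η i⟫_ℂ).re - ‖η i‖ ^ 2 = ‖η i‖ ^ 2 := fun i => by
    have := inner_self_eq_norm_sq (𝕜 := ℂ) (η i)
    change (⟪η i, η i⟫_ℂ).re = _ at this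
    linarith
  simp only [h2] at h1
  refine le_of_forall_pos_le_add fun ε hε => le_of_tendsto h1 ((h ε hε).mono fun t ht => ?_)
  refine le_trans (Finset.sum_le_sum fun i _ => ?_) ht
  have := norm_sub_sq (𝕜 := ℂ) (η i) (∑ j, (X t i j).1 (ξ j))
  change _ = _ - 2 * (⟪η i, _⟫_ℂ).re + _ at this
  nlinarith [sq_nonneg ‖η i - ∑ j, (X t i j).1 (ξ j)‖]

theorem exists_wtL (U : Ultrafilter ι) (f : ι → Alg M →L[ℂ] Alg M) {C : ℝ} (hf : ∀ t, ‖f t‖ ≤ C) :
    ∃ g : Alg M →L[ℂ] Alg M, ∀ a, WT U (fun t => f t a) (g a) := by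
  have hb : ∀ a t, ‖f t a‖ ≤ C * ‖a‖ := fun a t => (f t).le_of_opNorm_le (hf t) a
  let g : Alg M →ₗ[ℂ] Alg M :=
    { toFun := fun a => wlim U fun t => f t a
      map_add' := fun a b => by simp only [map_add]; exact wlim_add (hb a) (hb b)
      map_smul' := fun t a => by simp only [map_smul]; exact wlim_smul (hb a) t }
  exact ⟨g.mkContinuous C fun a => wlim_norm_le (hb a), fun a => wlim_spec (hb a)⟩

end WT

/-- The Kraus map. -/
noncomputable def kr {κ : Type} [Fintype κ] (a : κ → Alg M) (φ : Alg M →L[ℂ] Alg M) :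
    Alg M →L[ℂ] Alg M :=
  ∑ k, (ContinuousLinearMap.mul ℂ (Alg M)).flip (star (a k)) ∘L φ ∘L
    (ContinuousLinearMap.mul ℂ (Alg M)).flip (a k)

theorem kr_apply {κ : Type} [Fintype κ] (a : κ → Alg M) (φ : Alg M →L[ℂ] Alg M) (x : Alg M) :
    kr a φ x = ∑ k, φ (x * a k) * star (a k) := by
  simp [kr]

/-- A column bound on vectors fixed by `z`. -/
def Bz (z : Alg M) (φ : Alg M →L[ℂ] Alg M) (g : K → ℝ) : Prop :=
  ∀ (I J : Type) [Fintype I] [Fintype J] (X : I → J → Alg M), Contr (fun i j => (X i j).1) 1 →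
    ∀ ξ : J → K, (∀ j, z.1 (ξ j) = ξ j) → ∑ i, ‖∑ j, (φ (X i j)).1 (ξ j)‖ ^ 2 ≤ ∑ j, g (ξ j)

theorem cb_iff : CB φ c ↔ 0 ≤ c ∧ Bz 1 φ fun ξ => c ^ 2 * ‖ξ‖ ^ 2 :=
  and_congr_right' ⟨fun h I J _ _ X hX ξ _ => by rw [← mul_sum]; exact h I J X hX ξ,
    fun h I J _ _ X hX ξ => by rw [mul_sum]; exact h I J X hX ξ fun _ => rfl⟩

theorem sum_star_apply {κ : Type*} [Fintype κ] {a : κ → Alg M} (ha : ∑ k, a k * star (a k) = 1)
    (ξ : K) : ∑ k, ‖(star (a k)).1 ξ‖ ^ 2 = ‖ξ‖ ^ 2 := by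
  have : ∀ k, ‖(star (a k)).1 ξ‖ ^ 2 = (⟪ξ, (a k * star (a k)).1 ξ⟫_ℂ).re := fun k => by
    rw [norm_sq_apply]
    change (⟪ξ, (star (star (a k)) * star (a k)).1 ξ⟫_ℂ).re = _
    rw [star_star]
  simp only [this]
  rw [← Complex.re_sum, ← inner_sum]
  have e : ∑ k, (a k * star (a k)).1 ξ = ξ := by
    have := congrArg (fun T : Alg M => T.1 ξ) ha
    simpa using this
  rw [e]
  exact inner_self_eq_norm_sq (𝕜 := ℂ) ξ

theorem row_le {κ : Type*} [Fintype κ] {a : κ → Alg M} (ha : ∑ k, a k * star (a k) = 1)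
    (ζ : κ → K) : ‖∑ k, (a k).1 (ζ k)‖ ^ 2 ≤ ∑ k, ‖ζ k‖ ^ 2 := by
  set η := ∑ k, (a k).1 (ζ k) with hη
  have h1 : ‖η‖ ^ 2 ≤ ∑ k, ‖(star (a k)).1 η‖ * ‖ζ k‖ := by
    rw [← inner_self_eq_norm_sq (𝕜 := ℂ)]
    nth_rw 2 [hη]
    rw [inner_sum, map_sum]
    refine sum_le_sum fun k _ => ?_
    rw [← inner_star_left]
    exact re_inner_le_norm _ _
  have h2 := sum_mul_sq_le_sq_mul_sq univ (fun k => ‖(star (a k)).1 η‖) fun k => ‖ζ k‖
  rw [sum_star_apply ha] at h2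
  have h3 := (pow_le_pow_left₀ (by positivity) h1 2).trans h2
  rcases (sq_nonneg ‖η‖).eq_or_lt with h0 | h0
  · rw [← h0]; positivity
  · rw [sq (‖η‖ ^ 2)] at h3
    exact le_of_mul_le_mul_left h3 h0

theorem Bz.kr {z : Alg M} (hz : ∀ x, z * x = x * z) {g : K → ℝ} (h : Bz z φ g) {κ : Type}
    [Fintype κ] {a : κ → Alg M} (ha : ∑ k, a k * star (a k) = 1) :
    Bz z (kr a φ) fun ξ => ∑ k, g ((star (a k)).1 ξ) := by
  intro I J _ _ X hX ξ hξ
  have := h I (J × κ) (fun i p => X i p.1 * a p.2) (fun ζ => ?_) (fun p => (star (a p.2)).1 (ξ p.1))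
    fun p => ?_
  · simpa [Fintype.sum_prod_type, kr_apply] using this
  · have := hX fun j => ∑ k, (a k).1 (ζ (j, k))
    simp only [Fintype.sum_prod_type, one_pow, one_mul, map_sum] at this ⊢
    exact this.trans (sum_le_sum fun j _ => row_le ha _)
  · change (z * star (a p.2)).1 _ = _
    rw [hz]
    change (star (a p.2)).1 (z.1 _) = _
    rw [hξ]

theorem Bz.mono {z : Alg M} {g g' : K → ℝ} (h : Bz z φ g) (hg : ∀ ξ, z.1 ξ = ξ → g ξ ≤ g' ξ) :
    Bz z φ g' := fun I J _ _ X hX ξ hξ =>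
  (h I J X hX ξ hξ).trans (sum_le_sum fun j _ => hg _ (hξ j))

theorem Bz.kr' {z : Alg M} (hz : ∀ x, z * x = x * z) {r : ℝ} (h : Bz z φ fun ξ => r * ‖ξ‖ ^ 2)
    {κ : Type} [Fintype κ] {a : κ → Alg M} (ha : ∑ k, a k * star (a k) = 1) :
    Bz z (P082.kr a φ) fun ξ => r * ‖ξ‖ ^ 2 :=
  (h.kr hz ha).mono fun ξ _ => by rw [← mul_sum, sum_star_apply ha]

theorem bz_of_lim {ι : Type*} {l : Filter ι} [l.NeBot] {f : ι → Alg M →L[ℂ] Alg M}
    (hf : ∀ a, WT l (fun t => f t a) (φ a)) {z : Alg M} {g : ι → K → ℝ} {g' : K → ℝ}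
    (h : ∀ᶠ t in l, Bz z (f t) (g t)) (hg : ∀ ξ, z.1 ξ = ξ → Tendsto (g · ξ) l (𝓝 (g' ξ))) :
    Bz z φ g' := fun I J _ _ X hX ξ hξ =>
  wt_col_le (X := fun t i j => f t (X i j)) (fun i j => hf _) ξ fun ε hε => by
    have := (tendsto_finsetSum univ fun j _ => hg _ (hξ j)).eventually
      (eventually_le_nhds (lt_add_of_pos_right _ hε))
    filter_upwards [h, this] with t h1 h2 using (h1 I J X hX ξ hξ).trans h2

end Vale.Agent.P082
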