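import Vale.Agent.P082.Prism

/-! Bar cochains versus Hochschild cochains; solving with an invariant averaging. -/

namespace Vale.Agent.P082

open Finset

universe u

variable {A : Type*} [NormedRing A] [NormedAlgebra ℂ A]

omit [NormedAlgebra ℂ A] in
theorem bd_snoc (l : List A) (a : A) (F : List A → A) : Bd (l ++ [a, 1]) F =
    Bd (l ++ [a]) (fun w => F (w ++ [1])) + (-1) ^ l.length * F (l ++ [a]) := by
  induction l generalizing F with
  | nil => simp [Bd]
  | cons y l ih =>
    rw [List.cons_append, List.cons_append, bd_cons _ _ (by simp), bd_cons _ _ (by simp), ih]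
    have : hm y (l ++ [a, 1]) = hm y (l ++ [a]) ++ [1] := by cases l <;> simp [hm]
    rw [this, List.length_cons, pow_succ]
    simp only [List.cons_append]
    noncomm_ring

omit [NormedAlgebra ℂ A] in
theorem bd_last (l : List A) (a w : A) (F : List A → A) : Bd (l ++ [a, w]) F =
    Bd (l ++ [a]) (fun u => F (u ++ [w])) + (-1) ^ l.length * F (l ++ [a * w]) := by
  induction l generalizing F with
  | nil => simp [Bd]
  | cons y l ih =>
    rw [List.cons_append, List.cons_append, bd_cons _ _ (by simp), bd_cons _ _ (by simp), ih]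
    have : hm y (l ++ [a, w]) = hm y (l ++ [a]) ++ [w] := by cases l <;> simp [hm]
    rw [this, List.length_cons, pow_succ]
    simp only [List.cons_append]
    noncomm_ring

/-- The bar differential with values in an abelian group. -/
def Bv {V : Type*} [AddCommGroup V] : List A → (List A → V) → V
  | y₀ :: y₁ :: l, G => G (y₀ * y₁ :: l) - Bv (y₁ :: l) (fun w => G (y₀ :: w))
  | _, _ => 0

omit [NormedAlgebra ℂ A] in
theorem bv_ind {V : Type*} [AddCommGroup V] (P : V → A → Prop) (h0 : P 0 0)
    (hs : ∀ v a v' a', P v a → P v' a' → P (v - v') (a - a')) (l : List A) {Ψ : List A → V}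
    {G : List A → A} (h : ∀ w : List A, w.length + 1 = l.length → P (Ψ w) (G w)) :
    P (Bv l Ψ) (Bd l G) := by
  induction l generalizing Ψ G with
  | nil => exact h0
  | cons y l ih =>
    cases l with
    | nil => exact h0
    | cons y' l => exact hs _ _ _ _ (h _ rfl) (ih fun w hw => h _ (by simp [hw]))

theorem solAvg {Gd : (A →L[ℂ] A) → ℝ → Prop} {ρ : (A →L[ℂ] A) → A} {z : A} {F : List A → A}
    {k : ℕ} {C₀ C : ℝ} (hC : 0 ≤ C) (hg : Gauge Gd) (hρ : Avg Gd ρ z) (hz : ∀ x, z * x = x * z)
    (hF : Coch F (k + 3) C₀) (hc : Cocyc F (k + 1)) (hs : Slices Gd F (k + 1) C) :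
    Sol F (k + 1) z C := by
  choose! ψ h1 h2 using hs
  have g0 : Gd 0 ‖(0 : A)‖ := by simpa using hg.mul 0
  have r0 : ρ 0 = 0 := by simpa using hρ.id 0
  have rs : ∀ φ φ' c c', Gd φ c → Gd φ' c' → ρ (φ - φ') = ρ φ - ρ φ' := fun φ φ' c c' a b => by
    rw [sub_eq_add_neg, ← neg_one_smul ℂ φ', hρ.add _ _ _ _ a (hg.smul _ _ _ b), hρ.smul _ _ _ b,
      neg_one_smul, sub_eq_add_neg]
  let β : List A → A := fun l => if l.length = k + 2 then
    ((-1 : ℂ) ^ (k + 1)) • (ρ (ψ l.dropLast) * l.getLastD 0) else 0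
  have hβ : ∀ (l : List A) w, l.length = k + 1 →
      β (l ++ [w]) = ((-1 : ℂ) ^ (k + 1)) • (ρ (ψ l) * w) := fun l w hl => by simp [β, hl]
  have hβ0 : ∀ l : List A, l.length ≠ k + 2 → β l = 0 := fun l hl => if_neg hl
  have split : ∀ l : List A, l.length = k + 2 → ∃ l' w, l = l' ++ [w] ∧ l'.length = k + 1 :=
    fun l hl => by
      obtain ⟨l', w, rfl⟩ := (List.eq_nil_or_concat' l).resolve_left (by rintro rfl; simp at hl)
      exact ⟨l', w, rfl, by simpa using hl⟩
  refine ⟨β, ⟨fun l₁ l₂ => ?_, fun x y l => ?_, fun l y x => ?_, fun l => ?_, hβ0⟩, fun l hl => ?_⟩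
  · by_cases c : l₁.length + l₂.length = k + 1
    swap
    · have : ∀ a, β (l₁ ++ a :: l₂) = 0 := fun a => hβ0 _ (by simp; omega)
      exact ⟨by simp [this], by simp [this]⟩
    rcases List.eq_nil_or_concat' l₂ with rfl | ⟨l₂, w, rfl⟩
    · simp only [hβ l₁ _ c]
      exact ⟨fun a b => by rw [mul_add, smul_add], fun t a => by rw [mul_smul_comm, smul_comm]⟩
    have hl : ∀ a, (l₁ ++ a :: l₂).length = k + 1 := fun a => by simpa [add_assoc] using c
    have e : ∀ a, β (l₁ ++ a :: (l₂ ++ [w])) = _ := fun a => by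
      rw [← List.cons_append, ← List.append_assoc, hβ _ _ (hl a)]
    have e2 : ∀ a b, ψ (l₁ ++ a :: l₂) b = F (l₁ ++ a :: (l₂ ++ [b, 1])) := fun a b => by
      rw [h1 _ (hl a), List.append_assoc, List.cons_append]
    refine ⟨fun a b => ?_, fun t a => ?_⟩
    · rw [e, e, e, ← smul_add, ← add_mul, ← hρ.add _ _ _ _ (h2 _ (hl a)) (h2 _ (hl b))]
      congr 3
      ext x
      rw [ContinuousLinearMap.add_apply, e2, e2, e2, (hF.ml _ _).1]
    · rw [e, e, smul_comm, ← smul_mul_assoc t, ← hρ.smul _ _ _ (h2 _ (hl a))]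
      congr 3
      ext x
      rw [ContinuousLinearMap.smul_apply, e2, e2, (hF.ml _ _).2]
  · by_cases c : (y :: l).length = k + 2
    swap
    · rw [hβ0 _ c, hβ0 (x * y :: l) c, mul_zero]
    obtain ⟨l, w, rfl⟩ := (List.eq_nil_or_concat' l).resolve_left (by rintro rfl; simp at c)
    have hl : ∀ a : A, (a :: l).length = k + 1 := fun a => by simpa using c
    rw [← List.cons_append, ← List.cons_append, hβ _ _ (hl _), hβ _ _ (hl _), mul_smul_comm,
      ← mul_assoc, ← hρ.left _ _ _ (h2 _ (hl y))]
    congr 3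
    ext a
    simp only [ContinuousLinearMap.comp_apply, ContinuousLinearMap.mul_apply', h1 _ (hl _),
      List.cons_append, hF.lm]
  · by_cases c : l.length = k + 1
    · rw [hβ _ _ c, hβ _ _ c, smul_mul_assoc, mul_assoc]
    · rw [hβ0 _ (by simpa using c), hβ0 _ (by simpa using c), zero_mul]
  · by_cases c : l.length = k + 2
    · obtain ⟨l, w, rfl, hl⟩ := split l c
      rw [hβ _ _ hl, norm_smul, norm_pow, norm_neg, norm_one, one_pow, one_mul]
      refine (norm_mul_le _ _).trans ?_
      simpa [← mul_assoc] using mul_le_mul_of_nonneg_right (hρ.norm _ _ (h2 l hl)) (norm_nonneg w)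
    · rw [hβ0 l c, norm_zero]
      exact mul_nonneg hC (prod_norm_nonneg l)
  · obtain ⟨l, w, rfl⟩ := (List.eq_nil_or_concat' l).resolve_left (by rintro rfl; simp at hl)
    obtain ⟨l, a, rfl, hl'⟩ := split l (by simpa using hl)
    have k1 := bv_ind (fun (φ : A →L[ℂ] A) x => (∃ c, Gd φ c) ∧
      ((-1 : ℂ) ^ (k + 1)) • (ρ φ * w) = x) ⟨⟨_, g0⟩, by rw [r0, zero_mul, smul_zero]⟩
      (fun φ x φ' x' ⟨⟨c, a1⟩, a2⟩ ⟨⟨c', b1⟩, b2⟩ => ⟨⟨_, by
        rw [sub_eq_add_neg, ← neg_one_smul ℂ φ']
        exact hg.add _ _ _ _ a1 (hg.smul _ _ _ b1)⟩, by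
          rw [rs _ _ _ _ a1 b1, sub_mul, smul_sub, a2, b2]⟩) (l ++ [a]) (Ψ := ψ)
      (G := fun u => β (u ++ [w])) fun u hu => by
        have hu' : u.length = k + 1 := by simpa [hl'] using hu
        exact ⟨⟨_, h2 u hu'⟩, (hβ u w hu').symm⟩
    have k2 : ∀ b, Bv (l ++ [a]) ψ b = Bd (l ++ [a]) fun u => F (u ++ [b, 1]) := fun b =>
      bv_ind (fun (φ : A →L[ℂ] A) x => φ b = x) rfl (fun φ x φ' x' a1 a2 => by
        rw [ContinuousLinearMap.sub_apply, a1, a2]) _ fun u hu =>
          h1 u (by simpa [hl'] using hu) b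
    have k3 : Bv (l ++ [a]) ψ = ((-1 : ℂ) ^ (k + 1)) • (ContinuousLinearMap.mul ℂ A
        (F (l ++ [a, 1])) - ψ l ∘L ContinuousLinearMap.mul ℂ A a) := by
      ext b
      have e := hc (l ++ [a] ++ [b, 1]) (by simp [hl'])
      have e' := hF.rm (l ++ [a]) 1 b
      rw [bd_snoc, List.append_assoc, List.singleton_append, bd_last] at e
      simp only [List.append_assoc, List.singleton_append, List.length_append, hl',
        List.length_singleton, one_mul, List.cons_append, List.nil_append] at e e'
      simp only [k2, ContinuousLinearMap.smul_apply, ContinuousLinearMap.sub_apply,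
        ContinuousLinearMap.comp_apply, ContinuousLinearMap.mul_apply', h1 l hl', ← e']
      rw [pow_succ _ (k + 1)] at e
      rw [Algebra.smul_def, map_pow, map_neg, map_one]
      linear_combination (norm := noncomm_ring) e
    have k4 := hg.right a _ _ (h2 l hl')
    obtain ⟨c5, k5⟩ : ∃ c, Gd (ContinuousLinearMap.mul ℂ A (F (l ++ [a, 1])) -
        ψ l ∘L ContinuousLinearMap.mul ℂ A a) c := by
      rw [sub_eq_add_neg, ← neg_one_smul ℂ (_ ∘L _)]
      exact ⟨_, hg.add _ _ _ _ (hg.mul _) (hg.smul _ _ _ k4)⟩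
    have e' := hF.rm (l ++ [a]) 1 w
    rw [List.append_assoc, List.singleton_append, bd_last, ← k1.2, hβ _ _ hl', k3,
      hρ.smul _ _ _ k5, rs _ _ _ _ (hg.mul _) k4, hρ.id, hρ.right _ _ _ (h2 l hl'), hl',
      smul_mul_assoc, smul_smul, ← mul_pow, neg_one_mul, neg_neg, one_pow, one_smul,
      Algebra.smul_def, map_pow, map_neg, map_one, ← mul_assoc, ← (Commute.refl _).mul_pow,
      neg_one_mul, neg_neg, one_pow, one_mul]
    simp only [List.append_assoc, List.singleton_append, one_mul] at e'
    rw [e', mul_assoc _ w, ← hz w]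
    noncomm_ring

omit [NormedAlgebra ℂ A] in
theorem bd_ofFn (n : ℕ) (a : Fin (n + 1) → A) (G : List A → A) : Bd (List.ofFn a) G =
    ∑ j : Fin n, (-1) ^ (j : ℕ) * G (List.ofFn (Fin.contractNth j.castSucc (· * ·) a)) := by
  induction n generalizing G with
  | zero => simp [Bd]
  | succ n ih =>
    rw [List.ofFn_succ, bd_cons _ _ (by simp), ih, Fin.sum_univ_succ, sub_eq_add_neg,
      ← sum_neg_distrib]
    congr 1
    · rw [List.ofFn_succ, List.ofFn_succ, hm]
      simp [Fin.contractNth]
    · refine sum_congr rfl fun j _ => ?_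
      rw [List.ofFn_succ (f := Fin.contractNth _ _ a), Fin.val_succ, pow_succ, mul_neg_one, neg_mul]
      have e0 : Fin.contractNth j.succ.castSucc (· * ·) a 0 = a 0 :=
        Fin.contractNth_apply_of_lt _ _ _ _ (by simp)
      rw [e0]
      congr 5
      ext i
      simp only [Fin.contractNth, Fin.val_castSucc, Fin.val_succ, add_lt_add_iff_right,
        add_left_inj, Fin.succ_castSucc]

omit [NormedAlgebra ℂ A] in
theorem bd_hoch {G : List A → A} (h1 : ∀ (x y : A) (l : List A), G (x * y :: l) = x * G (y :: l))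
    (h2 : ∀ (l : List A) (y x : A), G (l ++ [y * x]) = G (l ++ [y]) * x) {n : ℕ}
    (a : Fin (n + 1) → A) (y w : A) : Bd (y :: (List.ofFn a ++ [w])) G =
      y * hochD (fun x => G (1 :: (List.ofFn x ++ [1]))) a * w := by
  have e : ∀ (y w : A) l, G (y :: (l ++ [w])) = y * G (1 :: (l ++ [1])) * w := fun y w l => by
    rw [← h1, mul_one, ← List.cons_append, ← List.cons_append, ← h2, one_mul]
  have e1 : List.ofFn a ++ [w] = List.ofFn (fun i => a i.castSucc) ++ [a (Fin.last n), w] := by
    rw [List.ofFn_succ', List.concat_eq_append, List.append_assoc, List.singleton_append]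
  have e2 : List.ofFn (fun i => a i.castSucc) ++ [a (Fin.last n)] = List.ofFn a := by
    rw [List.ofFn_succ' a, List.concat_eq_append]
  rw [bd_cons _ _ (by simp)]
  nth_rw 2 [e1]
  rw [bd_last, e2, bd_ofFn, List.ofFn_succ, List.cons_append, hm, hochD, List.length_ofFn]
  simp only [e _ w, e y, mul_add, add_mul, mul_sum, sum_mul, pow_succ, mul_neg_one, neg_mul,
    mul_neg, sum_neg_distrib, mul_assoc, ← ((Commute.neg_one_left y).pow_left _).left_comm,
    one_mul]
  abel

theorem getD_update {n : ℕ} (l₁ l₂ : List A) (h : l₁.length < n) (a : A) :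
    (fun i : Fin n => (l₁ ++ a :: l₂).getD i 0) =
      Function.update (fun i : Fin n => (l₁ ++ 0 :: l₂).getD i 0) ⟨l₁.length, h⟩ a := by
  ext i
  by_cases c : i = ⟨l₁.length, h⟩
  · simp [c]
  · rw [Function.update_of_ne c]
    have : (i : ℕ) ≠ l₁.length := fun e => c (Fin.ext e)
    simp only [List.getD_eq_getElem?_getD, List.getElem?_append, List.getElem?_cons]
    split_ifs <;> first | rfl | omega

theorem barStmt : BarStmt.{u} := by
  intro A _ _ h1 k f hf
  let F : List A → A := fun l => if l.length = k + 3 then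
    l.headD 0 * f (fun i => l.tail.getD i 0) * l.getLastD 0 else 0
  have F0 : ∀ l : List A, l.length ≠ k + 3 → F l = 0 := fun l hl => if_neg hl
  have F1 : ∀ y w (l : List A), l.length = k + 1 →
      F (y :: (l ++ [w])) = y * f (fun i => l.getD i 0) * w := fun y w l hl => by
    have : (fun i : Fin (k + 1) => (l ++ [w]).getD i 0) = fun i : Fin (k + 1) => l.getD i 0 :=
      funext fun i => List.getD_append _ _ _ _ (by rw [hl]; exact i.2)
    simp only [F, List.tail_cons, this]
    rw [if_pos (by simp [hl]), ← List.cons_append, List.getLastD_concat]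
    rfl
  have F2 : ∀ y w (x : Fin (k + 1) → A), F (y :: (List.ofFn x ++ [w])) = y * f x * w :=
    fun y w x => by
      rw [F1 _ _ _ (by simp)]
      congr 3
      ext i
      rw [List.getD_eq_getElem _ _ (by simpa using i.2), List.getElem_ofFn]
  have sp : ∀ (n : ℕ) (l : List A), l.length = n + 2 →
      ∃ (y w : A) (x : Fin n → A), l = y :: (List.ofFn x ++ [w]) := fun n l hl => by
    obtain _ | ⟨y, l⟩ := l
    · simp at hl
    obtain ⟨l, w, rfl⟩ := (List.eq_nil_or_concat' l).resolve_left (by rintro rfl; simp at hl)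
    obtain rfl : l.length = n := by simpa using hl
    exact ⟨y, w, l.get, by rw [List.ofFn_get]⟩
  have lm : ∀ (x y : A) (l : List A), F (x * y :: l) = x * F (y :: l) := fun x y l => by
    simp only [F, List.length_cons, List.headD_cons, List.tail_cons, mul_ite, mul_zero, mul_assoc]
    refine ite_congr rfl (fun h => ?_) fun _ => rfl
    cases l
    · simp at h
    · rfl
  have rm : ∀ (l : List A) (y x : A), F (l ++ [y * x]) = F (l ++ [y]) * x := fun l y x => by
    by_cases c : l.length = k + 2
    · obtain _ | ⟨y', l⟩ := l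
      · simp at c
      rw [List.cons_append, List.cons_append, F1 _ _ _ (by simpa using c),
        F1 _ _ _ (by simpa using c), mul_assoc, mul_assoc, mul_assoc]
    · rw [F0 _ (by simpa using c), F0 _ (by simpa using c), zero_mul]
  refine ⟨F, ‖f‖, norm_nonneg _, ⟨fun l₁ l₂ => ?_, lm, rm, fun l => ?_, F0⟩, fun l hl => ?_, ?_⟩
  · by_cases c : l₁.length + l₂.length = k + 2
    swap
    · have : ∀ a, F (l₁ ++ a :: l₂) = 0 := fun a => F0 _ (by simp; omega)
      exact ⟨by simp [this], by simp [this]⟩
    obtain _ | ⟨y, l₁⟩ := l₁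
    · have : ∀ a, F (a :: l₂) = a * F (1 :: l₂) := fun a => by rw [← lm, mul_one]
      exact ⟨fun a b => by simp only [List.nil_append, this (a + b), this a, this b, add_mul],
        fun t a => by simp only [List.nil_append, this (t • a), this a, smul_mul_assoc]⟩
    rcases List.eq_nil_or_concat' l₂ with rfl | ⟨l₂, w, rfl⟩
    · have : ∀ a, F (y :: l₁ ++ [a]) = F (y :: l₁ ++ [1]) * a := fun a => by rw [← rm, one_mul]
      exact ⟨fun a b => by simp only [this (a + b), this a, this b, mul_add],
        fun t a => by simp only [this (t • a), this a, mul_smul_comm]⟩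
    have e : ∀ a, F (y :: l₁ ++ a :: (l₂ ++ [w])) = _ := fun a => by
      rw [List.cons_append, ← List.cons_append (a := a), ← List.append_assoc,
        F1 _ _ _ (by simp at c ⊢; omega), getD_update _ _ (by simp at c; omega)]
    exact ⟨fun a b => by simp only [e, f.map_update_add, mul_add, add_mul],
      fun t a => by simp only [e, f.map_update_smul, mul_smul_comm, smul_mul_assoc]⟩
  · by_cases c : l.length = k + 3
    · obtain ⟨y, w, x, rfl⟩ := sp _ l c
      rw [F2]
      refine (norm_mul₃_le).trans ?_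
      simp only [List.map_cons, List.prod_cons, List.map_append, List.prod_append, List.map_ofFn,
        List.prod_ofFn, List.map_nil, List.prod_nil, mul_one, Function.comp_apply]
      calc _ ≤ ‖y‖ * (‖f‖ * ∏ i, ‖x i‖) * ‖w‖ := by gcongr; exact f.le_opNorm x
        _ = _ := by ring
    · rw [F0 l c, norm_zero]
      exact mul_nonneg (norm_nonneg _) (prod_norm_nonneg l)
  · obtain ⟨y, w, x, rfl⟩ := sp _ l hl
    simp only [bd_hoch lm rm, F2, one_mul, mul_one]
    rw [hf x, mul_zero, zero_mul]
  · rintro C ⟨β, hβ, h2⟩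
    have e : ∀ (x : Fin k → A) (j : Fin k) (a : A) [DecidableEq (Fin k)], List.ofFn
        (Function.update x j a) = (List.ofFn x).take j ++ a :: (List.ofFn x).drop (j + 1) := by
      intro x j a _
      refine Eq.trans ?_ ((List.set_eq_take_append_cons_drop (l := List.ofFn x) (i := j)
        (a := a)).trans (if_pos (by simp)))
      refine List.ext_getElem (by simp) fun i _ _ => ?_
      simp [List.getElem_set, Function.update_apply, Fin.ext_iff, eq_comm]
    let g : MultilinearMap ℂ (fun _ : Fin k => A) A :=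
      { toFun := fun x => β (1 :: (List.ofFn x ++ [1]))
        map_update_add' := fun x j a b => by
          simp only [e, List.append_assoc, List.cons_append]
          exact (hβ.ml (1 :: _) _).1 a b
        map_update_smul' := fun x j t a => by
          simp only [e, List.append_assoc, List.cons_append]
          exact (hβ.ml (1 :: _) _).2 t a }
    have C0 : 0 ≤ C := by simpa using (norm_nonneg _).trans (hβ.bdd [])
    refine ⟨g.mkContinuous C fun x => (hβ.bdd _).trans (mul_le_mul_of_nonneg_left ?_ C0),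
      fun a => ?_⟩
    · simp only [List.map_cons, List.prod_cons, List.map_append, List.prod_append, List.map_ofFn,
        List.prod_ofFn, List.map_nil, List.prod_nil, mul_one, Function.comp_apply]
      have : 0 ≤ ∏ i, ‖x i‖ := prod_nonneg fun _ _ => norm_nonneg _
      exact (mul_le_of_le_one_left (by positivity) h1).trans (mul_le_of_le_one_right this h1)
    · have := h2 (1 :: (List.ofFn a ++ [1])) (by simp)
      rw [bd_hoch hβ.lm hβ.rm, F2] at this
      simp only [one_mul, mul_one] at this
      exact this.symm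

end Vale.Agent.P082
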