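import Vale.Agent.P082.Stmts

/-! WP D1: Chebyshev polynomial estimates. -/

namespace Vale.Agent.P082

open Polynomial Polynomial.Chebyshev Finset

noncomputable def sN (n : ℕ) : ℝ[X] := S ℝ n

lemma sN_zero : sN 0 = 1 := by simp [sN]

lemma sN_one : sN 1 = X := by simp [sN]

lemma sN_rec (n : ℕ) : sN (n + 2) = X * sN (n + 1) - sN n := by
  have := S_add_two ℝ (n : ℤ)
  simp only [sN]
  push_cast
  exact this

lemma sN_cas (n : ℕ) : sN n ^ 2 + sN (n + 1) ^ 2 - X * sN n * sN (n + 1) = 1 := by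
  have := S_sq_add_S_sq ℝ (n : ℤ)
  simp only [sN]
  push_cast
  exact this

/-- `S_n S_{n+1}` and `S_n^2` expansions. -/
lemma sN_sq_aux (n : ℕ) : sN (2 * n + 2) = sN (n + 1) ^ 2 - sN n ^ 2 ∧
    sN (2 * n + 3) = sN (n + 1) * (X * sN (n + 1) - 2 * sN n) := by
  induction n with
  | zero =>
    have h2 := sN_rec 0
    have h3 := sN_rec 1
    simp only [zero_add, mul_zero, sN_zero, sN_one] at *
    refine ⟨by rw [h2]; ring, ?_⟩
    rw [h3, h2]; ring
  | succ n ih =>
    obtain ⟨h1, h2⟩ := ih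
    have r1 := sN_rec (2 * n + 2)
    have r2 := sN_rec (2 * n + 3)
    have r3 := sN_rec n
    have e1 : 2 * (n + 1) + 2 = 2 * n + 2 + 2 := by ring
    have e2 : 2 * (n + 1) + 3 = 2 * n + 3 + 2 := by ring
    have e3 : 2 * n + 2 + 1 = 2 * n + 3 := by ring
    have e4 : 2 * n + 3 + 1 = 2 * n + 2 + 2 := by ring
    have e5 : n + 1 + 1 = n + 2 := by ring
    rw [e3] at r1
    rw [e4] at r2
    rw [e1, e2, e5]
    refine ⟨by rw [r1, h1, h2, r3]; ring, ?_⟩
    rw [r2, r1, h1, h2, r3]; ring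

lemma sN_sq (n : ℕ) : sN n ^ 2 = ∑ j ∈ range (n + 1), sN (2 * j) := by
  induction n with
  | zero => simp [sN_zero]
  | succ n ih =>
    rw [sum_range_succ, ← ih, show 2 * (n + 1) = 2 * n + 2 by ring, (sN_sq_aux n).1]; ring

noncomputable def pY (k : ℕ) : ℝ[X] := (sN k).comp (2 - X ^ 2)

lemma pY_rec (k : ℕ) : pY (k + 2) = (2 - X ^ 2) * pY (k + 1) - pY k := by
  simp [pY, sN_rec]

lemma sN_four (n : ℕ) : sN (n + 4) = (X ^ 2 - 2) * sN (n + 2) - sN n := by
  have r1 := sN_rec (n + 2)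
  have r2 := sN_rec (n + 1)
  have r3 := sN_rec n
  rw [show n + 2 + 2 = n + 4 by ring, show n + 2 + 1 = n + 3 by ring] at r1
  rw [show n + 1 + 2 = n + 3 by ring, show n + 1 + 1 = n + 2 by ring] at r2
  rw [r1, r2]
  linear_combination r3

lemma X_pY (k : ℕ) : X * pY k = (-1) ^ k * sN (2 * k + 1) := by
  induction k using Nat.twoStepInduction with
  | zero => simp [pY, sN_zero, sN_one]
  | one =>
    have h2 := sN_rec 0
    have h3 := sN_rec 1
    simp only [zero_add, sN_zero, sN_one] at h2 h3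
    simp only [pY, sN_one, X_comp, show 2 * 1 + 1 = 1 + 2 by ring]
    rw [h3, show (1 + 1 : ℕ) = 2 by rfl, h2]; ring
  | more k h0 h1 =>
    have r := sN_four (2 * k + 1)
    rw [show 2 * k + 1 + 4 = 2 * (k + 2) + 1 by ring,
      show 2 * k + 1 + 2 = 2 * (k + 1) + 1 by ring] at r
    rw [pY_rec, r]
    linear_combination (2 - X ^ 2) * h1 - h0

lemma pY_succ (k : ℕ) : pY (k + 1) = pY k + (-1) ^ (k + 1) * sN (2 * (k + 1)) := by
  induction k using Nat.twoStepInduction with
  | zero =>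
    have h2 := sN_rec 0
    simp only [zero_add, sN_zero, sN_one] at h2
    simp only [pY, sN_one, sN_zero, X_comp, one_comp, zero_add, mul_one]
    rw [h2]; ring
  | one =>
    have h2 := sN_rec 0
    have h4 := sN_four 0
    have p2 := pY_rec 0
    simp only [zero_add, sN_zero, sN_one] at h2 h4 p2
    have p1 : pY 1 = 2 - X ^ 2 := by simp [pY, sN_one]
    have p0 : pY 0 = 1 := by simp [pY, sN_zero]
    rw [show (1 + 1 : ℕ) = 2 by rfl, show 2 * 2 = 4 by rfl, p2, p1, p0, h4, h2]; ring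
  | more k h0 h1 =>
    have r := sN_four (2 * (k + 1))
    rw [show 2 * (k + 1) + 4 = 2 * (k + 2 + 1) by ring,
      show 2 * (k + 1) + 2 = 2 * (k + 1 + 1) by ring] at r
    have q1 := pY_rec (k + 1)
    have q0 := pY_rec k
    rw [show k + 1 + 2 = k + 2 + 1 by ring, show k + 1 + 1 = k + 2 by ring] at q1
    rw [show k + 1 + 1 = k + 2 by ring] at h1 r
    rw [r]
    linear_combination q1 - q0 + (2 - X ^ 2) * h1 - h0

lemma pY_sum (k : ℕ) : pY k = ∑ i ∈ range (k + 1), (-1) ^ i * sN (2 * i) := by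
  induction k with
  | zero => simp [pY, sN_zero]
  | succ k ih => rw [sum_range_succ, ← ih, pY_succ]

lemma pY_sq (n : ℕ) : pY n ^ 2 = ∑ j ∈ range (n + 1), pY (2 * j) := by
  have := congrArg (fun p : ℝ[X] => p.comp (2 - X ^ 2)) (sN_sq n)
  simpa [pY, Polynomial.sum_comp] using this

/-- Spread a sequence on the even indices with alternating signs. -/
noncomputable def ev (d : ℕ → ℝ) (n : ℕ) : ℝ := if n % 2 = 0 then (-1) ^ (n / 2) * d (n / 2) else 0

lemma sum_ev {V : Type*} [AddCommMonoid V] (G : ℝ → ℕ → V) (h0 : ∀ n, G 0 n = 0) (d : ℕ → ℝ)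
    (M : ℕ) : ∑ n ∈ range (2 * M), G (ev d n) n =
      ∑ i ∈ range M, G ((-1) ^ i * d i) (2 * i) := by
  induction M with
  | zero => simp
  | succ M ih =>
    rw [show 2 * (M + 1) = 2 * M + 1 + 1 by ring, sum_range_succ, sum_range_succ, ih,
      sum_range_succ]
    have e1 : ev d (2 * M) = (-1) ^ M * d M := by simp [ev]
    have e2 : ev d (2 * M + 1) = 0 := by simp [ev]
    rw [e1, e2, h0, add_zero]

lemma sN_bound {y : ℝ} (hy : |y| ≤ 2) (n : ℕ) :
    |(sN n).eval y| ≤ n + 1 ∧ (4 - y ^ 2) * (sN n).eval y ^ 2 ≤ 4 := by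
  have hy2 : y ^ 2 ≤ 4 := by nlinarith [abs_nonneg y, sq_abs y]
  have key : ∀ m : ℕ, ((sN (m + 1)).eval y - y / 2 * (sN m).eval y) ^ 2 =
      1 - (4 - y ^ 2) / 4 * (sN m).eval y ^ 2 := by
    intro m
    have := congrArg (fun p : ℝ[X] => p.eval y) (sN_cas m)
    simp only [eval_sub, eval_add, eval_pow, eval_mul, eval_X, eval_one] at this
    linear_combination this
  refine ⟨?_, ?_⟩
  · induction n with
    | zero => simp [sN_zero]
    | succ n ih =>
      have h1 := key n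
      have h2 : |(sN (n + 1)).eval y - y / 2 * (sN n).eval y| ≤ 1 := by
        rw [← sq_le_one_iff_abs_le_one, h1]
        have : 0 ≤ (4 - y ^ 2) / 4 * (sN n).eval y ^ 2 := by
          apply mul_nonneg (by linarith) (sq_nonneg _)
        linarith
      have h3 : |y / 2 * (sN n).eval y| ≤ |(sN n).eval y| := by
        rw [abs_mul, abs_div, abs_two]
        nlinarith [abs_nonneg ((sN n).eval y), abs_nonneg y]
      have h4 := abs_add_le ((sN (n + 1)).eval y - y / 2 * (sN n).eval y) (y / 2 * (sN n).eval y)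
      rw [sub_add_cancel] at h4
      push_cast
      linarith
  · have h1 := key n
    nlinarith [sq_nonneg ((sN (n + 1)).eval y - y / 2 * (sN n).eval y)]

/-- Nonnegative combinations of the first `M` polynomials with mass at least `μ`. -/
def Cone (M : ℕ) (p : ℝ → ℝ) (μ : ℝ) : Prop :=
  ∃ γ : ℕ → ℝ, (∀ k, 0 ≤ γ k) ∧ μ ≤ ∑ k ∈ range M, γ k ∧
    ∀ y, p y = ∑ k ∈ range M, γ k * (sN k).eval y

lemma Cone.zero (M : ℕ) : Cone M (fun _ => 0) 0 := ⟨fun _ => 0, by simp, by simp, by simp⟩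

lemma Cone.add {M : ℕ} {p q : ℝ → ℝ} {μ ν : ℝ} (h : Cone M p μ) (h' : Cone M q ν) :
    Cone M (fun y => p y + q y) (μ + ν) := by
  obtain ⟨γ, h1, h2, h3⟩ := h
  obtain ⟨δ, g1, g2, g3⟩ := h'
  refine ⟨fun k => γ k + δ k, fun k => add_nonneg (h1 k) (g1 k), ?_, fun y => ?_⟩
  · rw [sum_add_distrib]; linarith
  · simp only [h3, g3, add_mul, sum_add_distrib]

lemma Cone.smul {M : ℕ} {p : ℝ → ℝ} {μ c : ℝ} (hc : 0 ≤ c) (h : Cone M p μ) :
    Cone M (fun y => c * p y) (c * μ) := by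
  obtain ⟨γ, h1, h2, h3⟩ := h
  refine ⟨fun k => c * γ k, fun k => mul_nonneg hc (h1 k), ?_, fun y => ?_⟩
  · rw [← mul_sum]; exact mul_le_mul_of_nonneg_left h2 hc
  · simp only [h3, mul_sum, mul_assoc]

lemma Cone.base {M k : ℕ} (hk : k < M) : Cone M (fun y => (sN k).eval y) 1 := by
  refine ⟨fun j => if j = k then 1 else 0, fun j => by dsimp only; split_ifs <;> simp, ?_,
    fun y => ?_⟩
  · simp [hk]
  · simp [ite_mul, hk]

lemma Cone.sum {M : ℕ} (n : ℕ) (p : ℕ → ℝ → ℝ) (μ : ℝ) (h : ∀ j < n, Cone M (p j) μ) :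
    Cone M (fun y => ∑ j ∈ range n, p j y) (n * μ) := by
  induction n with
  | zero => simpa using Cone.zero M
  | succ n ih =>
    have := (ih fun j hj => h j (by omega)).add (h n (by omega))
    simp only [sum_range_succ]
    push_cast
    rwa [add_mul, one_mul]

lemma Cone.mono {M : ℕ} {p q : ℝ → ℝ} {μ ν : ℝ} (h : Cone M p μ) (hq : ∀ y, q y = p y)
    (hν : ν ≤ μ) : Cone M q ν := by
  obtain ⟨γ, h1, h2, h3⟩ := h
  exact ⟨γ, h1, hν.trans h2, fun y => (hq y).trans (h3 y)⟩

lemma cone_two {M k : ℕ} (hk : k + 1 < M) : Cone M (fun y => (2 + y) * (sN k).eval y) 2 := by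
  cases k with
  | zero =>
    have := ((Cone.base (M := M) (k := 0) (by omega)).smul (c := 2) (by norm_num)).add
      (Cone.base (k := 1) hk)
    exact this.mono (fun y => by simp [sN_zero, sN_one]) (by norm_num)
  | succ k =>
    have := (((Cone.base (M := M) (k := k + 1) (by omega)).smul (c := 2) (by norm_num)).add
      (Cone.base (k := k + 2) hk)).add (Cone.base (k := k) (by omega))
    refine this.mono (fun y => ?_) (by norm_num)
    simp only [sN_rec, eval_sub, eval_mul, eval_X]; ring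

noncomputable def blk (n : ℕ) (y : ℝ) : ℝ := (1 / (n + 1 : ℝ)) * ((2 + y) * (sN n).eval y ^ 2)

lemma cone_blk {M n : ℕ} (h : 2 * n + 1 < M) : Cone M (blk n) 2 := by
  have h1 := Cone.sum (M := M) (n + 1) (fun j y => (2 + y) * (sN (2 * j)).eval y) 2
    (fun j hj => cone_two (by omega))
  have h2 := h1.smul (c := 1 / (n + 1 : ℝ)) (by positivity)
  refine h2.mono (fun y => ?_) (le_of_eq ?_)
  · have := congrArg (fun p : ℝ[X] => p.eval y) (sN_sq n)
    simp only [eval_pow, eval_finsetSum] at this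
    simp only [blk, this, mul_sum]
  · push_cast; field_simp

lemma blk_bound {t : ℝ} (ht : |t| ≤ 2) (n : ℕ) :
    |t * blk n (2 - t ^ 2)| ≤
      24 * (1 / (1 + |t| * (n + 1)) - 1 / (1 + |t| * (2 * (n + 1)))) := by
  have ht2 : t ^ 2 ≤ 4 := by nlinarith [abs_nonneg t, sq_abs t]
  have hy : |2 - t ^ 2| ≤ 2 := by rw [abs_le]; constructor <;> nlinarith [sq_nonneg t]
  obtain ⟨b1, b2⟩ := sN_bound hy n
  obtain ⟨s, hs⟩ : ∃ s, s = (sN n).eval (2 - t ^ 2) := ⟨_, rfl⟩
  obtain ⟨N, hN⟩ : ∃ N : ℝ, N = n + 1 := ⟨_, rfl⟩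
  have hN0 : 0 < N := by rw [hN]; positivity
  obtain ⟨a, ha⟩ : ∃ a, a = |t| := ⟨_, rfl⟩
  have ha0 : 0 ≤ a := by rw [ha]; exact abs_nonneg t
  have hta : t ^ 2 = a ^ 2 := by rw [ha, sq_abs]
  have hs2 : s ^ 2 ≤ N ^ 2 := by
    rw [hs, hN, ← sq_abs]; exact pow_le_pow_left₀ (abs_nonneg _) b1 2
  obtain ⟨q, hq⟩ : ∃ q, q = (4 - a ^ 2) * s ^ 2 := ⟨_, rfl⟩
  have hq0 : 0 ≤ q := by rw [hq]; exact mul_nonneg (by linarith) (sq_nonneg _)
  have hq1 : q ≤ 4 * N ^ 2 := by rw [hq]; nlinarith [sq_nonneg a, sq_nonneg s]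
  have hq2 : a ^ 2 * q ≤ 4 := by
    rw [← hs] at b2
    rw [hq]; rw [hta] at b2; nlinarith
  have e : |t * blk n (2 - t ^ 2)| = a * q / N := by
    have : blk n (2 - t ^ 2) = q / N := by
      simp only [blk]; rw [← hs, ← hN, hq, hta]; field_simp; ring
    rw [abs_mul, this, ← ha, abs_of_nonneg (div_nonneg hq0 hN0.le)]; ring
  rw [e, ← ha, ← hN]
  obtain ⟨w, hw⟩ : ∃ w, w = a * q / N := ⟨_, rfl⟩
  obtain ⟨u, hu⟩ : ∃ u, u = a * N := ⟨_, rfl⟩
  have hu0 : 0 ≤ u := by rw [hu]; positivity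
  have hw0 : 0 ≤ w := by rw [hw]; positivity
  have w1 : w ≤ 4 * u := by
    rw [hw, hu, div_le_iff₀ hN0]; nlinarith
  have w2 : w * u ≤ 4 := by
    have : w * u = a ^ 2 * q := by rw [hw, hu]; field_simp
    linarith
  have w3 : w * u ≤ 4 * u := by
    rcases le_total u 1 with h | h
    · nlinarith
    · linarith
  rw [← hw, show a * (2 * N) = 2 * u by rw [hu]; ring, ← hu]
  have : 24 * (1 / (1 + u) - 1 / (1 + 2 * u)) = 24 * u / ((1 + u) * (1 + 2 * u)) := by
    field_simp; ring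
  rw [this, le_div_iff₀ (by positivity)]
  nlinarith

lemma blk_sum {t : ℝ} (ht : |t| ≤ 2) (m : ℕ) :
    |t * ∑ j ∈ range m, blk (2 ^ j - 1) (2 - t ^ 2)| ≤
      24 * (1 / (1 + |t|) - 1 / (1 + |t| * 2 ^ m)) := by
  induction m with
  | zero => simp
  | succ m ih =>
    rw [sum_range_succ, mul_add]
    have h1 := blk_bound ht (2 ^ m - 1)
    have e : ((2 ^ m - 1 : ℕ) : ℝ) + 1 = 2 ^ m := by
      rw [Nat.cast_sub Nat.one_le_two_pow]; push_cast; ring
    rw [e] at h1
    have h2 := abs_add_le (t * ∑ j ∈ range m, blk (2 ^ j - 1) (2 - t ^ 2))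
      (t * blk (2 ^ m - 1) (2 - t ^ 2))
    rw [pow_succ (2 : ℝ) m, mul_comm ((2 : ℝ) ^ m) 2]
    linarith

theorem cheb : ChebStmt := by
  intro T
  obtain ⟨m, hm⟩ := exists_nat_ge T
  obtain ⟨n, hn⟩ : ∃ n, n = 2 ^ (m + 1) := ⟨_, rfl⟩
  have hc : Cone (n + 1) (fun y => ∑ j ∈ range m, blk (2 ^ j - 1) y) (m * 2) := by
    refine Cone.sum m _ 2 fun j hj => cone_blk ?_
    have h1 : 2 ^ j ≤ 2 ^ m := Nat.pow_le_pow_right (by norm_num) hj.le
    have h2 : 1 ≤ 2 ^ j := Nat.one_le_two_pow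
    rw [hn, pow_succ]; omega
  clear hn
  obtain ⟨γ, g0, g1, g2⟩ := hc
  obtain ⟨J, hJ⟩ : ∃ J : ℝ, J = n + 1 := ⟨_, rfl⟩
  have hJ0 : 0 < J := by rw [hJ]; positivity
  let γ' : ℕ → ℝ := fun k => if k < n + 1 then γ k else 0
  let d : ℕ → ℝ := fun i => ∑ j ∈ range (n + 1), if i < 2 * j + 1 then 1 / J else 0
  let c : ℕ → ℝ := fun i => if i < n + 1 then 1 / √J else 0
  have hsub : range (n + 1) ⊆ range (2 * n + 1) := range_subset_range.2 (by omega)
  have cut : ∀ {V : Type} [AddCommMonoid V] (r : ℕ) (_ : r ≤ 2 * n + 1) (G : ℕ → V),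
      ∑ i ∈ range (2 * n + 1), (if i < r then G i else 0) = ∑ i ∈ range r, G i := by
    intro V _ r hr G
    rw [← sum_filter]
    congr 1
    ext i; simp only [mem_filter, mem_range]; omega
  have hd0 : ∀ i, 0 ≤ d i := fun i => sum_nonneg fun j _ => by split_ifs <;> positivity
  have hγ0 : ∀ i, 0 ≤ γ' i := fun i => by
    simp only [γ']; split_ifs
    · exact g0 i
    · exact le_rfl
  have hab : ∀ k, ev γ' k * ev d k = if k % 2 = 0 then γ' (k / 2) * d (k / 2) else 0 := by
    intro k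
    simp only [ev]
    split_ifs
    · have : ((-1 : ℝ) ^ (k / 2)) * (-1) ^ (k / 2) = 1 := by rw [← mul_pow]; simp
      linear_combination (γ' (k / 2) * d (k / 2)) * this
    · simp
  refine ⟨2 * (2 * n + 1), ev γ', ev d, ev c, fun k => ?_, ?_, ?_, ?_, fun t ht => ?_⟩
  · rw [hab]; split_ifs
    · exact mul_nonneg (hγ0 _) (hd0 _)
    · exact le_rfl
  · have h1 := sum_ev (fun x k => x * ev d k) (by simp) γ' (2 * n + 1)
    rw [h1]
    have h2 : ∀ i ∈ range (2 * n + 1), (if i < n + 1 then γ i / 2 else 0) ≤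
        (-1) ^ i * γ' i * ev d (2 * i) := by
      intro i _
      have e1 : ev d (2 * i) = (-1) ^ i * d i := by simp [ev]
      have : ((-1 : ℝ) ^ i) * (-1) ^ i = 1 := by rw [← mul_pow]; simp
      have e2 : (-1) ^ i * γ' i * ev d (2 * i) = γ' i * d i := by
        rw [e1]; linear_combination (γ' i * d i) * this
      rw [e2]
      split_ifs with hi
      · have hdi : 1 / 2 ≤ d i := by
          have : d i = ((range (n + 1)).filter (fun j => i < 2 * j + 1)).card * (1 / J) := by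
            simp only [d]; rw [← sum_filter]; simp
          have hcard : n + 1 ≤ 2 * ((range (n + 1)).filter (fun j => i < 2 * j + 1)).card := by
            have : Ico ((i + 1) / 2) (n + 1) ⊆ (range (n + 1)).filter (fun j => i < 2 * j + 1) := by
              intro j hj; simp only [mem_Ico, mem_filter, mem_range] at *; omega
            have := card_le_card this
            rw [Nat.card_Ico] at this; omega
          have hcard' : J ≤ 2 * (((range (n + 1)).filter (fun j => i < 2 * j + 1)).card : ℝ) := by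
            rw [hJ]; exact_mod_cast hcard
          rw [this, mul_one_div, le_div_iff₀ hJ0]; linarith
        simp only [γ', if_pos hi]
        nlinarith [g0 i]
      · exact mul_nonneg (hγ0 _) (hd0 _)
    have h3 := sum_le_sum h2
    rw [cut _ (by omega), ← sum_div] at h3
    linarith
  · have h1 := sum_ev (fun x _ => x ^ 2) (by simp) c (2 * n + 1)
    rw [h1]
    have h2 : ∀ i ∈ range (2 * n + 1), ((-1) ^ i * c i) ^ 2 = if i < n + 1 then 1 / J else 0 := by
      intro i _
      simp only [c]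
      split_ifs
      · rw [mul_pow, ← pow_mul, mul_comm i 2, pow_mul, div_pow, Real.sq_sqrt hJ0.le]; simp
      · simp
    rw [sum_congr rfl h2, cut _ (by omega)]
    simp only [sum_const, card_range, nsmul_eq_mul]
    push_cast; rw [← hJ]; field_simp; rfl
  · have h1 := sum_ev (fun x k => x • S ℝ (k : ℕ)) (by simp) c (2 * n + 1)
    have h2 := sum_ev (fun x k => x • S ℝ (k : ℕ)) (by simp) d (2 * n + 1)
    rw [h1, h2]
    have h3 : ∑ i ∈ range (2 * n + 1), ((-1) ^ i * c i) • S ℝ ((2 * i : ℕ) : ℤ) =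
        (1 / √J) • pY n := by
      rw [pY_sum, smul_sum, ← cut (n + 1) (by omega)]
      refine sum_congr rfl fun i _ => ?_
      simp only [c]
      split_ifs
      · simp only [sN, smul_eq_C_mul, map_mul, map_pow, map_neg, map_one]; ring
      · simp
    have h4 : ∑ i ∈ range (2 * n + 1), ((-1) ^ i * d i) • S ℝ ((2 * i : ℕ) : ℤ) =
        (1 / J) • pY n ^ 2 := by
      rw [pY_sq, smul_sum]
      simp only [d, mul_sum, sum_smul]
      rw [sum_comm]
      refine sum_congr rfl fun j hj => ?_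
      rw [pY_sum, smul_sum, ← cut (2 * j + 1) (by simp only [mem_range] at hj; omega)]
      refine sum_congr rfl fun i _ => ?_
      split_ifs
      · simp only [sN, smul_eq_C_mul, map_mul, map_pow, map_neg, map_one]; ring
      · simp
    rw [h3, h4, _root_.smul_pow, div_pow, Real.sq_sqrt hJ0.le, one_pow]
  · have h1 := sum_ev (fun x k => x • S ℝ (k + 1 : ℕ)) (by simp) γ' (2 * n + 1)
    rw [h1]
    have h3 : (∑ i ∈ range (2 * n + 1), ((-1) ^ i * γ' i) • S ℝ ((2 * i + 1 : ℕ) : ℤ)).eval t =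
        t * ∑ j ∈ range m, blk (2 ^ j - 1) (2 - t ^ 2) := by
      have g3 := g2 (2 - t ^ 2)
      dsimp only at g3
      rw [g3, eval_finsetSum, mul_sum, ← cut (n + 1) (by omega)]
      refine sum_congr rfl fun i _ => ?_
      simp only [γ']
      split_ifs
      · have := congrArg (fun p : ℝ[X] => p.eval t) (X_pY i)
        simp only [pY, eval_mul, eval_X, eval_comp, eval_sub, eval_pow, eval_neg, eval_one,
          eval_ofNat] at this
        have h5 : ((-1 : ℝ) ^ i) * (-1) ^ i = 1 := by rw [← mul_pow]; simp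
        simp only [eval_smul, smul_eq_mul]
        change (-1) ^ i * γ i * (sN (2 * i + 1)).eval t = _
        linear_combination (-γ i) * this
      · simp
    rw [h3]
    have h4 := blk_sum ht m
    have h5 : 1 / (1 + |t|) ≤ 1 := by
      rw [div_le_one (by positivity)]; linarith [abs_nonneg t]
    have h6 : 0 ≤ 1 / (1 + |t| * 2 ^ m) := by positivity
    linarith

lemma poly_lip (f : ℝ[X]) : ∃ (C : ℝ) (d : ℕ), 0 ≤ C ∧ ∀ s t : ℝ, |s| ≤ |t| → 1 ≤ |t| →
    |f.eval t - f.eval s| ≤ C * |t - s| * |t| ^ d := by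
  induction f using Polynomial.induction_on' with
  | add p q hp hq =>
    obtain ⟨C, d, h0, h⟩ := hp
    obtain ⟨C', d', h0', h'⟩ := hq
    refine ⟨C + C', d + d', by positivity, fun s t hs ht => ?_⟩
    have a1 := h s t hs ht
    have a2 := h' s t hs ht
    have b1 : |t| ^ d ≤ |t| ^ (d + d') := pow_le_pow_right₀ ht (by omega)
    have b2 : |t| ^ d' ≤ |t| ^ (d + d') := pow_le_pow_right₀ ht (by omega)
    have c1 := mul_le_mul_of_nonneg_left b1 (mul_nonneg h0 (abs_nonneg (t - s)))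
    have c2 := mul_le_mul_of_nonneg_left b2 (mul_nonneg h0' (abs_nonneg (t - s)))
    have := abs_add_le (p.eval t - p.eval s) (q.eval t - q.eval s)
    simp only [eval_add]
    rw [show p.eval t + q.eval t - (p.eval s + q.eval s) =
      p.eval t - p.eval s + (q.eval t - q.eval s) by ring]
    linarith
  | monomial n a =>
    refine ⟨|a| * n, n - 1, by positivity, fun s t hs ht => ?_⟩
    simp only [eval_monomial]
    rw [← mul_sub, abs_mul]
    have := abs_pow_sub_pow_le t s n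
    rw [max_eq_left hs] at this
    calc |a| * |t ^ n - s ^ n| ≤ |a| * (|t - s| * n * |t| ^ (n - 1)) :=
          mul_le_mul_of_nonneg_left this (abs_nonneg a)
      _ = _ := by ring

theorem trunc : TruncStmt := by
  intro f ε hε
  obtain ⟨C, d, h0, h⟩ := poly_lip f
  obtain ⟨r, hr⟩ := exists_nat_ge ((2 * C * 2 ^ d) / √ε)
  have hs : 0 < √ε := Real.sqrt_pos.2 hε
  rw [div_le_iff₀ hs] at hr
  refine ⟨d + r, fun t => ?_⟩
  have hR : (t / 2) ^ (2 * (d + r)) = ((|t| / 2) ^ (d + r)) ^ 2 := by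
    rw [← pow_mul, mul_comm (d + r) 2, pow_mul, pow_mul, div_pow t, div_pow |t|, sq_abs]
  by_cases ht : |t| ≤ 2
  · have : max (-2) (min 2 t) = t := by
      rw [abs_le] at ht
      rw [min_eq_right ht.2, max_eq_right ht.1]
    rw [this, sub_self, hR]
    have : (0 : ℝ) ^ 2 = 0 := by norm_num
    rw [this]; positivity
  · push Not at ht
    obtain ⟨s, hsd⟩ : ∃ s, s = max (-2) (min 2 t) := ⟨_, rfl⟩
    have hs1 : |s| = 2 ∧ |t - s| = |t| - 2 := by
      rcases le_total 0 t with h1 | h1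
      · rw [abs_of_nonneg h1] at ht ⊢
        have : s = 2 := by rw [hsd, min_eq_left ht.le]; norm_num
        rw [this]; exact ⟨by norm_num, abs_of_nonneg (by linarith)⟩
      · rw [abs_of_nonpos h1] at ht ⊢
        have : s = -2 := by rw [hsd, min_eq_right (by linarith), max_eq_left (by linarith)]
        rw [this]; exact ⟨by norm_num, by rw [abs_of_nonpos (by linarith)]; ring⟩
    have h1 := h s t (by linarith [hs1.1]) (by linarith)
    rw [← hsd, hR, hs1.2] at *
    obtain ⟨x, hx⟩ : ∃ x, x = |t| / 2 := ⟨_, rfl⟩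
    have hx' : |t| = 2 * x := by rw [hx]; ring
    have hx1 : 1 < x := by linarith
    rw [← hx]
    rw [hx'] at h1
    have hb : 1 + r * (x - 1) ≤ x ^ r := by
      have := one_add_mul_le_pow (a := x - 1) (by linarith) r
      rwa [add_sub_cancel] at this
    have h2 : C * (2 * x - 2) * (2 * x) ^ d ≤ √ε * x ^ (d + r) := by
      have hxd : 0 ≤ x ^ d := by positivity
      calc C * (2 * x - 2) * (2 * x) ^ d = (2 * C * 2 ^ d) * ((x - 1) * x ^ d) := by
            rw [mul_pow]; ring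
        _ ≤ (r * √ε) * ((x - 1) * x ^ d) :=
            mul_le_mul_of_nonneg_right hr (mul_nonneg (by linarith) hxd)
        _ = √ε * (x ^ d * (r * (x - 1))) := by ring
        _ ≤ √ε * (x ^ d * x ^ r) := by gcongr; linarith
        _ = _ := by rw [pow_add]
    have h3 := pow_le_pow_left₀ (abs_nonneg _) (h1.trans h2) 2
    rwa [sq_abs, mul_pow, Real.sq_sqrt hε.le] at h3

end Vale.Agent.P082
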