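import Vale.Agent.P082.Prism

/-! With infinitely many copies of the unit, cocycles are cohomologous to completely bounded
ones. -/

namespace Vale.Agent.P082

open scoped InnerProductSpace ComplexConjugate
open Finset Filter Topology Vale.Agent.P104

variable {K : Type*} [NormedAddCommGroup K] [InnerProductSpace ℂ K] [CompleteSpace K]
  {M : VonNeumannAlgebra K} {z : Alg M} {R R' : Type} [Fintype R] [Fintype R'] [DecidableEq R]
  [DecidableEq R']

/-- A family with orthogonal ranges and initial projection `z`. -/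
def OF (z : Alg M) {R : Type*} [DecidableEq R] (u : R → Alg M) : Prop :=
  ∀ r r', star (u r) * u r' = if r = r' then z else 0

theorem OF.col {u : R → Alg M} (h : OF z u) (hz : ‖z‖ ≤ 1) (ξ : R → K) :
    ‖∑ t, (u t).1 (ξ t)‖ ^ 2 ≤ ∑ t, ‖ξ t‖ ^ 2 := by
  have e : ∀ r t, ⟪(u r).1 (ξ r), (u t).1 (ξ t)⟫_ℂ = if r = t then ⟪ξ r, z.1 (ξ t)⟫_ℂ else 0 :=
    fun r t => by
      rw [← inner_star_right]
      change ⟪ξ r, (star (u r) * u t).1 (ξ t)⟫_ℂ = _
      rw [h]
      split_ifs <;> simp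
  rw [← inner_self_eq_norm_sq (𝕜 := ℂ)]
  refine (RCLike.re_le_norm _).trans ?_
  simp only [sum_inner, inner_sum, e, sum_ite_eq', mem_univ, if_true]
  refine norm_sum_le_of_le _ fun t _ => (norm_inner_le_norm _ _).trans ?_
  rw [sq]
  exact mul_le_mul_of_nonneg_left ((z.1.le_opNorm _).trans
    (mul_le_of_le_one_left (norm_nonneg _) hz)) (norm_nonneg _)

theorem OF.bessel {u : R → Alg M} (h : OF z u) (hz : ‖z‖ ≤ 1) (ζ : K) :
    ∑ t, ‖(star (u t)).1 ζ‖ ^ 2 ≤ ‖ζ‖ ^ 2 := by
  have h1 := h.col hz fun t => (star (u t)).1 ζ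
  set S := ∑ t, ‖(star (u t)).1 ζ‖ ^ 2 with hS
  have h2 : S ≤ ‖ζ‖ * ‖∑ t, (u t).1 ((star (u t)).1 ζ)‖ := by
    refine le_trans (le_of_eq ?_) ((RCLike.re_le_norm _).trans (norm_inner_le_norm (𝕜 := ℂ) _ _))
    rw [inner_sum, map_sum]
    refine sum_congr rfl fun t _ => ?_
    rw [← inner_star_left]
    exact (inner_self_eq_norm_sq (𝕜 := ℂ) _).symm
  nlinarith [sq_nonneg (‖ζ‖ - ‖∑ t, (u t).1 ((star (u t)).1 ζ)‖)]

theorem OF.sand {u : R → Alg M} {u' : R' → Alg M} (h : OF z u) (h' : OF z u') (hz : ‖z‖ ≤ 1)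
    {X : R → R' → Alg M} {c : ℝ} (hc : 0 ≤ c) (hX : Contr (fun r t => (X r t).1) c) :
    ‖∑ r, ∑ t, u r * X r t * star (u' t)‖ ≤ c := by
  refine ContinuousLinearMap.opNorm_le_bound _ hc fun ζ => le_of_sq_le_sq ?_ (by positivity)
  have := (h.col hz _).trans ((hX fun t => (star (u' t)).1 ζ).trans
    (mul_le_mul_of_nonneg_left (h'.bessel hz ζ) (sq_nonneg _)))
  rw [mul_pow]
  refine le_trans (le_of_eq ?_) this
  simp [map_sum]

theorem OF.diag {u u' : R → Alg M} (h : OF z u) (h' : OF z u') (hz : ‖z‖ ≤ 1) (y : Alg M) :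
    ‖∑ r, u r * y * star (u' r)‖ ≤ ‖y‖ := by
  have := h.sand h' hz (X := fun r t => if r = t then y else 0) (norm_nonneg y) fun ζ => by
    rw [mul_sum]
    refine sum_le_sum fun r _ => ?_
    rw [sum_eq_single r (fun t _ ht => by simp [ht.symm]) (by simp), ← mul_pow]
    simp only [if_true]
    exact pow_le_pow_left₀ (norm_nonneg _) (y.1.le_opNorm _) 2
  simpa using this

theorem OF.phase {ι : Type*} [DecidableEq ι] {s : ι → Alg M} (h : OF z s) {φ : R → ι}
    (hφ : Function.Injective φ) {c : R → ℂ} (hc : ∀ r, ‖c r‖ = 1) :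
    OF z fun r => c r • s (φ r) := fun r r' => by
  rw [star_smul, smul_mul_smul_comm, h]
  simp only [hφ.eq_iff]
  split_ifs with e
  · rw [e, Complex.star_def, conj_mul_self_of_norm (hc _), one_smul]
  · exact smul_zero _

theorem norm_diag_le {V : Type*} [NormedAddCommGroup V] [NormedSpace ℂ V] (Φ : R → R → V) {B : ℝ}
    (h : ∀ c : R → ℂ, (∀ r, ‖c r‖ = 1) → ‖∑ r, ∑ r', (conj (c r) * c r') • Φ r r'‖ ≤ B) :
    ‖∑ r, Φ r r‖ ≤ B := by
  have hP := phase_rt R 1
  have := hP.ne
  have n0 : (0 : ℝ) < Fintype.card (R → Fin (1 + 1)) := by exact_mod_cast Fintype.card_pos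
  have e : ∑ θ : R → Fin (1 + 1), ∑ r, ∑ r', (conj (rt 1 ^ (θ r : ℕ)) * rt 1 ^ (θ r' : ℕ)) • Φ r r'
      = (Fintype.card (R → Fin (1 + 1)) : ℂ) • ∑ r, Φ r r := by
    rw [sum_comm, smul_sum]
    refine sum_congr rfl fun r _ => ?_
    rw [sum_comm]
    simp only [← sum_smul, hP.two le_rfl, ite_smul, zero_smul, sum_ite_eq, mem_univ, if_true]
  have := norm_sum_le_of_le univ fun θ _ => h _ (hP.norm θ)
  rw [e, norm_smul, Complex.norm_natCast, sum_const, card_univ, nsmul_eq_mul] at this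
  exact le_of_mul_le_mul_left this n0

theorem norm_av_shift {ι T V : Type*} [Fintype ι] [AddCommGroup ι] [Fintype T]
    [NormedAddCommGroup V] [NormedSpace ℂ V] (f : T → ι → V) (φ : T → ι) {B : ℝ}
    (h : ∀ i, ‖∑ t, f t (i + φ t)‖ ≤ B) :
    ‖∑ t, (Fintype.card ι : ℂ)⁻¹ • ∑ i, f t i‖ ≤ B := by
  have n0 : (0 : ℝ) < Fintype.card ι := by exact_mod_cast Fintype.card_pos
  rw [← smul_sum, sum_congr rfl fun t _ => (Equiv.sum_comp (Equiv.addRight (φ t)) (f t)).symm, sum_comm,
    norm_smul, norm_inv, Complex.norm_natCast, inv_mul_le_iff₀ n0, ← nsmul_eq_mul, ← card_univ,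
    ← sum_const]
  exact norm_sum_le_of_le _ fun i _ => h i

variable {ι : Type} [Fintype ι] [DecidableEq ι] [AddCommGroup ι] {s : ι → Alg M}

theorem OF.pr (h : OF z s) (hz : Cen z) : Pr z s fun i => star (s i) := by
  have h1 : ∀ i, star (s i) * s i = z := fun i => (h i i).trans (if_pos rfl)
  have h2 : ∀ i, ‖s i‖ ≤ 1 := fun i => by
    have := CStarRing.norm_star_mul_self (x := s i)
    rw [h1] at this
    nlinarith [hz.proj.norm_le, norm_nonneg (s i)]
  refine ⟨⟨0⟩, hz.comm, hz.proj.isIdempotentElem.eq, h1, fun i => ?_, hz.proj.norm_le, h2,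
    fun i => by rw [norm_star]; exact h2 i⟩
  rw [← sub_eq_zero, ← CStarRing.mul_star_self_eq_zero_iff]
  simp only [star_sub, star_mul, star_star, hz.proj.isSelfAdjoint.star_eq, sub_mul, mul_sub,
    mul_assoc, ← mul_assoc (star (s i)), h1, hz.proj.isIdempotentElem.eq, sub_self]

theorem alg_norm_one : ‖(1 : Alg M)‖ ≤ 1 := ContinuousLinearMap.norm_id_le

/-- Evaluation at a vector. -/
def evv (ξ : K) : Alg M →ₗ[ℂ] K where
  toFun x := x.1 ξ
  map_add' _ _ := rfl
  map_smul' _ _ := rfl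

theorem evv_mul (ξ : K) (x y : Alg M) : evv ξ (x * y) = x.1 (evv ξ y) := rfl

theorem key_base (hs : OF z s) (hz : Cen z) {φ' : R' → ι} (hφ' : Function.Injective φ')
    {X : R → R' → Alg M} (hX : Contr (fun r t => (X r t).1) 1) (ξ : R' → K) {u : R → Alg M}
    (hu : OF z u) (g : Alg M →ₗ[ℂ] Alg M) {C : ℝ} (hC : 0 ≤ C) (hg : ∀ y, ‖g y‖ ≤ C * ‖y‖) :
    ‖∑ t, (Fintype.card ι : ℂ)⁻¹ • ∑ i, ∑ r, evv (ξ t) (g (u r * X r t * star (s i)) * s i)‖ ≤
      C * √(∑ t, ‖ξ t‖ ^ 2) := by
  have nz := hz.proj.norm_le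
  refine norm_av_shift _ φ' fun i => norm_diag_le (fun t t' => ∑ r, evv (ξ t')
    (g (u r * X r t * star (s (i + φ' t))) * s (i + φ' t'))) fun c hc => ?_
  have hu' := hs.phase ((add_right_injective i).comp hφ') hc
  have a1 := (hg _).trans (mul_le_of_le_one_right hC (hu.sand hu' nz zero_le_one hX))
  have a2 := Real.le_sqrt_of_sq_le (hu'.col nz ξ)
  refine le_trans (le_of_eq ?_) (ContinuousLinearMap.le_of_opNorm_le_of_le _ a1 a2)
  congr 1
  change _ = (g _).1 (∑ t, evv (ξ t) (c t • s (i + φ' t)))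
  rw [map_sum]
  simp only [← evv_mul]
  rw [sum_comm, sum_comm (s := univ (α := R))]
  simp only [map_sum, sum_mul, star_smul, mul_smul_comm, smul_mul_assoc, map_smul, smul_sum,
    smul_smul, Complex.star_def, Function.comp_apply, mul_comm]

theorem key_step (hs : OF z s) (hz : Cen z) {φ : R → ι} (hφ : Function.Injective φ)
    {u : R → Alg M} (hu : OF z u) (y : Alg M) {V : Type*} [NormedAddCommGroup V] [NormedSpace ℂ V]
    (Ψ : R → Alg M →ₗ[ℂ] Alg M →ₗ[ℂ] V) {B : ℝ}
    (h : ∀ (u' : R → Alg M) (w : Alg M), OF z u' → ‖w‖ ≤ ‖y‖ → ‖∑ r, Ψ r w (u' r)‖ ≤ B) :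
    ‖∑ r, (Fintype.card ι : ℂ)⁻¹ • ∑ i, Ψ r (u r * y * star (s i)) (s i)‖ ≤ B := by
  refine norm_av_shift _ φ fun i => norm_diag_le (fun r' r =>
    Ψ r (u r' * y * star (s (i + φ r'))) (s (i + φ r))) fun c hc => ?_
  have hu' := hs.phase ((add_right_injective i).comp hφ) hc
  refine le_trans (le_of_eq ?_) (h _ _ hu' (hu.diag hu' hz.proj.norm_le y))
  rw [sum_comm]
  simp only [map_sum, star_smul, mul_smul_comm, map_smul, smul_sum, LinearMap.sum_apply,
    LinearMap.smul_apply, smul_smul, Complex.star_def, Function.comp_apply, mul_comm]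

theorem key_vec (hs : OF z s) (hz : Cen z) {φ : R → ι} {φ' : R' → ι}
    (hφ : Function.Injective φ) (hφ' : Function.Injective φ') {X : R → R' → Alg M}
    (hX : Contr (fun r t => (X r t).1) 1) (ξ : R' → K) (l : List (Alg M)) :
    ∀ {u : R → Alg M} {G : List (Alg M) → Alg M} {C : ℝ}, OF z u → ML G → RM G → 0 ≤ C →
      (∀ w, ‖G w‖ ≤ C * (w.map norm).prod) →
      ‖∑ r, ∑ t, evv (ξ t) (lT z s (fun i => star (s i)) G (hm (u r) (l ++ [X r t, 1])))‖ ≤
        C * (l.map norm).prod * √(∑ t, ‖ξ t‖ ^ 2) := by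
  have sz : ∀ i, z * (s i * 1) = 1 * s i := fun i => by
    have := congrArg star ((hs.pr hz).zb i)
    rw [star_mul, star_star, hz.proj.isSelfAdjoint.star_eq] at this
    rw [mul_one, one_mul, hz.comm, this]
  induction l with
  | nil =>
    intro u G C hu h1 h2 hC h3
    have e : ∀ y, lT z s (fun i => star (s i)) G [y, 1] = (Fintype.card ι : ℂ)⁻¹ •
        ∑ i, IsLinearMap.mk' _ (h1 [] [1]) (y * star (s i)) * s i := fun y => by
      simp only [lT, pT_cons, pT_nil, cs_apply, sz]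
      congr 1
      exact sum_congr rfl fun i _ => h2 [_] _ _
    have := key_base hs hz hφ' hX ξ hu (IsLinearMap.mk' _ (h1 [] [1])) hC fun y =>
      (h3 [y, 1]).trans (mul_le_mul_of_nonneg_left (by
        simpa only [List.map_cons, List.map_nil, List.prod_cons, List.prod_nil, mul_one] using
          mul_le_of_le_one_right (norm_nonneg y) alg_norm_one) hC)
    rw [sum_comm, List.map_nil, List.prod_nil, mul_one]
    refine le_trans (le_of_eq ?_) this
    simp only [List.nil_append, hm, e, map_smul, map_sum, ← smul_sum, sum_comm (s := univ (α := R))]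
  | cons y l ih =>
    intro u G C hu h1 h2 hC h3
    obtain ⟨y₁, l', e⟩ : ∃ (y₁ : Alg M → Alg M) (l' : Alg M → List (Alg M)),
        ∀ x, l ++ [x, 1] = y₁ x :: l' x := by
      cases l with
      | nil => exact ⟨fun x => x, fun _ => [1], fun _ => rfl⟩
      | cons a l => exact ⟨fun _ => a, fun x => l ++ [x, 1], fun _ => rfl⟩
    have := key_step hs hz hφ hu y (fun r => LinearMap.mk₂ ℂ (fun w x => ∑ t, evv (ξ t)
      (pT z s (fun i => star (s i)) (x * y₁ (X r t)) (l' (X r t)) (cs w G)))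
      (fun _ _ _ => by simp only [h1.cs_lin.1, map_add, sum_add_distrib])
      (fun _ _ _ => by simp only [h1.cs_lin.2, map_smul, smul_sum])
      (fun _ _ _ => by simp only [add_mul, ((h1.cs _).pT_head _).1, map_add, sum_add_distrib])
      (fun _ _ _ => by simp only [smul_mul_assoc, ((h1.cs _).pT_head _).2, map_smul, smul_sum]))
      (B := C * ‖y‖ * (l.map norm).prod * √(∑ t, ‖ξ t‖ ^ 2)) fun u' w hu' hw => by
        have := ih hu' (h1.cs w) (h2.cs w) (mul_nonneg hC (norm_nonneg y)) fun l => (h3 _).trans (by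
          have := prod_norm_nonneg l
          rw [List.map_cons, List.prod_cons, ← mul_assoc]
          gcongr)
        simpa only [e, hm, lT, LinearMap.mk₂_apply] using this
    rw [List.map_cons, List.prod_cons, ← mul_assoc]
    refine le_trans (le_of_eq ?_) this
    simp only [List.cons_append, hm, e, lT, pT_cons, map_smul, map_sum, ← smul_sum,
      LinearMap.mk₂_apply, sum_comm (s := univ (α := R'))]

theorem key_contr (hs : OF z s) (hz : Cen z) {φ : R → ι} {φ' : R' → ι}
    (hφ : Function.Injective φ) (hφ' : Function.Injective φ') {X : R → R' → Alg M}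
    (hX : Contr (fun r t => (X r t).1) 1) {F : List (Alg M) → Alg M} {m : ℕ} {C : ℝ} (hC : 0 ≤ C)
    (hF : Coch F m C) (y : Alg M) (l : List (Alg M)) :
    Contr (fun r t => (lT z s (fun i => star (s i)) F (y :: l ++ [X r t, 1])).1)
      (C * ((y :: l).map norm).prod) := by
  intro ξ
  have nz := hz.proj.norm_le
  have p0 := prod_norm_nonneg l
  obtain ⟨y₁, l', e⟩ : ∃ (y₁ : Alg M → Alg M) (l' : Alg M → List (Alg M)),
      ∀ x, l ++ [x, 1] = y₁ x :: l' x := by
    cases l with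
    | nil => exact ⟨fun x => x, fun _ => [1], fun _ => rfl⟩
    | cons a l => exact ⟨fun _ => a, fun x => l ++ [x, 1], fun _ => rfl⟩
  set η : R → K := fun r => ∑ t, evv (ξ t) (lT z s (fun i => star (s i)) F (y :: l ++ [X r t, 1]))
    with hη
  let W : R → Alg M →ₗ[ℂ] K :=
    fun r => ∑ t, evv (ξ t) ∘ₗ (IsLinearMap.mk' _ (ML.pT_head (z := z) (a := s)
      (b := fun i => star (s i)) (ML.cs hF.ml 1) (l' (X r t)))) ∘ₗ
        LinearMap.mulRight ℂ (y₁ (X r t))
  have e1 : ∀ r, η r = (Fintype.card ι : ℂ)⁻¹ • ∑ i, (y * star (s i)).1 (W r (s i)) := fun r => by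
    have : ∀ w x l, pT z s (fun i => star (s i)) x l (cs (y * w) F) =
        y * w * pT z s (fun i => star (s i)) x l (cs 1 F) := fun w x l => by
      refine Eq.trans (congrArg _ (funext fun l => ?_)) (pT_map (LinearMap.mulLeft ℂ _) l x _)
      rw [cs_apply, cs_apply, LinearMap.mulLeft_apply, ← hF.lm, mul_one]
    simp only [hη, List.cons_append, e, lT, pT_cons, map_smul, map_sum, ← smul_sum, W,
      LinearMap.sum_apply, this, evv_mul]
    rw [sum_comm]
    rfl
  have e2 : ‖∑ r, ⟪η r, η r⟫_ℂ‖ ≤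
      ‖y‖ * √(∑ r, ‖η r‖ ^ 2) * (C * (l.map norm).prod * √(∑ t, ‖ξ t‖ ^ 2)) := by
    conv_lhs => enter [1, 2, r, 3]; rw [e1]
    simp only [inner_smul_right, inner_sum]
    refine norm_av_shift (fun r i => ⟪η r, (y * star (s i)).1 (W r (s i))⟫_ℂ) φ fun i =>
      LE.le.trans' (norm_diag_le (fun r' r =>
        ⟪(s (i + φ r) * star y).1 (η r), W r' (s (i + φ r'))⟫_ℂ) fun c hc => ?_) ?_
    · have hu' := hs.phase ((add_right_injective i).comp hφ) (c := fun r => conj (c r)) (by simpa)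
      have a1 := key_vec hs hz hφ hφ' hX ξ l hu' (ML.cs hF.ml 1) (RM.cs hF.rm 1) hC fun w =>
        (hF.bdd _).trans (mul_le_mul_of_nonneg_left (mul_le_of_le_one_left (prod_norm_nonneg _)
          alg_norm_one) hC)
      have a2 := Real.le_sqrt_of_sq_le ((hu'.col nz fun r => (star y).1 (η r)).trans
        (sum_le_sum fun r _ => pow_le_pow_left₀ (norm_nonneg _) ((star y).1.le_opNorm _) 2))
      simp only [mul_pow, ← mul_sum] at a2
      rw [Real.sqrt_mul (sq_nonneg _), Real.sqrt_sq (norm_nonneg _)] at a2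
      refine le_trans (le_of_eq ?_) ((norm_inner_le_norm (𝕜 := ℂ) _ _).trans
        (mul_le_mul (a2.trans (le_of_eq (congrArg (· * _) (norm_star y)))) a1 (norm_nonneg _)
          (by positivity)))
      congr 1
      have a3 : ∀ r, ∑ t, evv (ξ t) (lT z s (fun i => star (s i)) (cs 1 F) (hm (conj (c r) •
          s ((fun x => i + x) ∘ φ <| r)) (l ++ [X r t, 1]))) = conj (c r) • W r (s (i + φ r)) :=
        fun r => by
          rw [← map_smul]
          simp only [e, hm, lT, W, LinearMap.sum_apply]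
          rfl
      simp only [a3, sum_inner, inner_sum, inner_smul_right, mul_sum]
      refine sum_congr rfl fun r _ => sum_congr rfl fun r' _ => ?_
      change _ = _ * ⟪conj (c r') • (s (i + φ r') * star y).1 (η r'), _⟫_ℂ
      rw [inner_smul_left, Complex.conj_conj, smul_eq_mul, mul_assoc]
    · refine le_of_eq (congrArg _ (sum_congr rfl fun r _ => ?_))
      rw [← inner_star_left]
      congr 2
      change (star (y * star (s (i + φ r)))).1 = _
      rw [star_mul, star_star]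
  simp only [inner_self_eq_norm_sq_to_K] at e2
  have e3 : ∑ r, ‖η r‖ ^ 2 ≤ _ := le_trans (by
    refine le_trans (le_of_eq ?_) (RCLike.re_le_norm _)
    norm_cast) e2
  have q1 := Real.sq_sqrt (sum_nonneg fun r (_ : r ∈ univ) => sq_nonneg ‖η r‖)
  have q2 := Real.sq_sqrt (sum_nonneg fun r (_ : r ∈ univ) => sq_nonneg ‖ξ r‖)
  change ∑ r, ‖η r‖ ^ 2 ≤ _
  rw [← q2, List.map_cons, List.prod_cons]
  nlinarith [sq_nonneg (√(∑ r, ‖η r‖ ^ 2) - ‖y‖ * (C * (l.map norm).prod * √(∑ t, ‖ξ t‖ ^ 2)))]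

section Lim

variable {κ : Type*} {U : Ultrafilter κ}

theorem bd_wlim {G : κ → List (Alg M) → Alg M} (l : List (Alg M))
    (h : ∀ w, ∃ C, ∀ j, ‖G j w‖ ≤ C) : (∃ C, ∀ j, ‖Bd l (G j)‖ ≤ C) ∧
      Bd l (fun w => wlim U fun j => G j w) = wlim U fun j => Bd l (G j) := by
  induction l generalizing G with
  | nil => exact ⟨⟨0, fun _ => norm_zero.le⟩, (wlim_const 0).symm⟩
  | cons y l ih =>
    cases l with
    | nil => exact ⟨⟨0, fun _ => norm_zero.le⟩, (wlim_const 0).symm⟩
    | cons y' l =>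
      obtain ⟨⟨C, h1⟩, h2⟩ := ih (G := fun j w => G j (y :: w)) fun w => h _
      obtain ⟨C', h3⟩ := h (y * y' :: l)
      simp only [Bd]
      exact ⟨⟨C' + C, fun j => (norm_sub_le _ _).trans (add_le_add (h3 j) (h1 j))⟩,
        by rw [h2, wlim_sub h3 h1]⟩

theorem coch_wlim {G : κ → List (Alg M) → Alg M} {m : ℕ} {C : ℝ} (h : ∀ j, Coch (G j) m C) :
    Coch (fun w => wlim U fun j => G j w) m C where
  ml l l' := ⟨fun a b => by
      simp only [fun j => ((h j).ml l l').1 a b]
      exact wlim_add (fun j => (h j).bdd _) fun j => (h j).bdd _,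
    fun c a => by
      simp only [fun j => ((h j).ml l l').2 c a]
      exact wlim_smul (fun j => (h j).bdd _) c⟩
  lm x y l := by
    simp only [fun j => (h j).lm x y l]
    exact wlim_mul_left (fun j => (h j).bdd _) x
  rm l y x := by
    simp only [fun j => (h j).rm l y x]
    exact wlim_mul_right (fun j => (h j).bdd _) x
  bdd l := wlim_norm_le fun j => (h j).bdd l
  len l hl := by
    simp only [fun j => (h j).len l hl]
    exact wlim_const 0

end Lim

theorem copies (M : VonNeumannAlgebra K) : CopiesStmt M := by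
  rintro z F k C hC hz ⟨s, s1, s2⟩ hF hc
  have hs : ∀ J : ℕ, OF z fun i : Fin (J + 1) => s i := fun J i j => by
    split_ifs with e
    · rw [e, s1]
    · exact s2 _ _ fun c => e (Fin.ext c)
  have hT := fun J => ((hs J).pr hz).coch_T hC hF
  have hH := fun J => ((hs J).pr hz).coch_H alg_norm_one hC hF
  have hG := coch_wlim (U := hyperfilter ℕ) hT
  refine ⟨_, _, hG, fun l hl => ?_, fun l hl => ?_, by exact_mod_cast coch_wlim (U := hyperfilter ℕ) hH,
    fun l hl => ?_⟩
  · rw [(bd_wlim l fun w => ⟨_, fun J => (hT J).bdd w⟩).2]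
    obtain _ | ⟨y, l⟩ := l
    · simp at hl
    · refine Eq.trans (congrArg _ (funext fun J => ?_)) (wlim_const 0)
      rw [((hs J).pr hz).bd_T]
      exact (pT_congr fun w hw => hc w (hw.trans hl)).trans (map_zero _)
  · obtain ⟨ψ, h1, -⟩ := slices_norm alg_norm_one hC hG (n := k + 1) l hl
    refine ⟨ψ, h1, mul_nonneg hC (prod_norm_nonneg l), fun R R' _ _ X hX ξ => ?_⟩
    classical
    obtain _ | ⟨y, l⟩ := l
    · simp at hl
    simp only [h1]
    obtain ⟨B, hB⟩ := (Set.finite_range fun p : R × R' =>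
      C * ((y :: l ++ [X p.1 p.2, 1]).map norm).prod).bddAbove
    refine wlim_col_le _ (fun J r t => ((hT J).bdd _).trans (hB ⟨(r, t), rfl⟩)) ξ fun ε hε => ?_
    filter_upwards [Nat.hyperfilter_le_atTop
      (eventually_ge_atTop (Fintype.card R + Fintype.card R'))] with J hJ
    obtain ⟨φ⟩ := Function.Embedding.nonempty_of_card_le (α := R) (β := Fin (J + 1)) (by
      rw [Fintype.card_fin]; omega)
    obtain ⟨φ'⟩ := Function.Embedding.nonempty_of_card_le (α := R') (β := Fin (J + 1)) (by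
      rw [Fintype.card_fin]; omega)
    exact (key_contr (hs J) hz φ.injective φ'.injective hX hC hF y l ξ).trans (by linarith)
  · rw [(bd_wlim l fun w => ⟨_, fun J => (hH J).bdd w⟩).2, ← wlim_const (U := hyperfilter ℕ)
      (F l * z), ← wlim_sub (fun J => (hT J).bdd l) fun _ => le_rfl]
    refine congrArg _ (funext fun J => ?_)
    obtain ⟨l, y, rfl⟩ := List.eq_nil_or_concat' l |>.resolve_left (by rintro rfl; simp at hl)
    have := ((hs J).pr hz).bd_H l y F
    rw [hz.comm, hF.rm] at this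
    rw [← this, left_eq_add]
    obtain ⟨y₁, l', e⟩ : ∃ y₁ l', l ++ [y] = y₁ :: l' := by cases l <;> simp
    rw [e] at hl ⊢
    exact (pH_congr fun w hw => hc w (by rw [hw]; simpa using hl)).trans (map_zero _)

end Vale.Agent.P082
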