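import Vale.Agent.P082.Fin2

/-! From sums of reduced words to Chebyshev polynomials; averaged forms. -/

namespace Vale.Agent.P082

open scoped InnerProductSpace ComplexConjugate BigOperators
open Vale.Agent.P104 Finset Polynomial

variable {A E : Type*} [CStarAlgebra A] [NormedAddCommGroup E] [InnerProductSpace ℂ E]
  {τ : A →ₗ[ℂ] ℂ} {Λ : A →ₗ[ℂ] E}

/-- The recursions satisfied by sums of reduced words. -/
structure Recs (z s Lκ : A) (W V X : ℕ → A) (ρ : ℝ) : Prop where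
  w0 : W 0 = z
  r0 : s * W 0 = W 1
  r1 : s * W 1 = W 2 + W 0 + (ρ : ℂ) • W 0
  r2 : ∀ n, s * W (n + 2) = W (n + 3) + W (n + 1)
  l0 : Lκ * W 0 = V 1
  l1 : ∀ n, Lκ * W (n + 1) = V (n + 2) + X n - (ρ : ℂ) • V n

variable {z s Lκ : A} {W V X : ℕ → A} {ρ δ M : ℝ} {N : ℕ}

theorem Recs.chP_eq (h : Recs z s Lκ W V X ρ) : chP s z 0 = W 0 ∧ chP s z 1 = W 1 ∧
    ∀ n, chP s z (n + 2) = W (n + 2) + (ρ : ℂ) • chP s z n := by
  have h0 : chP s z 0 = W 0 := by simp [chP, h.w0]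
  have h1 : chP s z 1 = W 1 := by simp [chP, ← h.r0, h.w0]
  refine ⟨h0, h1, fun n => ?_⟩
  induction n using Nat.twoStepInduction with
  | zero => rw [chP_succ, h0, h1, h.r1]; abel
  | one =>
    rw [chP_succ, chP_succ, h0, h1, h.r1, mul_sub, mul_add, mul_add, mul_smul_comm, h.r0, h.r2]
    abel
  | more n ih ih' =>
    have e := eq_add_of_sub_eq (chP_succ s z n).symm
    rw [chP_succ s z (n + 2), ih', mul_add, mul_smul_comm, h.r2, e, smul_add]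
    nth_rw 2 [ih]
    abel

theorem Recs.near (h : Recs z s Lκ W V X ρ) (h0 : 0 ≤ ρ) (h1 : ρ ≤ δ) (h2 : δ ≤ 1 / 4)
    (hM : 0 ≤ M) (hW : ∀ n ≤ N + 1, ‖Λ (W n)‖ ≤ M) (hV : ∀ n ≤ N + 1, ‖Λ (V n)‖ ≤ M)
    (hX : ∀ n ≤ N + 1, ‖Λ (X n)‖ ≤ δ * M) :
    (∀ n ≤ N + 1, ‖Λ (chP s z n - W n)‖ ≤ 4 * δ * M) ∧
      ∀ n ≤ N, ‖Λ (Lκ * chP s z n - V (n + 1))‖ ≤ 4 * δ * M := by
  obtain ⟨e0, e1, e2⟩ := h.chP_eq
  have δ0 : 0 ≤ δ := h0.trans h1
  have sm : ∀ {y : A} {c : ℝ}, ‖Λ y‖ ≤ c → ‖Λ ((ρ : ℂ) • y)‖ ≤ δ * c := fun hy => by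
    rw [map_smul, norm_smul, Complex.norm_real, Real.norm_of_nonneg h0]
    exact mul_le_mul h1 hy (norm_nonneg _) δ0
  have tri : ∀ {y y' : A} {c c' : ℝ}, ‖Λ (y - y')‖ ≤ c → ‖Λ y'‖ ≤ c' → ‖Λ y‖ ≤ c + c' :=
    fun {y y' c c'} a b => by
      rw [← sub_add_cancel y y', map_add]
      exact (norm_add_le _ _).trans (add_le_add a b)
  have p : 0 ≤ δ * M := by positivity
  have p' : δ * (δ * M) ≤ 1 / 4 * (δ * M) := mul_le_mul_of_nonneg_right h2 p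
  constructor
  · intro n
    induction n using Nat.twoStepInduction with
    | zero => intro _; rw [e0, sub_self, map_zero, norm_zero]; positivity
    | one => intro _; rw [e1, sub_self, map_zero, norm_zero]; positivity
    | more n ih _ =>
      intro hn
      rw [e2, add_sub_cancel_left]
      exact (sm (tri (ih (by omega)) (hW n (by omega)))).trans (by nlinarith)
  · intro n
    induction n using Nat.twoStepInduction with
    | zero => intro _; rw [e0, h.l0, sub_self, map_zero, norm_zero]; positivity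
    | one =>
      intro hn
      rw [e1, h.l1, add_sub_assoc, add_sub_cancel_left, map_sub]
      have := hX 0 (by omega)
      have := sm (hV 0 (by omega))
      exact (norm_sub_le _ _).trans (by linarith)
    | more n ih _ =>
      intro hn
      rw [e2, mul_add, h.l1, mul_smul_comm, add_sub_assoc (V _), add_assoc, add_sub_cancel_left,
        map_add, map_sub]
      have := hX (n + 1) (by omega)
      have := sm (hV (n + 1) (by omega))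
      have := sm (tri (ih (by omega)) (hV (n + 1) (by omega)))
      have := norm_sub_le (Λ (X (n + 1))) (Λ ((ρ : ℂ) • V (n + 1)))
      exact (norm_add_le _ _).trans (by nlinarith)

theorem form_near {B : A →ₗ[ℂ] A →ₗ⋆[ℂ] ℂ} {L β : ℝ} (hL : 0 ≤ L)
    (hB : ∀ x y, ‖B x y‖ ≤ L * ‖Λ x‖ * ‖Λ y‖) {a a' b b' : A} {c : ℂ} (h1 : ‖Λ (a - a')‖ ≤ β)
    (h2 : ‖Λ (b - b')‖ ≤ β) (h3 : ‖Λ b‖ ≤ M) (h4 : ‖Λ a'‖ ≤ M) (h5 : ‖B a' b' - c‖ ≤ δ) :
    ‖B a b - c‖ ≤ δ + 2 * L * β * M := by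
  have e : B a b - c = B (a - a') b + B a' (b - b') + (B a' b' - c) := by
    simp only [map_sub, LinearMap.sub_apply]; ring
  have β0 : 0 ≤ β := (norm_nonneg _).trans h1
  have M0 : 0 ≤ M := (norm_nonneg _).trans h3
  have a1 : ‖B (a - a') b‖ ≤ L * β * M := (hB _ _).trans (by gcongr)
  have a2 : ‖B a' (b - b')‖ ≤ L * M * β := (hB _ _).trans (by gcongr)
  rw [e]
  exact norm_add₃_le.trans (by linarith)

/-- The inner product as a sesquilinear form. -/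
noncomputable def innerB (Λ : A →ₗ[ℂ] E) : A →ₗ[ℂ] A →ₗ⋆[ℂ] ℂ :=
  LinearMap.mk₂'ₛₗ (RingHom.id ℂ) (starRingEnd ℂ) (fun x y => ⟪Λ y, Λ x⟫_ℂ)
    (by simp [inner_add_right]) (by simp [inner_smul_right]) (by simp [inner_add_left])
    (by simp [inner_smul_left, mul_comm])

theorem innerB_apply (x y : A) : innerB Λ x y = ⟪Λ y, Λ x⟫_ℂ := rfl

theorem innerB_le (x y : A) : ‖innerB Λ x y‖ ≤ 1 * ‖Λ x‖ * ‖Λ y‖ := by
  rw [one_mul, mul_comm]
  exact norm_inner_le_norm _ _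

section Avg

variable (Ω : Type) [Fintype Ω]

/-- The averaged trace. -/
noncomputable def avT (τ : A →ₗ[ℂ] ℂ) : (Ω → A) →ₗ[ℂ] ℂ where
  toFun x := 𝔼 ω, τ (x ω)
  map_add' x y := by simp [expect_add_distrib]
  map_smul' c x := by simp [mul_expect]

/-- The averaged embedding in a Hilbert space. -/
noncomputable def avL (Λ : A →ₗ[ℂ] E) : (Ω → A) →ₗ[ℂ] PiLp 2 fun _ : Ω => E where
  toFun x := WithLp.toLp 2 fun ω => (((√(Fintype.card Ω))⁻¹ : ℝ) : ℂ) • Λ (x ω)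
  map_add' x y := by ext; simp
  map_smul' c x := by ext; simp [smul_comm c]

/-- The averaged form. -/
noncomputable def avB (B : A →ₗ[ℂ] A →ₗ⋆[ℂ] ℂ) : (Ω → A) →ₗ[ℂ] (Ω → A) →ₗ⋆[ℂ] ℂ :=
  LinearMap.mk₂'ₛₗ (RingHom.id ℂ) (starRingEnd ℂ) (fun x y => 𝔼 ω, B (x ω) (y ω))
    (by simp [expect_add_distrib]) (by simp [mul_expect]) (by simp [expect_add_distrib])
    (by simp [mul_expect])

variable {Ω}

theorem avB_apply (B : A →ₗ[ℂ] A →ₗ⋆[ℂ] ℂ) (x y : Ω → A) :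
    avB Ω B x y = 𝔼 ω, B (x ω) (y ω) := rfl

theorem inner_avL (x y : Ω → A) :
    ⟪avL Ω Λ x, avL Ω Λ y⟫_ℂ = 𝔼 ω, ⟪Λ (x ω), Λ (y ω)⟫_ℂ := by
  have : (((√(Fintype.card Ω))⁻¹ : ℝ) : ℂ) * (((√(Fintype.card Ω))⁻¹ : ℝ) : ℂ) =
      (Fintype.card Ω : ℂ)⁻¹ := by
    rw [← Complex.ofReal_mul, ← mul_inv, Real.mul_self_sqrt (Nat.cast_nonneg _)]
    simp
  simp only [avL, LinearMap.coe_mk, AddHom.coe_mk, PiLp.inner_apply, inner_smul_left,
    inner_smul_right, Complex.conj_ofReal, ← mul_assoc, this, ← mul_sum]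
  rw [expect_eq_sum_div_card, div_eq_inv_mul, card_univ]

theorem norm_avL (x : Ω → A) : ‖avL Ω Λ x‖ ^ 2 = 𝔼 ω, ‖Λ (x ω)‖ ^ 2 := by
  have := inner_avL (Λ := Λ) x x
  simp only [inner_self_eq_norm_sq_to_K] at this
  apply Complex.ofReal_injective
  rw [Complex.ofReal_expect]
  push_cast
  exact this

theorem tr_av (h : Tr τ Λ) : Tr (avT Ω τ) (avL Ω Λ) :=
  ⟨fun x y => expect_congr rfl fun ω _ => h.tr _ _, fun x y => by
    rw [inner_avL]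
    exact expect_congr rfl fun ω _ => h.inner _ _⟩

theorem expect_mul_le_avL (x y : Ω → A) :
    𝔼 ω, ‖Λ (x ω)‖ * ‖Λ (y ω)‖ ≤ ‖avL Ω Λ x‖ * ‖avL Ω Λ y‖ := by
  refine le_of_sq_le_sq ?_ (by positivity)
  rw [mul_pow, norm_avL, norm_avL]
  exact expect_mul_sq_le_sq_mul_sq _ _ _

theorem TwoB.av {B : A →ₗ[ℂ] A →ₗ⋆[ℂ] ℂ} {Kb L : ℝ} (h : TwoB Λ B Kb L) (hK : 0 ≤ Kb)
    (hL : 0 ≤ L) : TwoB (avL Ω Λ) (avB Ω B) Kb L where
  one a b c := by
    rw [mul_assoc (Kb * ‖a‖)]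
    refine (norm_expect_le' _).trans (le_trans (expect_le_expect fun ω _ => ?_)
      ((mul_expect _ _ _).symm.trans_le (mul_le_mul_of_nonneg_left (expect_mul_le_avL b c)
        (by positivity))))
    refine (h.one _ _ _).trans ?_
    rw [← mul_assoc]
    gcongr
    exact norm_le_pi_norm a ω
  two a b := by
    rw [mul_assoc]
    refine (norm_expect_le' _).trans (le_trans (expect_le_expect fun ω _ => ?_)
      ((mul_expect _ _ _).symm.trans_le (mul_le_mul_of_nonneg_left (expect_mul_le_avL a b) hL)))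
    rw [← mul_assoc]
    exact h.two _ _

end Avg

variable [PartialOrder A] [StarOrderedRing A]

theorem innerB_two (h : Tr τ Λ) : TwoB Λ (innerB Λ) 1 1 where
  one a b c := by
    rw [innerB_apply, h.inner, star_mul, mul_assoc, h.tr, mul_assoc, ← h.inner, one_mul,
      mul_right_comm, mul_comm, ← h.norm_star c]
    exact (norm_inner_le_norm _ _).trans
      (mul_le_mul_of_nonneg_left (trw_left h _ _) (norm_nonneg _))
  two := innerB_le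

theorem fin_est' (h : Tr τ Λ) (hz : IsStarProjection z) (hc : ∀ x, z * x = x * z)
    (hs : IsSelfAdjoint s) {B : A →ₗ[ℂ] A →ₗ⋆[ℂ] ℂ} {Kb L ε : ℝ} (hK : 0 ≤ Kb) (hL : 0 ≤ L)
    (hM : 0 ≤ M) (hε : 0 ≤ ε) (hB : TwoB Λ B Kb L) {p N₀ : ℕ} {a b c : ℕ → ℝ}
    (hN : N ≤ N₀) (hp : p ≤ N₀) (h1 : ∑ n ∈ range N, c n ^ 2 ≤ 1)
    (h2 : (∑ n ∈ range N, c n • Chebyshev.S ℝ n) ^ 2 = ∑ n ∈ range N, b n • Chebyshev.S ℝ n)
    (h3 : ∀ t : ℝ, |t| ≤ 2 → |(∑ n ∈ range N, a n • Chebyshev.S ℝ (n + 1 : ℕ)).eval t| ≤ 100)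
    (h4 : ∀ t : ℝ, ((∑ n ∈ range N, a n • Chebyshev.S ℝ (n + 1 : ℕ)).eval t -
      (∑ n ∈ range N, a n • Chebyshev.S ℝ (n + 1 : ℕ)).eval (max (-2) (min 2 t))) ^ 2 ≤
        ε ^ 2 * (t / 2) ^ (2 * p))
    (hr : Recs z s Lκ W V X ρ) (r0 : 0 ≤ ρ) (r1 : ρ ≤ δ) (r2 : δ ≤ 1 / 4)
    (hW : ∀ n ≤ N₀ + 1, ‖Λ (W n)‖ ≤ M) (hV : ∀ n ≤ N₀ + 1, ‖Λ (V n)‖ ≤ M)
    (hX : ∀ n ≤ N₀ + 1, ‖Λ (X n)‖ ≤ δ * M) (Δ : ℕ → ℂ)
    (k3 : ∀ n ≤ N₀ + 1, ∀ n' ≤ N₀ + 1, n ≠ n' → ‖innerB Λ (W n) (W n')‖ ≤ δ)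
    (k4 : ∀ n ≤ N₀ + 1, ∀ n' ≤ N₀ + 1, n ≠ n' → ‖innerB Λ (V n) (V n')‖ ≤ δ)
    (k5 : ∀ n < N, ∀ n' < N, ‖B (W (n + 1)) (V (n' + 1)) - if n = n' then Δ n else 0‖ ≤ δ) :
    ‖∑ n ∈ range N, ((a n * b n : ℝ) : ℂ) * Δ n‖ ≤
      Kb * 100 * ((2 * M) ^ 2 + (∑ n ∈ range N, |c n|) ^ 2 * (δ * (1 + 16 * (L + 1) * M ^ 2))) +
        L * (ε * (2 * M)) * ((∑ n ∈ range N, |b n|) * (2 * M)) +
          (∑ n ∈ range N, |a n|) * (∑ n ∈ range N, |b n|) * (δ * (1 + 16 * (L + 1) * M ^ 2)) := by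
  obtain ⟨n1, n2⟩ := hr.near r0 r1 r2 hM hW hV hX
  have δ0 : 0 ≤ δ := r0.trans r1
  have tri : ∀ {y y' : A}, ‖Λ (y - y')‖ ≤ 4 * δ * M → ‖Λ y'‖ ≤ M → ‖Λ y‖ ≤ 2 * M :=
    fun {y y'} a b => by
      rw [← sub_add_cancel y y', map_add]
      exact (norm_add_le _ _).trans (by nlinarith)
  have m1 : ∀ n ≤ N₀ + 1, ‖Λ (chP s z n)‖ ≤ 2 * M := fun n hn => tri (n1 n hn) (hW n hn)
  have m2 : ∀ n ≤ N₀, ‖Λ (Lκ * chP s z n)‖ ≤ 2 * M := fun n hn =>
    tri (n2 n hn) (hV _ (by omega))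
  have q1 : 0 ≤ δ * M ^ 2 := by positivity
  have q2 : 0 ≤ L * (δ * M ^ 2) := by positivity
  refine fin_est h hz hc hs hK hL (by positivity) (by positivity) hε hB hN hp h1 h2 h3 h4 Δ
    (fun n hn => m1 n (by omega)) (fun n hn => m2 n (by omega)) (fun n hn n' hn' e => ?_)
    (fun n hn n' hn' e => ?_) fun n hn n' hn' => ?_
  · have := form_near (c := 0) zero_le_one innerB_le (n1 n' (by omega)) (n1 n (by omega))
      (m1 n (by omega)) ((hW n' (by omega)).trans (by linarith))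
      (by simpa using k3 n' (by omega) n (by omega) e.symm)
    rw [sub_zero] at this
    exact this.trans (by nlinarith)
  · have := form_near (c := 0) zero_le_one innerB_le (n2 n' (by omega)) (n2 n (by omega))
      (m2 n (by omega)) ((hV _ (by omega)).trans (by linarith))
      (by simpa using k4 (n' + 1) (by omega) (n + 1) (by omega) (by omega))
    rw [sub_zero] at this
    exact this.trans (by nlinarith)
  · exact (form_near hL hB.two (n1 (n + 1) (by omega)) (n2 n' (by omega)) (m2 n' (by omega))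
      ((hW _ (by omega)).trans (by linarith)) (k5 n hn n' hn')).trans (by nlinarith)

end Vale.Agent.P082
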