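import Vale.Agent.P082.WSum
import Vale.Agent.P082.Fin3

/-! The estimate of the diagonal terms. -/

namespace Vale.Agent.P082

open scoped InnerProductSpace ComplexConjugate BigOperators
open Vale.Agent.P104 Finset Function Polynomial

universe u v

theorem variance_le {S J : Type} [Fintype S] [DecidableEq S] [Fintype J] [Nonempty J]
    (κ : J → ℝ) (h0 : ∑ j, κ j = 0) (h1 : ∀ j, |κ j| ≤ 1) :
    𝔼 θ : S → J, (∑ s, κ (θ s)) ^ 2 ≤ Fintype.card S := by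
  simp only [sq, sum_mul_sum, expect_sum_comm]
  rw [← card_univ, card_eq_sum_ones, Nat.cast_sum]
  refine sum_le_sum fun s _ => ?_
  rw [sum_eq_single s, Nat.cast_one]
  · refine expect_le univ_nonempty fun θ _ => ?_
    rw [← abs_mul_abs_self]
    exact mul_le_one₀ (h1 _) (abs_nonneg _) (h1 _)
  · intro t _ ht
    rw [expect_update t]
    refine expect_eq_zero fun θ _ => ?_
    simp only [update_self, update_of_ne ht.symm]
    rw [← mul_expect, expect_eq_sum_div_card, h0, zero_div, mul_zero]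
  · simp

theorem expect_prod_near {Θ Γ : Type} [Fintype Θ] [Fintype Γ] [Nonempty Θ] (f : Θ × Γ → ℂ)
    (c : Θ → ℂ) {δ : ℝ} (h : ∀ θ, ‖𝔼 γ, f (θ, γ) - c θ‖ ≤ δ) : ‖𝔼 ω, f ω - 𝔼 θ, c θ‖ ≤ δ := by
  rw [← univ_product_univ, expect_product, ← expect_sub_distrib]
  exact (norm_expect_le' _).trans (expect_le univ_nonempty fun θ _ => h θ)

theorem err_mono {t Kb L σ η : ℝ} (ht : 0 ≤ t) (hK : 0 ≤ Kb) (hL : 0 ≤ L) (hσ : 0 ≤ σ)
    (hη : 0 ≤ η) {r m m' : ℕ} (hr : 1 ≤ r) (hm : m ≤ m') (hm' : 1 ≤ m') :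
    err t Kb L σ η r m ≤ err t Kb L σ η r m' := by
  have h1 : (1 : ℝ) ≤ r := by exact_mod_cast hr
  have h2 : (1 : ℝ) ≤ m' := by exact_mod_cast hm'
  have h3 : (2 * m : ℝ) ^ m ≤ (2 * m') ^ m' :=
    (pow_le_pow_left₀ (by positivity) (by gcongr) _).trans (pow_le_pow_right₀ (by linarith) hm)
  have h4 : (2 * r : ℝ) ^ m ≤ (2 * r) ^ m' := pow_le_pow_right₀ (by linarith) hm
  unfold err
  gcongr

variable {A : Type u} {E : Type v} [CStarAlgebra A] [PartialOrder A] [StarOrderedRing A]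
  [NormedAddCommGroup E] [InnerProductSpace ℂ E] {τ : A →ₗ[ℂ] ℂ} {Λ : A →ₗ[ℂ] E}
  {I G R J : Type} [Fintype I] [DecidableEq I] [Fintype G] [Fintype R] [DecidableEq R]
  [Fintype J] {z g : A} {v : R → I → A} {U : G → I → I → ℂ} {η : ℝ}
  {B : A →ₗ[ℂ] A →ₗ⋆[ℂ] ℂ} {Kb L σ δ : ℝ}

theorem Setup.norm_Wd (hP : PairStmt.{u, v}) {a : R × Bool → A} (h : Setup τ Λ z g v U a η)
    (h0 : 0 ≤ σ) (h1 : σ ≤ 1) (h2 : σ ^ 2 * (2 * Fintype.card R - 1) = 1)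
    (hR : 1 ≤ Fintype.card R) {c : List (R × Bool) → ℝ} (hc : ∀ w, |c w| ≤ 1) (n : ℕ)
    (he : err ‖Λ 1‖ 1 1 σ η (Fintype.card R) (n + n) ≤ 1) :
    𝔼 γ : R → G, ‖Λ (Wd z (lt v U a γ) σ c n)‖ ^ 2 ≤ (2 * ‖Λ 1‖ + 1) ^ 2 := by
  have hR' : (1 : ℝ) ≤ Fintype.card R := by exact_mod_cast hR
  have h3 := h.wsum hP zero_le_one zero_le_one (innerB_two h.tr) h0 h1 (by nlinarith) hc hc n n
  rw [if_pos rfl] at h3
  have h4 : ‖∑ w ∈ Inj R n, ((σ ^ (2 * n) * (c w * c w) : ℝ) : ℂ) * 𝔼 γ : R → G,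
      innerB Λ (val z (lt v U a γ) w) (val z (lt v U a γ) w)‖ ≤ 2 * ‖Λ 1‖ ^ 2 := by
    refine (norm_sum_le_of_le _ (n := fun _ => σ ^ (2 * n) * ‖Λ 1‖ ^ 2) fun w _ => ?_).trans ?_
    · rw [norm_mul, Complex.norm_real, Real.norm_eq_abs, abs_mul, abs_mul,
        abs_of_nonneg (by positivity)]
      refine mul_le_mul (mul_le_of_le_one_right (by positivity)
        (mul_le_one₀ (hc _) (abs_nonneg _) (hc _))) ?_ (norm_nonneg _) (by positivity)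
      simpa using h.pair_le zero_le_one (innerB_two h.tr) w w
    · rw [sum_const, nsmul_eq_mul, ← mul_assoc]
      refine mul_le_mul_of_nonneg_right ?_ (by positivity)
      have a1 : (#(Inj R n) : ℝ) ≤ #(Red R n) := by exact_mod_cast card_le_card (Inj_subset n)
      have a2 := (card_Red_le (R := R) n).resolve_right (by omega)
      refine (mul_le_mul_of_nonneg_right (a1.trans a2) (by positivity)).trans (le_of_eq ?_)
      rw [pow_mul, mul_assoc, ← mul_pow, mul_comm _ (σ ^ 2), h2, one_pow, mul_one]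
  have h5 := (norm_le_insert' _ _).trans (add_le_add h4 (h3.trans he))
  simp only [innerB_apply, inner_self_eq_norm_sq_to_K] at h5
  have h6 : ((𝔼 γ : R → G, ‖Λ (Wd z (lt v U a γ) σ c n)‖ ^ 2 : ℝ) : ℂ) =
      𝔼 γ : R → G, ((‖Λ (Wd z (lt v U a γ) σ c n)‖ : ℝ) : ℂ) ^ 2 := by
    rw [Complex.ofReal_expect]; push_cast; rfl
  erw [← h6] at h5
  rw [Complex.norm_real] at h5
  exact ((le_abs_self _).trans h5).trans (by nlinarith [norm_nonneg (Λ 1)])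

omit [PartialOrder A] [StarOrderedRing A] in
theorem Lets.star_Lk {ξ : R × Bool → A} (h : Lets z ξ) : star (Lk ξ σ 1) = Lk ξ σ 1 := by
  have hb : Involutive (bar (R := R)) := bar_bar
  simp only [Lk, star_sum, star_smul, h.adj, Pi.one_apply, Complex.star_def, Complex.conj_ofReal]
  exact Equiv.sum_comp hb.toPerm fun s => ((σ * 1 : ℝ) : ℂ) • ξ s

omit [PartialOrder A] [StarOrderedRing A] in
theorem Lets.recs {ξ : R × Bool → A} (h : Lets z ξ) (h2 : σ ^ 2 * (2 * Fintype.card R - 1) = 1)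
    (k : R × Bool → ℝ) : Recs z (Lk ξ σ 1) (Lk ξ σ k) (Wd z ξ σ 1) (Wd z ξ σ (hd k))
      (fun n => ((σ ^ 2 * ∑ s, k s : ℝ) : ℂ) • Wd z ξ σ 1 n) (σ ^ 2) := by
  have cS : ((σ ^ 2 * ∑ s : R × Bool, (1 : R × Bool → ℝ) s : ℝ) : ℂ) = 1 + ((σ ^ 2 : ℝ) : ℂ) := by
    norm_cast
    simp only [Pi.one_apply, sum_const, card_univ, Fintype.card_prod, Fintype.card_bool,
      nsmul_eq_mul]
    push_cast
    linarith
  refine ⟨by simp [Wd_zero], (Lk_mul_zero _).trans (Wd_hd_one 0), ?_, fun n => ?_,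
    Lk_mul_zero _, h.Lk_mul _⟩
  · rw [h.Lk_mul _ 0, cS, Wd_hd_one, Wd_zero (hd 1), add_smul, one_smul, ← add_assoc]
    simp [hd]
  · rw [h.Lk_mul _ (n + 1), cS, Wd_hd_one, Wd_hd_one, add_smul, one_smul, ← add_assoc,
      add_sub_cancel_right]

omit [PartialOrder A] [StarOrderedRing A] in
theorem recs_pi {Ω : Type} [Fintype Ω] {s Lκ : Ω → A} {W V X : Ω → ℕ → A} {ρ : ℝ}
    (h : ∀ ω, Recs z (s ω) (Lκ ω) (W ω) (V ω) (X ω) ρ) :
    Recs (A := Ω → A) (fun _ => z) s Lκ (fun n ω => W ω n) (fun n ω => V ω n)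
      (fun n ω => X ω n) ρ :=
  ⟨funext fun ω => (h ω).w0, funext fun ω => (h ω).r0, funext fun ω => (h ω).r1,
    fun n => funext fun ω => (h ω).r2 n, funext fun ω => (h ω).l0,
    fun n => funext fun ω => (h ω).l1 n⟩

/-- The diagonal term. -/
noncomputable def diag (z : A) (v : R → I → A) (U : G → I → I → ℂ) (x : J → A) (κ : J → ℝ)
    (B : A →ₗ[ℂ] A →ₗ⋆[ℂ] ℂ) (σ : ℝ) (n : ℕ) : ℂ :=
  𝔼 θ : R × Bool → J, ∑ w ∈ Inj R (n + 1), ((σ ^ (2 * (n + 1)) * (1 * hd (κ ∘ θ) w) : ℝ) : ℂ) *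
    𝔼 γ : R → G, B (val z (lt v U (x ∘ θ) γ) w) (val z (lt v U (x ∘ θ) γ) w)

/-- The word sums as functions on the sample space. -/
noncomputable def WF (z : A) (v : R → I → A) (U : G → I → I → ℂ) (x : J → A) (σ : ℝ)
    (c : (R × Bool → J) → List (R × Bool) → ℝ) (n : ℕ) (ω : (R × Bool → J) × (R → G)) : A :=
  Wd z (lt v U (x ∘ ω.1) ω.2) σ (c ω.1) n

section

variable (hP : PairStmt.{u, v}) [Nonempty J] {x : J → A}
  (h : ∀ θ : R × Bool → J, Setup τ Λ z g v U (x ∘ θ) η) (h0 : 0 ≤ σ) (h1 : σ ≤ 1)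
  (h2 : σ ^ 2 * (2 * Fintype.card R - 1) = 1) (hR : 1 ≤ Fintype.card R)
  {c c' : (R × Bool → J) → List (R × Bool) → ℝ} (hc : ∀ θ w, |c θ w| ≤ 1)
  (hc' : ∀ θ w, |c' θ w| ≤ 1)

include hP h h0 h1 h2 hR hc

theorem norm_WF (n : ℕ) (he : err ‖Λ 1‖ 1 1 σ η (Fintype.card R) (n + n) ≤ 1) :
    ‖avL _ Λ (WF z v U x σ c n)‖ ≤ 2 * ‖Λ 1‖ + 1 := by
  refine le_of_sq_le_sq ?_ (by positivity)
  rw [norm_avL, ← univ_product_univ, expect_product]
  exact expect_le univ_nonempty fun θ _ => (h θ).norm_Wd hP h0 h1 h2 hR (hc θ) n he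

theorem norm_XF {κ : J → ℝ} (κ0 : ∑ j, κ j = 0) (κ1 : ∀ j, |κ j| ≤ 1) (hσ : σ ≤ δ / 2) (n : ℕ)
    (he : err ‖Λ 1‖ 1 1 σ η (Fintype.card R) (n + n) ≤ 1) :
    ‖avL _ Λ fun ω => ((σ ^ 2 * ∑ s, (κ ∘ ω.1) s : ℝ) : ℂ) • WF z v U x σ c n ω‖ ≤
      δ * (2 * ‖Λ 1‖ + 1) := by
  have hR' : (1 : ℝ) ≤ Fintype.card R := by exact_mod_cast hR
  have h3 : σ ^ 2 * Fintype.card R ≤ 1 := by nlinarith
  have δ0 : 0 ≤ δ := by linarith
  refine le_of_sq_le_sq ?_ (by positivity)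
  rw [norm_avL, ← univ_product_univ, expect_product]
  calc _ ≤ 𝔼 θ : R × Bool → J, σ ^ 4 * (2 * ‖Λ 1‖ + 1) ^ 2 * (∑ s, κ (θ s)) ^ 2 := by
        refine expect_le_expect fun θ _ => ?_
        simp only [map_smul, norm_smul, mul_pow, ← mul_expect, Complex.norm_real,
          Real.norm_eq_abs, sq_abs, comp_apply]
        refine (mul_le_mul_of_nonneg_left ((h θ).norm_Wd hP h0 h1 h2 hR (hc θ) n he)
          (by positivity)).trans (le_of_eq ?_)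
        ring
    _ ≤ σ ^ 4 * (2 * ‖Λ 1‖ + 1) ^ 2 * Fintype.card (R × Bool) := by
        rw [← mul_expect]
        exact mul_le_mul_of_nonneg_left (variance_le κ κ0 κ1) (by positivity)
    _ ≤ _ := by
        rw [Fintype.card_prod, Fintype.card_bool, mul_pow, mul_right_comm]
        refine mul_le_mul_of_nonneg_right ?_ (sq_nonneg _)
        have : σ ^ 2 ≤ (δ / 2) ^ 2 := pow_le_pow_left₀ h0 hσ 2
        push_cast
        nlinarith [mul_le_mul_of_nonneg_left h3 (sq_nonneg σ)]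

include hc' in
theorem form_WF (hK : 0 ≤ Kb) (hL : 0 ≤ L) (hB : TwoB Λ B Kb L) (n n' : ℕ) :
    ‖avB _ B (WF z v U x σ c n) (WF z v U x σ c' n') - if n = n' then 𝔼 θ : R × Bool → J,
      ∑ w ∈ Inj R n, ((σ ^ (2 * n) * (c θ w * c' θ w) : ℝ) : ℂ) * 𝔼 γ : R → G,
        B (val z (lt v U (x ∘ θ) γ) w) (val z (lt v U (x ∘ θ) γ) w) else 0‖ ≤
      err ‖Λ 1‖ Kb L σ η (Fintype.card R) (n + n') := by
  have hR' : (1 : ℝ) ≤ Fintype.card R := by exact_mod_cast hR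
  have := expect_prod_near (fun ω => B (WF z v U x σ c n ω) (WF z v U x σ c' n' ω)) _ fun θ =>
    (h θ).wsum hP hK hL hB h0 h1 (by nlinarith) (hc θ) (hc' θ) n n'
  rw [avB_apply]
  split_ifs at this ⊢
  · exact this
  · rwa [Fintype.expect_const] at this

theorem inner_WF {n n' : ℕ} (hn : n ≠ n') :
    ‖innerB (avL _ Λ) (WF z v U x σ c n) (WF z v U x σ c n')‖ ≤
      err ‖Λ 1‖ 1 1 σ η (Fintype.card R) (n + n') := by
  have := form_WF hP h h0 h1 h2 hR hc hc zero_le_one zero_le_one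
    (innerB_two (h fun _ => Classical.arbitrary J).tr) n n'
  rw [if_neg hn, sub_zero] at this
  rw [innerB_apply, inner_avL]
  exact this

end

theorem core (hP : PairStmt.{u, v}) [Nonempty J] {x : J → A}
    (h : ∀ θ : R × Bool → J, Setup τ Λ z g v U (x ∘ θ) η) (hK : 0 ≤ Kb) (hL : 0 ≤ L)
    (hB : TwoB Λ B Kb L) (h0 : 0 ≤ σ) (hσ : σ ≤ δ / 2) (hδ : δ ≤ 1 / 4)
    (h2 : σ ^ 2 * (2 * Fintype.card R - 1) = 1) (hR : 1 ≤ Fintype.card R)
    {κ : J → ℝ} (κ0 : ∑ j, κ j = 0) (κ1 : ∀ j, |κ j| ≤ 1) {ε : ℝ} (hε : 0 ≤ ε)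
    {N p N₀ : ℕ} {a b c : ℕ → ℝ}
    (hN : N ≤ N₀) (hp : p ≤ N₀) (c1 : ∑ n ∈ range N, c n ^ 2 ≤ 1)
    (c2 : (∑ n ∈ range N, c n • Chebyshev.S ℝ n) ^ 2 = ∑ n ∈ range N, b n • Chebyshev.S ℝ n)
    (c3 : ∀ t : ℝ, |t| ≤ 2 → |(∑ n ∈ range N, a n • Chebyshev.S ℝ (n + 1 : ℕ)).eval t| ≤ 100)
    (c4 : ∀ t : ℝ, ((∑ n ∈ range N, a n • Chebyshev.S ℝ (n + 1 : ℕ)).eval t -
      (∑ n ∈ range N, a n • Chebyshev.S ℝ (n + 1 : ℕ)).eval (max (-2) (min 2 t))) ^ 2 ≤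
        ε ^ 2 * (t / 2) ^ (2 * p))
    (e1 : err ‖Λ 1‖ 1 1 σ η (Fintype.card R) (2 * N₀ + 2) ≤ δ)
    (e2 : err ‖Λ 1‖ Kb L σ η (Fintype.card R) (2 * N₀ + 2) ≤ δ) {M : ℝ}
    (hM : M = 2 * ‖Λ 1‖ + 1) :
    ‖∑ n ∈ range N, ((a n * b n : ℝ) : ℂ) * diag z v U x κ B σ n‖ ≤
      Kb * 100 * ((2 * M) ^ 2 + (∑ n ∈ range N, |c n|) ^ 2 * (δ * (1 + 16 * (L + 1) * M ^ 2))) +
        L * (ε * (2 * M)) * ((∑ n ∈ range N, |b n|) * (2 * M)) +
          (∑ n ∈ range N, |a n|) * (∑ n ∈ range N, |b n|) * (δ * (1 + 16 * (L + 1) * M ^ 2)) := by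
  have H := h fun _ => Classical.arbitrary J
  have η0 := H.eta
  have h1 : σ ≤ 1 := by linarith
  have o1 : ∀ (_ : R × Bool → J) (w : List (R × Bool)), |(1 : List (R × Bool) → ℝ) w| ≤ 1 :=
    fun _ w => by simp
  have o2 : ∀ (θ : R × Bool → J) w, |hd (κ ∘ θ) w| ≤ 1 := fun θ w => by
    cases w
    · simp [hd]
    · exact κ1 _
  have f1 : ∀ n ≤ N₀ + 1, ∀ n' ≤ N₀ + 1, err ‖Λ 1‖ 1 1 σ η (Fintype.card R) (n + n') ≤ δ :=
    fun n hn n' hn' => (err_mono (norm_nonneg _) zero_le_one zero_le_one h0 η0 hR (by omega)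
      (by omega)).trans e1
  have f2 : ∀ n ≤ N₀ + 1, err ‖Λ 1‖ 1 1 σ η (Fintype.card R) (n + n) ≤ 1 :=
    fun n hn => (f1 n hn n hn).trans (by linarith)
  have hr : Recs (A := (R × Bool → J) × (R → G) → A) (fun _ => z)
      (fun ω => Lk (lt v U (x ∘ ω.1) ω.2) σ 1) (fun ω => Lk (lt v U (x ∘ ω.1) ω.2) σ (κ ∘ ω.1))
      (WF z v U x σ fun _ => 1) (WF z v U x σ fun θ => hd (κ ∘ θ))
      (fun n ω => ((σ ^ 2 * ∑ s, (κ ∘ ω.1) s : ℝ) : ℂ) • WF z v U x σ (fun _ => 1) n ω) (σ ^ 2) :=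
    recs_pi fun ω => ((h ω.1).lets ω.2).recs h2 _
  have hz : IsStarProjection (fun _ => z : (R × Bool → J) × (R → G) → A) :=
    ⟨funext fun _ => H.proj.isIdempotentElem.eq, funext fun _ => H.proj.isSelfAdjoint.star_eq⟩
  have hs : IsSelfAdjoint (fun ω => Lk (lt v U (x ∘ ω.1) ω.2) σ 1 :
    (R × Bool → J) × (R → G) → A) := funext fun ω => ((h ω.1).lets ω.2).star_Lk
  subst hM
  exact fin_est' (tr_av H.tr) hz (fun y => funext fun ω => H.cen _) hs hK hL (by positivity) hε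
    (hB.av hK hL) hN hp c1 c2 c3 c4 hr (by positivity) (by nlinarith) hδ
    (fun n hn => norm_WF hP h h0 h1 h2 hR o1 n (f2 n hn))
    (fun n hn => norm_WF hP h h0 h1 h2 hR o2 n (f2 n hn))
    (fun n hn => norm_XF hP h h0 h1 h2 hR o1 κ0 κ1 hσ n (f2 n hn)) _
    (fun n hn n' hn' ne => (inner_WF hP h h0 h1 h2 hR o1 ne).trans (f1 n hn n' hn'))
    (fun n hn n' hn' ne => (inner_WF hP h h0 h1 h2 hR o2 ne).trans (f1 n hn n' hn'))
    fun n hn n' hn' => by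
      have := (form_WF hP h h0 h1 h2 hR o1 o2 hK hL hB (n + 1) (n' + 1)).trans
        ((err_mono (norm_nonneg _) hK hL h0 η0 hR (by omega) (by omega)).trans e2)
      simp only [add_left_inj] at this
      exact this

end Vale.Agent.P082
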