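import Vale.Agent.P082.Stmts

/-! Strong sums, maximal orthogonal families and central covers. -/

namespace Vale.Agent.P082

open scoped InnerProductSpace
open Filter Topology Vale.Agent.P104 Finset

universe u

variable {K : Type u} [NormedAddCommGroup K] [InnerProductSpace ℂ K] [CompleteSpace K]
  {M : VonNeumannAlgebra K}

theorem proj_coe {a : Alg M} : IsStarProjection a ↔ IsStarProjection a.1 :=
  ⟨fun h => ⟨congrArg Subtype.val h.1, congrArg Subtype.val h.2⟩,
    fun h => ⟨Subtype.ext h.1, Subtype.ext h.2⟩⟩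

theorem proj_of_star_mul {A : Type*} [Ring A] [StarRing A] {z : A} (h : star z * z = z) :
    IsStarProjection z := by
  have h1 : star z = z := by rw [← h, star_mul, star_star]
  exact ⟨by rw [IsIdempotentElem]; nth_rw 1 [← h1]; exact h, h1⟩

theorem polarA {a b x : Alg M} (ha : IsStarProjection a) (hb : IsStarProjection b)
    (hx : a * x * b ≠ 0) : ∃ w : Alg M, w ≠ 0 ∧ w * star w * w = w ∧ a * w = w ∧ w * b = w := by
  have e : a * (a * x * b) * b = a * x * b := by
    rw [← mul_assoc, ← mul_assoc, ha.1.eq, mul_assoc, hb.1.eq]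
  obtain ⟨w, w1, w2, w3, w4⟩ := polar_piece (M := M) a.1 b.1 (a * x * b).1 (proj_coe.1 ha)
    (proj_coe.1 hb) (a * x * b).2 (congrArg Subtype.val e) fun h => hx (Subtype.ext h)
  have w5 : a * ⟨w, w1⟩ * b = ⟨w, w1⟩ := Subtype.ext w4
  exact ⟨⟨w, w1⟩, fun h => w2 (congrArg Subtype.val h), Subtype.ext w3,
    corner_left ha.1.eq w5, corner_right hb.1.eq w5⟩

/-- `w` is the strong sum of the family `v`. -/
def SSum {ι : Type*} (v : ι → Alg M) (w : Alg M) : Prop :=
  ∀ ξ : K, HasSum (fun i => (v i).1 ξ) (w.1 ξ)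

section SSum

variable {ι : Type*} {v v' : ι → Alg M} {w w' : Alg M}

theorem SSum.unique (h : SSum v w) (h' : SSum v w') : w = w' :=
  Subtype.ext (ContinuousLinearMap.ext fun ξ => (h ξ).unique (h' ξ))

theorem SSum.mul_left (h : SSum v w) (y : Alg M) : SSum (fun i => y * v i) (y * w) :=
  fun ξ => (h ξ).mapL y.1

theorem SSum.mul_right (h : SSum v w) (y : Alg M) : SSum (fun i => v i * y) (w * y) :=
  fun ξ => h (y.1 ξ)

theorem SSum.congr (h : SSum v w) (e : ∀ i, v i = v' i) : SSum v' w := by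
  rwa [← funext e]

theorem ssum_single (i : ι) (h : ∀ j, j ≠ i → v j = 0) : SSum v (v i) := fun ξ =>
  hasSum_single (f := fun j => (v j).1 ξ) i fun j hj => by rw [h j hj]; rfl

theorem ssum_zero (h : ∀ j, v j = 0) : SSum v 0 := fun ξ => by
  simp only [h]
  exact hasSum_zero

theorem ssum_fin [Fintype ι] : SSum v (∑ i, v i) := fun ξ => by
  have := hasSum_fintype fun i => (v i).1 ξ
  convert this using 1
  simp

theorem SSum.star_mul (h : SSum v w) {y u : Alg M} {c : ι → Alg M} (hc : SSum c u)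
    (e : ∀ i, star (v i) * y = c i) : star w * y = u := by
  refine Subtype.ext (ContinuousLinearMap.ext fun ξ => ext_inner_left ℂ fun η => ?_)
  change ⟪η, star w.1 (y.1 ξ)⟫_ℂ = _
  rw [inner_star_right]
  have h1 := (h η).mapL (innerSLFlip ℂ (y.1 ξ))
  have h2 := (hc ξ).mapL (innerSL ℂ η)
  have h3 : (fun i => innerSLFlip ℂ (y.1 ξ) ((v i).1 η)) = fun i => innerSL ℂ η ((c i).1 ξ) :=
    funext fun i => by
      rw [← e i]
      exact (inner_star_right _ _ _).symm
  rw [h3] at h1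
  exact h1.unique h2

theorem exists_ssum (v : ι → Alg M) (ho : ∀ i j, i ≠ j → star (v i) * v j = 0)
    (hb : ∀ s : Finset ι, ‖∑ i ∈ s, v i‖ ≤ 1) : ∃ w, SSum v w := by
  classical
  have hb' : ∀ s : Finset ι, ‖(∑ i ∈ s, v i).1‖ ≤ 1 := hb
  obtain ⟨w, hw⟩ := exists_strong_limit atTop (fun s : Finset ι => (∑ i ∈ s, v i).1) 1
    (Eventually.of_forall hb') fun ξ => by
      refine cauchy_of_mono atTop _ (‖ξ‖ ^ 2) Set.univ Set.univ_nonempty
        (fun s _ => sq_norm_apply_le (hb' s) ξ) fun s _ => ?_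
      filter_upwards [eventually_ge_atTop s] with t ht
      refine ⟨trivial, ?_⟩
      have e : ∑ i ∈ t, v i = ∑ i ∈ s, v i + ∑ i ∈ t \ s, v i := by
        rw [add_comm, sum_sdiff ht]
      have o : star (∑ i ∈ s, v i) * ∑ i ∈ t \ s, v i = 0 := by
        rw [star_sum, sum_mul_sum]
        exact sum_eq_zero fun i hi => sum_eq_zero fun j hj =>
          ho i j fun c => (mem_sdiff.1 hj).2 (c ▸ hi)
      have := norm_add_sq_of_orth (congrArg Subtype.val o) ξ
      rw [e]
      change ‖((∑ i ∈ s, v i).1 + (∑ i ∈ t \ s, v i).1) ξ - _‖ ^ 2 =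
        ‖((∑ i ∈ s, v i).1 + (∑ i ∈ t \ s, v i).1) ξ‖ ^ 2 - _
      rw [this, add_apply, add_sub_cancel_left, add_sub_cancel_left]
  refine ⟨⟨w, mem_of_strong_limit (M := M) (Eventually.of_forall fun s => (∑ i ∈ s, v i).2) hw⟩,
    fun ξ => ?_⟩
  have := hw ξ
  simp only [AddSubmonoidClass.coe_finset_sum, ContinuousLinearMap.sum_apply] at this
  exact this

end SSum

theorem norm_le_one_of_proj {x : Alg M} (h : IsStarProjection (star x * x)) : ‖x‖ ≤ 1 := by
  have h1 := h.norm_le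
  rw [CStarRing.norm_star_mul_self] at h1
  nlinarith [norm_nonneg x]

theorem proj_sumA {ι : Type*} (s : Finset ι) (p : ι → Alg M) (h : ∀ i, IsStarProjection (p i))
    (ho : ∀ i j, i ≠ j → p i * p j = 0) : IsStarProjection (∑ i ∈ s, p i) := by
  refine proj_of_star_mul ?_
  rw [star_sum, sum_mul_sum]
  refine sum_congr rfl fun i hi => ?_
  rw [sum_eq_single i (fun j _ c => by rw [(h i).2.star_eq, ho i j c.symm]) fun c => absurd hi c,
    (h i).2.star_eq, (h i).1.eq]

theorem exists_psum {ι : Type*} (p : ι → Alg M) (h : ∀ i, IsStarProjection (p i))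
    (ho : ∀ i j, i ≠ j → p i * p j = 0) :
    ∃ z, SSum p z ∧ IsStarProjection z ∧ ∀ i, z * p i = p i := by
  obtain ⟨z, hz⟩ := exists_ssum p (fun i j c => by rw [(h i).2.star_eq, ho i j c])
    fun s => (proj_sumA s p h ho).norm_le
  have h1 : ∀ i, p i * z = p i := fun i => by
    have := (hz.mul_left (p i)).unique (ssum_single (v := fun j => p i * p j) i
      fun j c => ho i j c.symm)
    rwa [(h i).1.eq] at this
  have h2 := proj_of_star_mul (hz.star_mul hz fun i => by rw [(h i).2.star_eq, h1])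
  exact ⟨z, hz, h2, fun i => proj_mul_symm (h i).2 h2.2 (h i).2 (h1 i)⟩

theorem max_fam (P : Alg M → Prop) (hP : ∀ w, P w → w * star w * w = w) (S₀ : Set (Alg M))
    (h1 : ∀ w ∈ S₀, P w) (h2 : S₀.Pairwise fun w w' => star w * w' = 0) :
    ∃ (S : Set (Alg M)) (z : Alg M), S₀ ⊆ S ∧ (∀ w ∈ S, P w ∧ z * w = w) ∧
      (S.Pairwise fun w w' => star w * w' = 0) ∧ IsStarProjection z ∧
      SSum (fun w : S => w.1 * star w.1) z ∧ ∀ w, P w → z * w = 0 → w = 0 := by
  obtain ⟨S, S0, ⟨S1, S2⟩, S3⟩ := zorn_subset_nonempty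
    {S : Set (Alg M) | (∀ w ∈ S, P w) ∧ S.Pairwise fun w w' => star w * w' = 0}
    (fun c hc ch _ => ⟨⋃₀ c, ⟨fun p ⟨s, a, b⟩ => (hc a).1 p b,
      (Set.pairwise_sUnion ch.directedOn).2 fun s a => (hc a).2⟩,
      fun s a => Set.subset_sUnion_of_mem a⟩) S₀ ⟨h1, h2⟩
  obtain ⟨z, z1, z2, z3⟩ := exists_psum (fun w : S => w.1 * star w.1)
    (fun w => pi_fin (hP _ (S1 _ w.2))) fun w w' c => by
      rw [mul_assoc, ← mul_assoc (star w.1), S2 w.2 w'.2 fun e => c (Subtype.ext e), zero_mul,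
        mul_zero]
  have z4 : ∀ w ∈ S, z * w = w := fun w hw => by
    rw [← hP w (S1 w hw), ← mul_assoc z, z3 ⟨w, hw⟩]
  refine ⟨S, z, S0, fun w hw => ⟨S1 w hw, z4 w hw⟩, S2, z2, z1, fun w hw h0 => ?_⟩
  have o : ∀ v ∈ S, star v * w = 0 := fun v hv => by
    rw [← z4 v hv, star_mul, z2.2.star_eq, mul_assoc, h0, mul_zero]
  have := S3 (y := insert w S) ⟨Set.forall_mem_insert.2 ⟨hw, S1⟩,
    S2.insert fun v hv _ => ⟨by simpa using star_eq_zero_mul (o v hv), o v hv⟩⟩
    (Set.subset_insert _ _) (Set.mem_insert _ _)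
  rw [← z4 w this, h0]

theorem cen_of {z : Alg M} (hz : IsStarProjection z) (h : ∀ x, (1 - z) * x * z = 0) : Cen z := by
  have h1 : ∀ x, z * x * z = x * z := fun x => by
    have := h x
    rw [sub_mul, sub_mul, one_mul, sub_eq_zero] at this
    exact this.symm
  refine ⟨hz, fun x => ?_⟩
  have := congrArg star (h1 (star x))
  rw [star_mul, star_mul, star_mul, star_star, hz.2.star_eq, ← mul_assoc, h1] at this
  exact this.symm

theorem cover : CoverStmt M := by
  intro q hq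
  obtain ⟨S, z, -, S1, S2, z1, z2, z3⟩ := max_fam (fun w => w * star w * w = w ∧ w * q = w)
    (fun w h => h.1) ∅ (by simp) (by simp)
  have k : ∀ x, (1 - z) * x * q = 0 := fun x => by
    by_contra c
    obtain ⟨w, w0, w1, w2, w3⟩ := polarA z1.one_sub hq c
    refine w0 (z3 w ⟨w1, w3⟩ ?_)
    rw [← w2, ← mul_assoc, mul_sub, z1.1.eq, mul_one, sub_self, zero_mul]
  refine ⟨z, S, cen_of z1 fun x => (z2.mul_left _).unique (ssum_zero fun w => ?_), ?_,
    fun w hw => ⟨(S1 w hw).1.1, (S1 w hw).1.2, (S1 w hw).2⟩, fun w hw w' hw' c => S2 hw hw' c, z2⟩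
  · nth_rw 1 [← (S1 _ w.2).1.2]
    rw [← mul_assoc, ← mul_assoc, mul_assoc _ x, k, zero_mul]
  · have := k 1
    rw [mul_one, sub_mul, one_mul, sub_eq_zero] at this
    exact this.symm

/-- The central support, characterised by annihilation. -/
theorem exists_supp {q : Alg M} (hq : IsStarProjection q) :
    ∃ z, Cen z ∧ z * q = q ∧ ∀ y, (∀ x, y * x * q = 0) → y * z = 0 := by
  obtain ⟨z, S, h1, h2, h3, -, h5⟩ := cover q hq
  refine ⟨z, h1, h2, fun y hy => (SSum.mul_left h5 y).unique (ssum_zero fun w => ?_)⟩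
  nth_rw 1 [← (h3 _ w.2).2.1]
  rw [← mul_assoc, ← mul_assoc, hy, zero_mul]

/-- Comparison of two projections. -/
theorem max_pi {a b : Alg M} (ha : IsStarProjection a) (hb : IsStarProjection b) :
    ∃ w : Alg M, w * star w * w = w ∧ a * w = w ∧ w * b = w ∧
      ∀ x, (a - w * star w) * x * (b - star w * w) = 0 := by
  obtain ⟨w, ⟨wM, w1, w2⟩, hm⟩ := zorn_pi (M := M)
    {w | w ∈ M ∧ w * star w * w = w ∧ a.1 * w * b.1 = w} (fun w h => ⟨h.1, h.2.1⟩)
    ⟨zero_mem _, by simp, by simp⟩ fun l _ w hl h1 h2 h3 _ =>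
      ⟨h1, h2, corner_of_limit (v := fun v => v) (hl.mono fun v hv => hv.2.2) h3⟩
  obtain ⟨u, rfl⟩ : ∃ u : Alg M, u.1 = w := ⟨⟨w, wM⟩, rfl⟩
  have u1 : u * star u * u = u := Subtype.ext w1
  have u2 : a * u * b = u := Subtype.ext w2
  have u3 := corner_left ha.1.eq u2
  have u4 := corner_right hb.1.eq u2
  have u5 : b * star u = star u := by rw [← hb.2.star_eq, ← star_mul, u4]
  have u6 : star u * a = star u := by rw [← ha.2.star_eq, ← star_mul, u3]
  have p1 := (pi_fin u1).sub_of_mul_eq_right ha (by rw [← mul_assoc, u3])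
  have p2 := (pi_init u1).sub_of_mul_eq_right hb (by rw [← mul_assoc, u5])
  refine ⟨u, u1, u3, u4, fun x => ?_⟩
  by_contra c
  obtain ⟨v, v0, v1, v2, v3⟩ := polarA p1 p2 c
  have o1 : star u * v = 0 := by
    rw [← v2, ← mul_assoc, mul_sub, u6, ← mul_assoc, pi_star' u1, sub_self, zero_mul]
  have o2 : u * star v = 0 := by
    rw [← v3, star_mul, p2.2.star_eq, ← mul_assoc, mul_sub, u4, ← mul_assoc, u1, sub_self, zero_mul]
  have a1 : a * v = v := by
    rw [← v2, ← mul_assoc, mul_sub, ha.1.eq, ← mul_assoc, u3]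
  have a2 : v * b = v := by
    rw [← v3, mul_assoc, sub_mul, hb.1.eq, mul_assoc, u4]
  have a3 : a * (u + v) * b = u + v := by rw [mul_add, add_mul, u2, a1, a2]
  exact v0 (Subtype.ext (hm v.1 (congrArg Subtype.val v1) (congrArg Subtype.val o1)
    (congrArg Subtype.val o2) ⟨(u + v).2, congrArg Subtype.val (pi_add u1 v1 o1 o2),
      congrArg Subtype.val a3⟩))

end Vale.Agent.P082
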