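import Vale.Agent.P082.Cut1

/-! The approximate averages in the tracial case, abstract part. -/

namespace Vale.Agent.P082.Cut

open scoped InnerProductSpace ComplexOrder
open Vale.Agent.P104 Finset

variable {A E : Type*} [CStarAlgebra A] [PartialOrder A] [StarOrderedRing A]
  [NormedAddCommGroup E] [InnerProductSpace ℂ E] {τ : A →ₗ[ℂ] ℂ} {Λ : A →ₗ[ℂ] E}

/-- The sesquilinear form attached to a map cut down by `e`. -/
noncomputable def form {A : Type*} [CStarAlgebra A] (τ : A →ₗ[ℂ] ℂ) (ψ : A →L[ℂ] A) (e : A) :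
    A →ₗ[ℂ] A →ₗ⋆[ℂ] ℂ :=
  LinearMap.mk₂'ₛₗ (RingHom.id ℂ) (starRingEnd ℂ) (fun a b => τ (ψ (e * a * e) * star b))
    (fun a b c => by simp only [mul_add, add_mul, map_add])
    (fun t a b => by simp only [mul_smul_comm, smul_mul_assoc, map_smul, RingHom.id_apply])
    (fun a b c => by simp only [star_add, mul_add, map_add])
    (fun t a b => by simp only [star_smul, mul_smul_comm, map_smul, Complex.star_def])

theorem form_apply {A : Type*} [CStarAlgebra A] (τ : A →ₗ[ℂ] ℂ) (ψ : A →L[ℂ] A) (e a b : A) :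
    form τ ψ e a b = τ (ψ (e * a * e) * star b) := rfl

theorem norm3 {A : Type*} [NormedRing A] {a b c : A} {r s t : ℝ} (ha : ‖a‖ ≤ r) (hb : ‖b‖ ≤ s)
    (hc : ‖c‖ ≤ t) : ‖a * b * c‖ ≤ r * s * t := by
  have h0 : 0 ≤ r := (norm_nonneg _).trans ha
  have h1 : 0 ≤ s := (norm_nonneg _).trans hb
  exact (norm_mul_le _ _).trans (mul_le_mul ((norm_mul_le _ _).trans
    (mul_le_mul ha hb (norm_nonneg _) h0)) hc (norm_nonneg _) (mul_nonneg h0 h1))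

theorem form_two (h : Tr τ Λ) {ψ : A →L[ℂ] A} {Kb L : ℝ} (hψ : ‖ψ‖ ≤ Kb) {e : A} (he : ‖e‖ ≤ 1)
    (hL : ∀ a, ‖Λ (ψ (e * a * e))‖ ≤ L * ‖Λ a‖) : TwoB Λ (form τ ψ e) Kb L where
  one a b c := by
    have h0 : 0 ≤ Kb := (norm_nonneg _).trans hψ
    have h1 : ‖ψ (e * a * e)‖ ≤ Kb * ‖a‖ := (ψ.le_of_opNorm_le hψ _).trans
      (mul_le_mul_of_nonneg_left (by simpa using norm3 he (le_refl ‖a‖) he) h0)
    rw [form_apply, star_mul, ← mul_assoc, mul_right_comm]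
    refine (trCS h _ _).trans (mul_le_mul_of_nonneg_right ((trL h _ _).trans ?_) (norm_nonneg _))
    rw [h.norm_star]
    exact mul_le_mul_of_nonneg_right h1 (norm_nonneg _)
  two a b := (trCS h _ _).trans (mul_le_mul_of_nonneg_right (hL a) (norm_nonneg _))

theorem err (h : Tr τ Λ) {ψ : A →L[ℂ] A} {Kb γ : ℝ} (hψ : ‖ψ‖ ≤ Kb) {e R u x : A} (he : ‖e‖ ≤ 1)
    (hR : ‖R‖ ≤ 1) (hu : ‖u‖ ≤ 1) (hx : ‖x‖ ≤ 1) (h1 : ‖(1 - e) * x * R‖ ≤ γ)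
    (h2 : ‖Λ (ψ (e * (x * (1 - R) * u) * e))‖ ≤ γ) (h3 : ‖Λ (R * u * e - u)‖ ≤ γ) :
    ‖τ (ψ (x * (R * u * e)) * star (x * (R * u * e))) - form τ ψ e (x * u) (x * u)‖ ≤
      (Kb * ‖Λ 1‖ ^ 2 + ‖Λ 1‖ + Kb * ‖Λ 1‖) * γ := by
  have h0 : 0 ≤ Kb := (norm_nonneg _).trans hψ
  have γ0 : 0 ≤ γ := (norm_nonneg _).trans h1
  have t0 := norm_nonneg (Λ 1)
  have n1 : ‖R * u * e‖ ≤ 1 := by simpa using norm3 hR hu he
  have n2 : ‖Λ (x * (R * u * e))‖ ≤ ‖Λ 1‖ := (tr1 h _).trans (mul_le_of_le_one_left t0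
    ((norm_mul_le _ _).trans (mul_le_one₀ hx (norm_nonneg _) n1)))
  have e1 : τ (ψ (x * (R * u * e)) * star (x * (R * u * e))) - form τ ψ e (x * u) (x * u) =
      τ (ψ ((1 - e) * x * R * u * e) * star (x * (R * u * e))) -
      τ (ψ (e * (x * (1 - R) * u) * e) * star (x * (R * u * e))) +
      τ (ψ (e * (x * u) * e) * star (x * (R * u * e - u))) := by
    have : x * (R * u * e) = (1 - e) * x * R * u * e - e * (x * (1 - R) * u) * e +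
        e * (x * u) * e := by noncomm_ring
    have h4 := congrArg (fun y => τ (ψ y * star (x * (R * u * e)))) this
    simp only [map_add, map_sub, add_mul, sub_mul (ψ _)] at h4
    rw [form_apply, mul_sub x (R * u * e), star_sub, mul_sub (ψ _), map_sub, h4]
    ring
  have a1 : ‖τ (ψ ((1 - e) * x * R * u * e) * star (x * (R * u * e)))‖ ≤
      Kb * γ * ‖Λ 1‖ * ‖Λ 1‖ := by
    refine (trCS h _ _).trans (mul_le_mul ((tr1 h _).trans ?_) n2 (norm_nonneg _) (by positivity))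
    refine mul_le_mul_of_nonneg_right ((ψ.le_of_opNorm_le hψ _).trans ?_) t0
    exact mul_le_mul_of_nonneg_left (by simpa using norm3 h1 hu he) h0
  have a2 : ‖τ (ψ (e * (x * (1 - R) * u) * e) * star (x * (R * u * e)))‖ ≤ γ * ‖Λ 1‖ :=
    (trCS h _ _).trans (mul_le_mul h2 n2 (norm_nonneg _) γ0)
  have a3 : ‖τ (ψ (e * (x * u) * e) * star (x * (R * u * e - u)))‖ ≤ Kb * 1 * ‖Λ 1‖ * γ := by
    refine (trCS h _ _).trans (mul_le_mul ((tr1 h _).trans ?_) ((trL h _ _).trans ?_)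
      (norm_nonneg _) (by positivity))
    · refine mul_le_mul_of_nonneg_right ((ψ.le_of_opNorm_le hψ _).trans ?_) t0
      refine mul_le_mul_of_nonneg_left ?_ h0
      simpa using norm3 he ((norm_mul_le x u).trans (mul_le_one₀ hx (norm_nonneg _) hu)) he
    · exact (mul_le_of_le_one_left (norm_nonneg _) hx).trans h3
  rw [e1]
  refine (norm_add_le _ _).trans ((add_le_add ((norm_sub_le _ _).trans (add_le_add a1 a2)) a3).trans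
    (le_of_eq (by ring)))

theorem cut_bound (h : Tr τ Λ) {f : A →ₗ[ℝ] ℝ} {N : A → ℝ} {e : A} (he : IsStarProjection e)
    (hN : ∀ a, N a ≤ f (star a * a) + f (a * star a)) {L ε : ℝ} (hL : 0 ≤ L) (hε : 0 ≤ ε)
    (hw : ∀ w, w * e = w → f (star w * w) ≤ L * ‖Λ w‖ ^ 2 + ε * ‖w‖ ^ 2) (a : A) :
    N (e * a * e) ≤ 2 * (L * ‖Λ a‖ ^ 2 + ε * ‖a‖ ^ 2) := by
  have key : ∀ a, f (star (e * a * e) * (e * a * e)) ≤ L * ‖Λ a‖ ^ 2 + ε * ‖a‖ ^ 2 := fun a => by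
    refine (hw _ (by rw [mul_assoc, he.isIdempotentElem.eq])).trans ?_
    have h1 : ‖e * a * e‖ ≤ ‖a‖ := by simpa using norm3 (he.norm_le e) (le_refl ‖a‖) (he.norm_le e)
    have h2 : ‖Λ (e * a * e)‖ ≤ ‖Λ a‖ := (trR h _ _).trans
      ((mul_le_of_le_one_right (norm_nonneg _) (he.norm_le e)).trans ((trL h _ _).trans
        (mul_le_of_le_one_left (norm_nonneg _) (he.norm_le e))))
    gcongr
  have h1 := key (star a)
  have e1 : e * star a * e = star (e * a * e) := by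
    rw [star_mul, star_mul, he.isSelfAdjoint.star_eq, mul_assoc]
  rw [e1, star_star, h.norm_star, norm_star] at h1
  linarith [hN (e * a * e), key a]

theorem near_one (h : Tr τ Λ) {z m u : A} (hz : Λ (1 - z) = 0) (hu : u * star u = z)
    (hm1 : ‖m‖ ≤ 1) (hu1 : ‖u‖ ≤ 1) {γ : ℝ} (h3 : ‖Λ (m - u)‖ ≤ γ) :
    ‖Λ (m * star m - 1)‖ ≤ 2 * γ := by
  have e : m * star m - 1 = (m - u) * star m + u * star (m - u) - (1 - z) := by
    rw [← hu, star_sub]; noncomm_ring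
  rw [e, map_sub, hz, sub_zero, map_add]
  have a1 := (trR h (m - u) (star m)).trans (mul_le_of_le_one_right (norm_nonneg _)
    (by rwa [norm_star]))
  have a2 := (trL h u (star (m - u))).trans (mul_le_of_le_one_left (norm_nonneg _) hu1)
  rw [h.norm_star] at a2
  linarith [norm_add_le (Λ ((m - u) * star m)) (Λ (u * star (m - u)))]

theorem near_u (h : Tr τ Λ) {e R u : A} (hR : ‖R‖ ≤ 1) (hu : ‖u‖ ≤ 1) :
    ‖Λ (R * u * e - u)‖ ≤ ‖Λ (1 - e)‖ + ‖Λ (1 - R)‖ := by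
  have e1 : R * u * e - u = -(R * u * (1 - e) + (1 - R) * u) := by noncomm_ring
  rw [e1, map_neg, norm_neg, map_add]
  refine (norm_add_le _ _).trans (add_le_add ((trL h _ _).trans ?_) ((trR h _ _).trans ?_))
  · exact mul_le_of_le_one_left (norm_nonneg _)
      ((norm_mul_le _ _).trans (mul_le_one₀ hR (norm_nonneg _) hu))
  · exact mul_le_of_le_one_right (norm_nonneg _) hu

/-- Choice of the cut. -/
theorem choose_cut (h : Tr τ Λ)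
    (hcut : ∀ f : A →ₗ[ℝ] ℝ, (∀ y, 0 ≤ y → 0 ≤ f y) → ∀ ε, 0 < ε → ∃ L₁, 0 ≤ L₁ ∧ ∀ δ, 0 < δ →
      ∃ (e : A) (L₀ : ℝ), IsStarProjection e ∧ 0 ≤ L₀ ∧ ‖Λ (1 - e)‖ ≤ δ ∧ ∀ w, w * e = w →
        f (star w * w) ≤ L₀ * ‖Λ w‖ ^ 2 ∧ f (star w * w) ≤ L₁ * ‖Λ w‖ ^ 2 + ε * ‖w‖ ^ 2)
    {J : Type*} [Fintype J] (x : J → A) (hx : ∀ j, x j ∈ unitary A) (ψ : J → A →L[ℂ] A) {Kb : ℝ}
    (hψ : ∀ j, ‖ψ j‖ ≤ Kb) {γ : ℝ} (hγ : 0 < γ) :
    ∃ (e R : A) (L : ℝ), ‖e‖ ≤ 1 ∧ ‖R‖ ≤ 1 ∧ 0 ≤ L ∧ (∀ j a, ‖Λ (ψ j (e * a * e))‖ ≤ L * ‖Λ a‖) ∧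
      (∀ j, ‖(1 - e) * x j * R‖ ≤ γ) ∧ ‖Λ (1 - e)‖ + ‖Λ (1 - R)‖ ≤ γ ∧
      ∀ j a, ‖a‖ ≤ 2 → ‖Λ a‖ ≤ ‖Λ (1 - R)‖ → ‖Λ (ψ j (e * a * e))‖ ≤ γ := by
  obtain ⟨f, f0, hf⟩ := exists_groth (fun j => Λ ∘ₗ (ψ j).toLinearMap) (L := Kb * ‖Λ 1‖)
    (fun j a => (tr1 h _).trans (by
      rw [mul_right_comm]
      exact mul_le_mul_of_nonneg_right ((ψ j).le_of_opNorm_le (hψ j) a) (norm_nonneg _)))
  obtain ⟨L₁, hL₁, h1⟩ := hcut f f0 (γ ^ 2 / 16) (by positivity)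
  obtain ⟨δ, δ0, δ1, h2⟩ := exists_damp' h x hx hγ (θ := γ / (2 * (L₁ + 1))) (by positivity)
  obtain ⟨e, L₀, he, hL₀, h3, h4⟩ := h1 δ δ0
  obtain ⟨R, hR, h5, h6⟩ := h2 _ h3
  have θ1 : γ / (2 * (L₁ + 1)) ≤ γ / 2 := by gcongr; linarith
  refine ⟨e, R, √(2 * L₀), he.norm_le e, hR, Real.sqrt_nonneg _, fun j a => ?_, h6, by linarith,
    fun j a a1 a2 => le_of_sq_le_sq ?_ hγ.le⟩
  · refine le_of_sq_le_sq ?_ (by positivity)
    have := cut_bound h he (hf j) hL₀ le_rfl (fun w hw => by simpa using (h4 w hw).1) a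
    rw [mul_pow, Real.sq_sqrt (by positivity)]
    simpa [mul_assoc] using this
  · have h7 := cut_bound h he (hf j) hL₁ (by positivity) (fun w hw => (h4 w hw).2) a
    have h8 : ‖Λ a‖ ^ 2 ≤ (γ / (2 * (L₁ + 1))) ^ 2 :=
      pow_le_pow_left₀ (norm_nonneg _) (a2.trans h5) 2
    have h9 : ‖a‖ ^ 2 ≤ 2 ^ 2 := pow_le_pow_left₀ (norm_nonneg _) a1 2
    have h10 : L₁ * (γ / (2 * (L₁ + 1))) ^ 2 ≤ γ ^ 2 / 4 := by
      rw [div_pow, ← mul_div_assoc, div_le_div_iff₀ (by positivity) (by positivity)]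
      nlinarith [sq_nonneg γ, mul_nonneg (sq_nonneg γ) hL₁, mul_nonneg (sq_nonneg γ) (sq_nonneg L₁)]
    refine le_trans h7 ?_
    nlinarith [mul_le_mul_of_nonneg_left h8 hL₁, sq_nonneg γ]

theorem core (h : Tr τ Λ) {z : A} (hz : IsStarProjection z) (hz1 : Λ (1 - z) = 0)
    (hcut : ∀ f : A →ₗ[ℝ] ℝ, (∀ y, 0 ≤ y → 0 ≤ f y) → ∀ ε, 0 < ε → ∃ L₁, 0 ≤ L₁ ∧ ∀ δ, 0 < δ →
      ∃ (e : A) (L₀ : ℝ), IsStarProjection e ∧ 0 ≤ L₀ ∧ ‖Λ (1 - e)‖ ≤ δ ∧ ∀ w, w * e = w →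
        f (star w * w) ≤ L₀ * ‖Λ w‖ ^ 2 ∧ f (star w * w) ≤ L₁ * ‖Λ w‖ ^ 2 + ε * ‖w‖ ^ 2)
    {J : Type*} [Fintype J] (x : J → A) (hx : ∀ j, x j ∈ unitary A) (o : J) (ho : x o = 1)
    (ψ : J → A →L[ℂ] A)
    (hmain : ∀ Kb L ε : ℝ, 0 ≤ Kb → 0 ≤ L → 0 < ε →
      ∃ (Ω : Type) (_ : Fintype Ω) (p : Ω → ℝ) (u : Ω → A), (∀ ω, 0 ≤ p ω) ∧ ∑ ω, p ω = 1 ∧
      (∀ ω, u ω * star (u ω) = z ∧ star (u ω) * u ω = z) ∧ ∀ B, TwoB Λ B Kb L → ∀ j,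
        ‖∑ ω, (p ω : ℂ) * (B (x j * u ω) (x j * u ω) - B (x o * u ω) (x o * u ω))‖ ≤ ε)
    {ε : ℝ} (hε : 0 < ε) :
    ∃ (Ω : Type) (_ : Fintype Ω) (p : Ω → ℝ) (m : Ω → A), (∀ ω, 0 ≤ p ω) ∧ ∑ ω, p ω = 1 ∧
      (∀ ω, ‖m ω‖ ≤ 1 ∧ ‖Λ (m ω * star (m ω) - 1)‖ ≤ ε) ∧ ∀ j,
        ‖∑ ω, (p ω : ℂ) * (τ (ψ j (x j * m ω) * star (x j * m ω)) -
          τ (ψ j (m ω) * star (m ω)))‖ ≤ ε := by
  set Kb := ∑ j, ‖ψ j‖ with hKb
  have K0 : 0 ≤ Kb := sum_nonneg fun j _ => norm_nonneg _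
  have hψ : ∀ j, ‖ψ j‖ ≤ Kb := fun j =>
    single_le_sum (f := fun j => ‖ψ j‖) (fun j _ => norm_nonneg _) (mem_univ j)
  set C := Kb * ‖Λ 1‖ ^ 2 + ‖Λ 1‖ + Kb * ‖Λ 1‖ with hC
  have C0 : 0 ≤ C := by positivity
  set γ := ε / (2 * C + 2) with hγ
  have γ0 : 0 < γ := by positivity
  have γ1 : (2 * C + 2) * γ = ε := by rw [hγ]; field_simp
  obtain ⟨e, R, L, he, hR, hL, h1, h2, h3, h4⟩ := choose_cut h hcut x hx ψ hψ γ0
  obtain ⟨Ω, _, p, u, p0, p1, hu, h5⟩ := hmain Kb L γ K0 hL γ0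
  have u1 : ∀ ω, ‖u ω‖ ≤ 1 := fun ω => by
    have := hz.norm_le z
    rw [← (hu ω).2, CStarRing.norm_star_mul_self] at this
    nlinarith [norm_nonneg (u ω)]
  have x1 : ∀ j, ‖x j‖ ≤ 1 := fun j => by
    have : ‖star (x j) * x j‖ ≤ 1 := by
      rw [(hx j).1]; exact (IsStarProjection.one A).norm_le 1
    rw [CStarRing.norm_star_mul_self] at this
    nlinarith [norm_nonneg (x j)]
  have m1 : ∀ ω, ‖R * u ω * e‖ ≤ 1 := fun ω => by simpa using norm3 hR (u1 ω) he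
  have m2 : ∀ ω, ‖Λ (R * u ω * e - u ω)‖ ≤ γ := fun ω => (near_u h hR (u1 ω)).trans h3
  have R1 : ‖1 - R‖ ≤ 2 := (norm_sub_le _ _).trans (by
    linarith [(IsStarProjection.one A).norm_le 1])
  have key : ∀ j i ω, ‖τ (ψ j (x i * (R * u ω * e)) * star (x i * (R * u ω * e))) -
      form τ (ψ j) e (x i * u ω) (x i * u ω)‖ ≤ C * γ := fun j i ω =>
    err h (hψ j) he hR (u1 ω) (x1 i) (h2 i) (h4 j _ (by simpa using norm3 (x1 i) R1 (u1 ω)) (by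
      refine (trR h _ _).trans ((mul_le_of_le_one_right (norm_nonneg _) (u1 ω)).trans ?_)
      rw [h.norm_ul (hx i)])) (m2 ω)
  refine ⟨Ω, inferInstance, p, fun ω => R * u ω * e, p0, p1, fun ω => ⟨m1 ω,
    (near_one h hz1 (hu ω).1 (m1 ω) (u1 ω) (m2 ω)).trans (by nlinarith)⟩, fun j => ?_⟩
  have h6 := h5 _ (form_two h (hψ j) he (h1 j)) j
  refine le_trans (norm_le_norm_add_norm_sub' _ _) ((add_le_add h6 ?_).trans
    (show γ + 2 * (C * γ) ≤ ε by nlinarith))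
  rw [← sum_sub_distrib]
  refine (norm_sum_le_of_le _ (n := fun ω => p ω * (2 * (C * γ))) fun ω _ => ?_).trans
    (by rw [← sum_mul, p1, one_mul])
  rw [← mul_sub, norm_mul, Complex.norm_real, Real.norm_of_nonneg (p0 ω), sub_sub_sub_comm]
  refine mul_le_mul_of_nonneg_left ((norm_sub_le _ _).trans ?_) (p0 ω)
  have h7 := key j o ω
  nth_rw 1 2 [ho] at h7
  rw [one_mul] at h7
  linarith [key j j ω]

end Vale.Agent.P082.Cut
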