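import Vale.Agent.P082.Cut2
import Vale.Agent.P082.Cut3

/-! Invariant averages in the tracial case. -/

namespace Vale.Agent.P082

open scoped InnerProductSpace ComplexOrder
open Vale.Agent.P104 Finset Filter Topology

universe u

variable {K : Type u} [NormedAddCommGroup K] [InnerProductSpace ℂ K] [CompleteSpace K]
  {M : VonNeumannAlgebra K}

namespace Cut

theorem vec_tendsto {φ : Alg M →ₗ[ℂ] ℂ} (hφ : VecF φ) (l : Filter (Alg M)) (w : Alg M)
    (hw : ∀ ξ, Tendsto (fun v : Alg M => v.1 ξ) l (𝓝 (w.1 ξ))) : Tendsto φ l (𝓝 (φ w)) := by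
  obtain ⟨I, _, ξ, η, h⟩ := hφ
  rw [h w, show (φ : Alg M → ℂ) = _ from funext h]
  exact tendsto_finsetSum _ fun i _ => tendsto_const_nhds.inner (hw _)

theorem hcut {E : Type*} [NormedAddCommGroup E] [InnerProductSpace ℂ E] {τ : Alg M →ₗ[ℂ] ℂ}
    {Λ : Alg M →ₗ[ℂ] E} (h : Tr τ Λ) (hφ : VecF τ) (f : Alg M →ₗ[ℝ] ℝ)
    (hf : ∀ y, 0 ≤ y → 0 ≤ f y) (ε : ℝ) (hε : 0 < ε) : ∃ L₁, 0 ≤ L₁ ∧ ∀ δ, 0 < δ →
      ∃ (e : Alg M) (L₀ : ℝ), IsStarProjection e ∧ 0 ≤ L₀ ∧ ‖Λ (1 - e)‖ ≤ δ ∧ ∀ w, w * e = w →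
        f (star w * w) ≤ L₀ * ‖Λ w‖ ^ 2 ∧ f (star w * w) ≤ L₁ * ‖Λ w‖ ^ 2 + ε * ‖w‖ ^ 2 := by
  obtain ⟨L₁, hL, h1⟩ := exists_cut f (Complex.reLm ∘ₗ τ.restrictScalars ℝ) hf (fun y hy => by
      obtain ⟨s, rfl⟩ := CStarAlgebra.nonneg_iff_eq_star_mul_self.1 hy
      change 0 ≤ (τ _).re
      rw [← h.nsq]
      positivity)
    (fun l w hw => (Complex.continuous_re.tendsto _).comp (vec_tendsto hφ l w hw)) hε
  refine ⟨L₁, hL, fun δ hδ => ?_⟩
  obtain ⟨e, L₀, he, h2, h3, h4⟩ := h1 (δ ^ 2) (by positivity)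
  refine ⟨e, L₀, he, h2, le_of_sq_le_sq ?_ hδ.le, fun w hw => ?_⟩
  · rw [h.nsq, he.one_sub.isSelfAdjoint.star_eq, he.one_sub.isIdempotentElem.eq]
    exact h3
  · rw [h.nsq]
    exact h4 w hw

theorem approx {E : Type u} [NormedAddCommGroup E] [InnerProductSpace ℂ E] {τ : Alg M →ₗ[ℂ] ℂ}
    {Λ : Alg M →ₗ[ℂ] E} (h : Tr τ Λ) (hφ : VecF τ) (hD : MainIIStmt.{u, u}) {z : Alg M}
    (hz : Cen z) (hs : ∀ x, τ (x * z) = τ x) (hH : HalvA z) :
    Approx M z {φ | ∃ y, ∀ a, φ a = τ (y * a)} (unitary (Alg M)) := by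
  classical
  intro D ε hε
  let d : Fin D.card → (Alg M →L[ℂ] Alg M) × Alg M × (Alg M →ₗ[ℂ] ℂ) := fun i =>
    (D.equivFin.symm i).1
  let y : Fin D.card → Alg M := fun i =>
    if hy : ∃ y, ∀ a, (d i).2.2 a = τ (y * a) then hy.choose else 0
  let x : Option (Fin D.card) → Alg M := fun o =>
    o.elim 1 fun i => if (d i).2.1 ∈ unitary (Alg M) then (d i).2.1 else 1
  have hx : ∀ o, x o ∈ unitary (Alg M) := by
    rintro (_ | i)
    · exact one_mem _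
    · simp only [x, Option.elim_some]
      split_ifs with c
      exacts [c, one_mem _]
  let ψ : Option (Fin D.card) → Alg M →L[ℂ] Alg M := fun o =>
    o.elim 0 fun i => ContinuousLinearMap.mul ℂ _ ((d i).2.1 * y i) ∘L (d i).1
  set C := ∑ i, ‖Λ (star (y i * (d i).2.1))‖ with hC
  have C0 : 0 ≤ C := sum_nonneg fun i _ => norm_nonneg _
  have hz1 : Λ (1 - z) = 0 := by
    rw [← norm_eq_zero, ← sq_eq_zero_iff, h.nsq, hz.proj.one_sub.isSelfAdjoint.star_eq,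
      hz.proj.one_sub.isIdempotentElem.eq, ← hs, hz.proj.one_sub_mul_self, map_zero,
      Complex.zero_re]
  obtain ⟨Ω, _, p, m, p0, p1, hm, h1⟩ := core h hz.proj hz1 (hcut h hφ) x hx none rfl ψ
    (hD _ _ τ Λ z h hz.proj hz.comm hs hH _ x none hx) (ε := ε / (C + 1)) (by positivity)
  have ε1 : ε / (C + 1) ≤ ε := div_le_self hε.le (by linarith)
  refine ⟨Ω, inferInstance, p, m, p0, p1, fun ω => (hm ω).1, fun a ha hY => ?_⟩
  obtain ⟨i, rfl⟩ : ∃ i, d i = a := ⟨D.equivFin ⟨a, ha⟩, by simp [d]⟩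
  have hy : ∀ a, (d i).2.2 a = τ (y i * a) := by
    have : ∃ y, ∀ a, (d i).2.2 a = τ (y * a) := hY
    simp only [y, dif_pos this]
    exact this.choose_spec
  refine ⟨?_, fun hu => le_trans (le_of_eq ?_) ((h1 (some i)).trans ε1)⟩
  · refine (norm_sum_le_of_le _ (n := fun ω => p ω * ε) fun ω _ => ?_).trans
      (by rw [← sum_mul, p1, one_mul])
    rw [norm_mul, Complex.norm_real, Real.norm_of_nonneg (p0 ω), hy, ← mul_assoc, hs, ← mul_assoc,
      ← star_star (y i * _), ← h.inner]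
    refine mul_le_mul_of_nonneg_left ((norm_inner_le_norm _ _).trans ?_) (p0 ω)
    have h2 := single_le_sum (f := fun i => ‖Λ (star (y i * (d i).2.1))‖)
      (fun i _ => norm_nonneg _) (mem_univ i)
    refine (mul_le_mul (h2.trans (le_add_of_nonneg_right zero_le_one)) (hm ω).2 (norm_nonneg _)
      (by positivity)).trans (le_of_eq ?_)
    rw [← hC]
    field_simp
  · have hu' : (d i).2.1 ∈ unitary (Alg M) := hu
    refine congrArg _ (sum_congr rfl fun ω _ => congrArg _ ?_)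
    simp only [x, ψ, Option.elim_some, if_pos hu', ContinuousLinearMap.comp_apply,
      ContinuousLinearMap.mul_apply']
    generalize (d i).2.1 = X at *
    rw [hy, ← mul_assoc, hs, mul_sub, map_sub, star_mul, ← mul_assoc _ _ (star X), h.tr _ (star X),
      ← mul_assoc _ _ X, h.tr _ X]
    simp only [← mul_assoc, hu'.1, one_mul]

theorem vec_left {τ φ : Alg M →ₗ[ℂ] ℂ} (hv : VecF τ) {y : Alg M} (hy : ∀ a, φ a = τ (y * a)) :
    VecF φ := by
  obtain ⟨I, _, ξ, η, h1⟩ := hv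
  refine ⟨I, inferInstance, ξ, fun i => star y.1 (η i), fun a => ?_⟩
  rw [hy, h1]
  refine sum_congr rfl fun i _ => ?_
  rw [inner_star_left]
  rfl

theorem exists_gns {A : Type u} [CStarAlgebra A] [PartialOrder A] [StarOrderedRing A]
    (τ : A →ₚ[ℂ] ℂ) (ht : ∀ x y, τ (x * y) = τ (y * x)) :
    ∃ (E : Type u) (_ : NormedAddCommGroup E) (_ : InnerProductSpace ℂ E) (Λ : A →ₗ[ℂ] E),
      Tr τ.toLinearMap Λ :=
  ⟨τ.GNS, inferInstance, inferInstance,
    (UniformSpace.Completion.toComplL : τ.PreGNS →L[ℂ] τ.GNS).toLinearMap ∘ₗ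
      τ.toPreGNS.toLinearMap, ht, fun _ _ => UniformSpace.Completion.inner_coe _ _⟩

theorem top_of_unitary {A : Type*} [CStarAlgebra A] (T : Subalgebra ℂ A)
    (hT : (unitary A : Set A) ⊆ T) : T = ⊤ := by
  rw [eq_top_iff]
  intro a _
  have : a ∈ Submodule.span ℂ (unitary A : Set A) := by
    rw [CStarAlgebra.span_unitary]; trivial
  exact (Submodule.span_le (p := Subalgebra.toSubmodule T)).2 hT this

end Cut

theorem avgII (hA : ApproxStmt M) (hD : MainIIStmt.{u, u}) : AvgIIStmt M := by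
  rintro z hz ⟨hH, τ, hv, ht, hs, hf⟩
  obtain ⟨E, _, _, Λ, h⟩ := Cut.exists_gns τ ht
  refine hA z _ _ hz ?_ ?_ (fun T _ hT => Cut.top_of_unitary T hT) (Cut.approx h hv hD hz hs hH)
  · rintro φ ⟨y, hy⟩
    exact Cut.vec_left hv hy
  · intro a ha h0
    rw [← ha]
    exact hf a (h0 (τ.toLinearMap ∘ₗ LinearMap.mulLeft ℂ (star a)) ⟨star a, fun _ => rfl⟩)

end Vale.Agent.P082
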