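import Vale.Agent.P082.Stmts

/-! Grothendieck factorization and elementary trace estimates. -/

namespace Vale.Agent.P082.Cut

open scoped InnerProductSpace ComplexOrder
open Vale.Agent.P104 Finset

section HB

variable {A : Type*} [CStarAlgebra A] [PartialOrder A] [StarOrderedRing A]

theorem sep_disjoint (N : A → ℝ) (P : A → A) (hN0 : ∀ a, 0 ≤ N a) (hP0 : ∀ a, 0 ≤ P a)
    (hN : ∀ (s : ℝ) a, 0 ≤ s → N (√s • a) = s * N a)
    (hP : ∀ (s : ℝ) a, 0 ≤ s → P (√s • a) = s • P a)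
    (hc : ∀ (ι : Type) [Fintype ι] (x : ι → A), ∑ i, N (x i) ≤ ‖∑ i, P (x i)‖) [Nontrivial A] :
    Disjoint (Metric.ball (-1 : A) 1)
      (convexHull ℝ (Set.range fun a => P a - N a • (1 : A))) := by
  refine Set.disjoint_left.2 fun z hz hz' => ?_
  obtain ⟨ι, _, w, p, w0, -, hp, rfl⟩ := mem_convexHull_iff_exists_fintype.1 hz'
  choose a ha using hp
  have k := hc ι fun i => √(w i) • a i
  have e : ∑ i, w i • p i = (∑ i, P (√(w i) • a i)) -
      (∑ i, N (√(w i) • a i)) • (1 : A) := by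
    rw [Finset.sum_smul, ← Finset.sum_sub_distrib]
    refine Finset.sum_congr rfl fun i _ => ?_
    rw [← ha, hN _ _ (w0 i), hP _ _ (w0 i), smul_sub, smul_smul]
  have y0 : 0 ≤ ∑ i, P (√(w i) • a i) := Finset.sum_nonneg fun i _ => hP0 _
  have m0 : 0 ≤ ∑ i, N (√(w i) • a i) := Finset.sum_nonneg fun i _ => hN0 _
  rw [e, mem_ball_iff_norm, sub_neg_eq_add] at hz
  generalize (∑ i, P (√(w i) • a i)) = y at *
  generalize (∑ i, N (√(w i) • a i)) = m at *
  have a1 := le_norm_smul (a := y - m • (1 : A) + 1) (by simp [y0.isSelfAdjoint.star_eq])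
  have a2 : y ≤ max (m - 1 + ‖y - m • (1 : A) + 1‖) 0 • (1 : A) := by
    refine le_trans ?_ (smul_le_smul_of_nonneg_right (le_max_left _ _) zero_le_one)
    rw [add_smul, sub_smul, one_smul, ← sub_le_iff_le_add']
    exact le_of_eq_of_le (by abel) a1
  have a3 := norm_le_of_le_smul (le_max_right _ _) y0 a2
  rcases le_max_iff.1 a3 with a5 | a5
  · linarith
  · have a6 : m = 0 := by linarith
    rw [norm_le_zero_iff.1 a5, a6] at hz
    simp at hz

theorem pos_of_ball (f : A →L[ℝ] ℝ) (h3 : ∀ z : A, ‖z‖ < 1 → f z < f 1) :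
    ∀ y : A, 0 ≤ y → 0 ≤ f y := by
  have f1 : 0 < f 1 := by simpa using h3 0 (by simp)
  have h4 : ∀ z : A, ‖z‖ ≤ 1 → f z ≤ f 1 := fun z hz => by
    by_contra hlt
    have p : 0 < f z := by linarith
    have := h3 ((f 1 / f z) • z) (by
      rw [norm_smul, Real.norm_of_nonneg (by positivity)]
      exact (mul_le_of_le_one_right (by positivity) hz).trans_lt ((div_lt_one p).2 (by linarith)))
    rw [map_smul, smul_eq_mul, div_mul_cancel₀ _ p.ne'] at this
    exact lt_irrefl _ this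
  intro y hy
  have p : 0 < ‖y‖ + 1 := by positivity
  have b1 : (‖y‖ + 1)⁻¹ • y ≤ 1 := by
    have := le_smul_of_norm_le (r := 1) (a := (‖y‖ + 1)⁻¹ • y)
      (by simp [hy.isSelfAdjoint.star_eq]) (by
        rw [norm_smul, Real.norm_of_nonneg (by positivity), inv_mul_le_iff₀ p]; linarith)
    rwa [one_smul] at this
  have := h4 (1 - (‖y‖ + 1)⁻¹ • y) (norm_le_of_le_smul zero_le_one (sub_nonneg.2 b1) (by
    rw [one_smul]; exact sub_le_self _ (smul_nonneg (by positivity) hy)))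
  rw [map_sub, map_smul, smul_eq_mul, sub_le_self_iff] at this
  exact (mul_nonneg_iff_of_pos_left (by positivity)).1 this

theorem exists_dom (N : A → ℝ) (P : A → A) (hN0 : ∀ a, 0 ≤ N a) (hP0 : ∀ a, 0 ≤ P a)
    (hN : ∀ (s : ℝ) a, 0 ≤ s → N (√s • a) = s * N a)
    (hP : ∀ (s : ℝ) a, 0 ≤ s → P (√s • a) = s • P a)
    (hc : ∀ (ι : Type) [Fintype ι] (x : ι → A), ∑ i, N (x i) ≤ ‖∑ i, P (x i)‖) :
    ∃ f : A →ₗ[ℝ] ℝ, (∀ y, 0 ≤ y → 0 ≤ f y) ∧ ∀ a, N a ≤ f (P a) := by
  have hg : ∀ (s : ℝ) (a : A), 0 ≤ s →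
      P (√s • a) - N (√s • a) • (1 : A) = s • (P a - N a • (1 : A)) := fun s a hs => by
    rw [hN _ _ hs, hP _ _ hs, smul_sub, smul_smul]
  rcases subsingleton_or_nontrivial A with hA | hA
  · refine ⟨0, by simp, fun a => ?_⟩
    have := hc Unit fun _ => a
    simpa [Subsingleton.elim (P a) 0] using this
  obtain ⟨f, t, h1, h2⟩ := geometric_hahn_banach_open (convex_ball (-1 : A) 1) Metric.isOpen_ball
    (convex_convexHull ℝ _) (sep_disjoint N P hN0 hP0 hN hP hc)
  have t0 : t ≤ 0 := by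
    have := h2 _ (subset_convexHull ℝ _ ⟨√0 • 0, rfl⟩)
    simp only [hg 0 0 le_rfl, zero_smul, map_zero] at this
    exact this
  have h3 : ∀ z : A, ‖z‖ < 1 → f z < f 1 := fun z hz => by
    have := h1 (z - 1) (by simpa [mem_ball_iff_norm] using hz)
    rw [map_sub] at this
    linarith
  have f1 : 0 < f 1 := by simpa using h3 0 (by simp)
  have h6 : ∀ a, 0 ≤ f (P a - N a • 1) := fun a => by
    by_contra hlt
    have p : 0 < -f (P a - N a • 1) := by linarith
    have := h2 _ (subset_convexHull ℝ _ ⟨√((1 - t) / -f (P a - N a • 1)) • a, rfl⟩)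
    simp only at this
    rw [hg _ _ (div_nonneg (by linarith) p.le), map_smul, smul_eq_mul, div_neg, neg_mul,
      div_mul_cancel₀ _ (by linarith)] at this
    linarith
  refine ⟨(f 1)⁻¹ • f.toLinearMap, fun y hy => ?_, fun a => ?_⟩
  · exact mul_nonneg (inv_nonneg.2 f1.le) (pos_of_ball f h3 y hy)
  · have := h6 a
    rw [map_sub, map_smul, smul_eq_mul] at this
    change _ ≤ (f 1)⁻¹ * f (P a)
    rw [← div_eq_inv_mul, le_div_iff₀ f1]
    linarith

/-- Grothendieck factorization for a finite family of bounded maps into a Hilbert space. -/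
theorem exists_groth {H J : Type*} [NormedAddCommGroup H] [InnerProductSpace ℂ H] [Fintype J]
    (u : J → A →ₗ[ℂ] H) {L : ℝ} (hL : ∀ j a, ‖u j a‖ ≤ L * ‖a‖) :
    ∃ f : A →ₗ[ℝ] ℝ, (∀ y, 0 ≤ y → 0 ≤ f y) ∧
      ∀ j a, ‖u j a‖ ^ 2 ≤ f (star a * a) + f (a * star a) := by
  set κ : ℝ := Fintype.card J * (2 * L ^ 2) with hκ
  have κ0 : 0 ≤ κ := by positivity
  have hp : ∀ a : A, 0 ≤ star a * a + a * star a := fun a =>
    add_nonneg (star_mul_self_nonneg a) (mul_star_self_nonneg a)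
  obtain ⟨f, h1, h2⟩ := exists_dom (fun a => ∑ j, ‖u j a‖ ^ 2)
    (fun a => κ • (star a * a + a * star a)) (fun a => by positivity)
    (fun a => smul_nonneg κ0 (hp a)) (fun s a hs => by
      rw [mul_sum]
      refine sum_congr rfl fun j _ => ?_
      rw [LinearMap.map_smul_of_tower, norm_smul, mul_pow, Real.norm_eq_abs, sq_abs,
        Real.sq_sqrt hs])
    (fun s a hs => by
      simp only [star_smul, star_trivial, smul_mul_smul_comm, Real.mul_self_sqrt hs, ← smul_add,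
        smul_smul, mul_comm κ s])
    (fun ι _ x => by
      rw [← smul_sum, norm_smul, Real.norm_of_nonneg κ0, sum_comm, hκ, mul_assoc,
        ← nsmul_eq_mul, ← card_univ, ← sum_const]
      refine sum_le_sum fun j _ => groth (u j) (hL j) ι x _ ?_ ?_
      · exact CStarAlgebra.norm_le_norm_of_nonneg_of_le
          (sum_nonneg fun i _ => star_mul_self_nonneg _)
          (sum_le_sum fun i _ => le_add_of_nonneg_right (mul_star_self_nonneg _))
      · exact CStarAlgebra.norm_le_norm_of_nonneg_of_le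
          (sum_nonneg fun i _ => mul_star_self_nonneg _)
          (sum_le_sum fun i _ => le_add_of_nonneg_left (star_mul_self_nonneg _)))
  refine ⟨κ • f, fun y hy => mul_nonneg κ0 (h1 y hy), fun j a => ?_⟩
  have h3 := h2 a
  rw [map_smul, map_add, smul_eq_mul, mul_add] at h3
  exact (single_le_sum (f := fun j => ‖u j a‖ ^ 2) (fun j _ => by positivity) (mem_univ j)).trans h3

end HB

section Tr

variable {A E : Type*} [CStarAlgebra A] [PartialOrder A] [StarOrderedRing A]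
  [NormedAddCommGroup E] [InnerProductSpace ℂ E] {τ : A →ₗ[ℂ] ℂ} {Λ : A →ₗ[ℂ] E}

theorem trR (h : Tr τ Λ) (x a : A) : ‖Λ (x * a)‖ ≤ ‖Λ x‖ * ‖a‖ := by
  refine le_of_sq_le_sq ?_ (by positivity)
  have := h.mul_le (star_mul_self_nonneg x) (mul_star_self_le_norm_sq a)
  rw [h.nsq, mul_pow, h.nsq, star_mul, mul_assoc, h.tr, mul_comm, ← mul_assoc, mul_assoc _ a]
  exact this

theorem trL (h : Tr τ Λ) (a x : A) : ‖Λ (a * x)‖ ≤ ‖a‖ * ‖Λ x‖ := by
  rw [← h.norm_star, star_mul, mul_comm, ← h.norm_star x, ← norm_star a]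
  exact trR h _ _

theorem tr1 (h : Tr τ Λ) (a : A) : ‖Λ a‖ ≤ ‖a‖ * ‖Λ 1‖ := by
  simpa using trL h a 1

omit [PartialOrder A] [StarOrderedRing A] in
theorem trCS (h : Tr τ Λ) (a b : A) : ‖τ (a * star b)‖ ≤ ‖Λ a‖ * ‖Λ b‖ := by
  rw [h.tr, ← h.inner, mul_comm]
  exact norm_inner_le_norm _ _

/-- A contraction close to `1` in `L²` which almost kills a small positive element. -/
theorem exists_damp (h : Tr τ Λ) {k : A} (hk : 0 ≤ k) :
    ∃ R : A, ‖R‖ ≤ 1 ∧ star R * k * R ≤ 1 ∧ ‖Λ (1 - R)‖ ^ 2 ≤ (τ k).re := by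
  obtain ⟨R, h1, h2, h3, h4⟩ := exists_inv_of_le (b := 1 + k) (δ := 1) one_pos
    (by rw [one_smul]; exact le_add_of_nonneg_right hk)
  have ks : star k = k := hk.isSelfAdjoint.star_eq
  have kk : 0 ≤ k * k := by simpa [ks] using star_mul_self_nonneg k
  have e : (1 + k) * (1 + k) = 1 + k + k + k * k := by noncomm_ring
  have e1 : star R * ((1 + k) * (1 + k)) * R = 1 := by
    rw [h3, ← mul_assoc, h2, one_mul, h1]
  have b1 : (1 : A) ≤ (1 + k) * (1 + k) := by
    rw [e, add_assoc, add_assoc]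
    exact le_add_of_nonneg_right (add_nonneg hk (add_nonneg hk kk))
  have b2 : k ≤ (1 + k) * (1 + k) := by
    rw [e, add_comm 1 k, add_assoc, add_assoc]
    exact le_add_of_nonneg_right (add_nonneg zero_le_one (add_nonneg hk kk))
  have c1 := star_left_conjugate_le_conjugate b1 R
  have c2 := star_left_conjugate_le_conjugate b2 R
  rw [e1] at c1 c2
  refine ⟨R, ?_, c2, ?_⟩
  · have := norm_sq_le_of_le (x := R) zero_le_one (by simpa using c1)
    nlinarith [norm_nonneg R]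
  · have e2 : 1 - R = k * R := by rw [← h1]; noncomm_ring
    have e3 : k * R = R * k := (h4 k ((Commute.one_right k).add_right (Commute.refl k))).eq
    have := h.mul_le hk (C := 1) (by simpa using c2)
    rw [one_mul, h3] at this
    rw [h.nsq, e2, star_mul, ks, h3, ← e3, mul_assoc k R, ← mul_assoc R k R]
    exact this

/-- Damping adapted to finitely many unitaries. -/
theorem exists_damp' (h : Tr τ Λ) {J : Type*} [Fintype J] (x : J → A) (hx : ∀ j, x j ∈ unitary A)
    {η θ : ℝ} (hη : 0 < η) (hθ : 0 < θ) : ∃ δ, 0 < δ ∧ δ ≤ θ ∧ ∀ e : A, ‖Λ e‖ ≤ δ →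
      ∃ R : A, ‖R‖ ≤ 1 ∧ ‖Λ (1 - R)‖ ≤ θ ∧ ∀ j, ‖e * x j * R‖ ≤ η := by
  have n0 : (0 : ℝ) ≤ Fintype.card J := Nat.cast_nonneg _
  refine ⟨θ * η / (Fintype.card J + η + 1), by positivity, ?_, fun e he => ?_⟩
  · rw [div_le_iff₀ (by positivity)]
    nlinarith
  have p : ∀ j, 0 ≤ star (e * x j) * (e * x j) := fun j => star_mul_self_nonneg _
  have η2 : 0 < η ^ 2 := by positivity
  obtain ⟨R, h1, h2, h3⟩ := exists_damp h (k := (η ^ 2)⁻¹ • ∑ j, star (e * x j) * (e * x j))
    (smul_nonneg (by positivity) (sum_nonneg fun j _ => p j))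
  refine ⟨R, h1, le_of_sq_le_sq (h3.trans ?_) hθ.le, fun j => le_of_sq_le_sq ?_ hη.le⟩
  · rw [LinearMap.map_smul_of_tower, map_sum, Complex.smul_re, Complex.re_sum]
    simp only [← h.nsq, h.norm_ur (hx _), sum_const, card_univ, nsmul_eq_mul, smul_eq_mul]
    rw [inv_mul_le_iff₀ η2]
    have h4 := pow_le_pow_left₀ (norm_nonneg _) he 2
    refine (mul_le_mul_of_nonneg_left h4 n0).trans ?_
    rw [div_pow, ← mul_div_assoc, div_le_iff₀ (by positivity)]
    have : (Fintype.card J : ℝ) ≤ (Fintype.card J + η + 1) ^ 2 := by nlinarith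
    nlinarith [mul_le_mul_of_nonneg_left this (show 0 ≤ (θ * η) ^ 2 by positivity)]
  · refine norm_sq_le_of_le η2.le ?_
    have h5 := star_left_conjugate_le_conjugate
      (single_le_sum (f := fun j => star (e * x j) * (e * x j)) (fun j _ => p j) (mem_univ j)) R
    have h6 := smul_le_smul_of_nonneg_left h2 η2.le
    rw [mul_smul_comm, smul_mul_assoc, smul_smul, mul_inv_cancel₀ η2.ne', one_smul] at h6
    rw [star_mul _ R, ← mul_assoc, mul_assoc (star R)]
    exact h5.trans h6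

end Tr

end Vale.Agent.P082.Cut
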