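import Vale.Agent.P082.Cut1

/-! Cutting a positive functional down to a multiple of the trace. -/

namespace Vale.Agent.P082.Cut

open scoped InnerProductSpace ComplexOrder
open Vale.Agent.P104 Finset Filter Topology

variable {K : Type*} [NormedAddCommGroup K] [InnerProductSpace ℂ K] [CompleteSpace K]
  {M : VonNeumannAlgebra K}

theorem proj_val {e : Alg M} : IsStarProjection e ↔ IsStarProjection e.1 :=
  ⟨fun h => ⟨congrArg Subtype.val h.isIdempotentElem.eq,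
      congrArg Subtype.val h.isSelfAdjoint.star_eq⟩,
    fun h => ⟨Subtype.ext h.isIdempotentElem.eq, Subtype.ext h.isSelfAdjoint.star_eq⟩⟩

open Classical in
theorem bis_lin {g : Alg M} (hg : IsStarProjection g) (q : Alg M →ₗ[ℝ] ℝ) (B C : ℝ)
    (hB : ∀ h, 0 ≤ h → h ≤ g → q h ≤ B)
    (hC : ∀ E, IsStarProjection E → g * E = E → q E ≤ C) :
    ∀ h, 0 ≤ h → h ≤ g → q h ≤ C := by
  intro h h0 h1
  have := bis_principle (M := M) (proj_val.1 hg)
    (fun x => if hx : x ∈ M then q ⟨x, hx⟩ else 0) B C (fun x hx x0 x1 => by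
      simp only [dif_pos hx]
      exact hB _ x0 x1)
    (fun x hx _ _ E hE _ _ => by
      have hm : (2 : ℂ) • x - E ∈ M := sub_mem (vn_smul_mem _ hx) hE
      simp only [dif_pos hx, dif_pos hE, dif_pos hm]
      have e : (⟨(2 : ℂ) • x - E, hm⟩ : Alg M) = (2 : ℝ) • (⟨x, hx⟩ : Alg M) - ⟨E, hE⟩ := by
        apply Subtype.ext
        change (2 : ℂ) • x - E = (2 : ℝ) • x - E
        rw [two_smul, two_smul]
      rw [e, map_sub, map_smul, smul_eq_mul]
      linarith)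
    (fun E hE E1 E2 => by
      simp only [dif_pos hE]
      exact hC _ (proj_val.2 E1) (Subtype.ext E2)) h.1 h.2 h0 h1
  simpa only [dif_pos (show h.1 ∈ M from h.2)] using this

theorem scale_le {A : Type*} [CStarAlgebra A] [PartialOrder A] [StarOrderedRing A] {g : A}
    (hg : IsStarProjection g) (q : A →ₗ[ℝ] ℝ) {C : ℝ} (hq : ∀ h, 0 ≤ h → h ≤ g → q h ≤ C)
    (w : A) (hw : w * g = w) : q (star w * w) ≤ C * ‖w‖ ^ 2 := by
  rcases eq_or_ne w 0 with rfl | h0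
  · simp
  have p : 0 < ‖w‖ ^ 2 := by positivity
  have h1 := conj_le_smul (star_mul_self_le_norm_sq w) g
  rw [← mul_assoc, ← star_mul, hw, mul_assoc, hw, hg.isSelfAdjoint.star_eq,
    hg.isIdempotentElem.eq] at h1
  have := hq ((‖w‖ ^ 2)⁻¹ • (star w * w)) (smul_nonneg (by positivity) (star_mul_self_nonneg w))
    (by
      have := smul_le_smul_of_nonneg_left h1 (inv_nonneg.2 p.le)
      rwa [smul_smul, inv_mul_cancel₀ p.ne', one_smul] at this)
  rw [map_smul, smul_eq_mul, inv_mul_le_iff₀ p] at this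
  linarith

theorem chain_sup (c : Set (Alg M)) (hne : c.Nonempty) (hP : ∀ e ∈ c, IsStarProjection e)
    (hc : IsChain (· ≤ ·) c) : ∃ (l : Filter (Alg M)) (w : Alg M), l.NeBot ∧ (∀ᶠ v in l, v ∈ c) ∧
      IsStarProjection w ∧ (∀ a ∈ c, a ≤ w) ∧ ∀ ξ, Tendsto (fun v : Alg M => v.1 ξ) l (𝓝 (w.1 ξ)) := by
  have hle : ∀ a ∈ c, ∀ b ∈ c, a ≤ b → b.1 * star a.1 * a.1 = a.1 := fun a ha b hb h => by
    have := congrArg Subtype.val (((hP a ha).le_iff_mul_eq_right (hP b hb)).1 h)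
    rw [(proj_val.1 (hP a ha)).isSelfAdjoint.star_eq, mul_assoc,
      (proj_val.1 (hP a ha)).isIdempotentElem.eq]
    exact this
  obtain ⟨l, w, hl, h1, h2, h3, h4, h5⟩ := chain_limit (Subtype.val '' c) (hne.image _)
    (by rintro _ ⟨a, ha, rfl⟩; exact hle a ha a ha le_rfl) (by
      rintro _ ⟨a, ha, rfl⟩ _ ⟨b, hb, rfl⟩
      exact (hc.total ha hb).imp (hle a ha b hb) (hle b hb a ha))
  have hwM : w ∈ M := mem_of_strong_limit (v := fun v => v)
    (h1.mono (by rintro _ ⟨a, -, rfl⟩; exact a.2)) h3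
  have hsa : star w = w := by
    ext ξ
    refine tendsto_nhds_unique (h4 ξ) ((h3 ξ).congr' (h1.mono ?_))
    rintro _ ⟨a, ha, rfl⟩
    simp only [(proj_val.1 (hP a ha)).isSelfAdjoint.star_eq]
  obtain ⟨a₀, ha₀⟩ := hne
  classical
  have hr : ∀ᶠ v in l, (if h : v ∈ M then (⟨v, h⟩ : Alg M) else a₀) ∈ c ∧
      (if h : v ∈ M then (⟨v, h⟩ : Alg M) else a₀).1 = v := h1.mono (by
    rintro _ ⟨a, ha, rfl⟩
    rw [dif_pos (show a.1 ∈ M from a.2)]
    exact ⟨ha, rfl⟩)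
  have hev : ∀ a ∈ c, (⟨w, hwM⟩ : Alg M) * a = a := fun a ha => by
    have := h5 a.1 ⟨a, ha, rfl⟩
    rw [(proj_val.1 (hP a ha)).isSelfAdjoint.star_eq, mul_assoc,
      (proj_val.1 (hP a ha)).isIdempotentElem.eq] at this
    exact Subtype.ext this
  have hidem : w * w = w := by
    ext ξ
    have t1 : Tendsto (fun v : K →L[ℂ] K => w (v ξ)) l (𝓝 (w (w ξ))) :=
      (w.continuous.tendsto _).comp (h3 ξ)
    refine tendsto_nhds_unique t1 ((h3 ξ).congr' (h1.mono ?_))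
    rintro _ ⟨a, ha, rfl⟩
    exact (DFunLike.congr_fun (congrArg Subtype.val (hev a ha)) ξ).symm
  have hw : IsStarProjection (⟨w, hwM⟩ : Alg M) := proj_val.2 ⟨hidem, hsa⟩
  refine ⟨l.map fun v => if h : v ∈ M then (⟨v, h⟩ : Alg M) else a₀, ⟨w, hwM⟩, inferInstance,
    hr.mono fun v hv => hv.1, hw, fun a ha => (hP a ha).le_of_mul_eq_right hw (hev a ha),
    fun ξ => ?_⟩
  rw [tendsto_map'_iff]
  exact (h3 ξ).congr' (hr.mono fun v hv => by simp only [Function.comp, hv.2])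

/-- A maximal projection on which `f` dominates `t`. -/
theorem exists_max (f t : Alg M →ₗ[ℝ] ℝ) (hf : ∀ y, 0 ≤ y → 0 ≤ f y)
    (ht : ∀ (l : Filter (Alg M)) (w : Alg M),
      (∀ ξ, Tendsto (fun v : Alg M => v.1 ξ) l (𝓝 (w.1 ξ))) → Tendsto t l (𝓝 (t w)))
    (e₀ : Alg M) (he : IsStarProjection e₀) :
    ∃ m, IsStarProjection m ∧ f e₀ - t e₀ ≤ f m - t m ∧
      ∀ E, IsStarProjection E → (1 - m) * E = E → f E - t E ≤ 0 := by
  obtain ⟨m, -, hm⟩ := zorn_le_nonempty₀ {e | IsStarProjection e ∧ f e₀ - t e₀ ≤ f e - t e}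
    (fun c hc hch y hy => by
      obtain ⟨l, w, hl, h1, h2, h3, h4⟩ := chain_sup c ⟨y, hy⟩ (fun e he => (hc he).1) hch
      refine ⟨w, ⟨h2, ?_⟩, h3⟩
      refine ge_of_tendsto ((ht l w h4).const_sub (f w)) (h1.mono fun v hv => ?_)
      have := hf _ (sub_nonneg.2 (h3 v hv))
      rw [map_sub] at this
      linarith [(hc hv).2]) e₀ ⟨he, le_rfl⟩
  refine ⟨m, hm.prop.1, hm.prop.2, fun E hE h => ?_⟩
  by_contra hlt
  have h0 : m * E = 0 := by
    rw [sub_mul, one_mul, sub_eq_self] at h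
    exact h
  have h1 : IsStarProjection (m + E) := hm.prop.1.add hE h0
  have h2 := hm.le_of_ge (y := m + E) ⟨h1, by
    rw [map_add, map_add]; linarith [hm.prop.2]⟩ (le_add_of_nonneg_right hE.nonneg)
  have h3 : E = 0 := le_antisymm (by simpa using h2) hE.nonneg
  rw [h3] at hlt
  simp at hlt

theorem exists_cut (f t : Alg M →ₗ[ℝ] ℝ) (hf : ∀ y, 0 ≤ y → 0 ≤ f y) (ht0 : ∀ y, 0 ≤ y → 0 ≤ t y)
    (ht : ∀ (l : Filter (Alg M)) (w : Alg M),
      (∀ ξ, Tendsto (fun v : Alg M => v.1 ξ) l (𝓝 (w.1 ξ))) → Tendsto t l (𝓝 (t w)))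
    {ε : ℝ} (hε : 0 < ε) : ∃ L₁, 0 ≤ L₁ ∧ ∀ δ, 0 < δ → ∃ (e : Alg M) (L₀ : ℝ),
      IsStarProjection e ∧ 0 ≤ L₀ ∧ t (1 - e) ≤ δ ∧ ∀ w, w * e = w →
        f (star w * w) ≤ L₀ * t (star w * w) ∧
        f (star w * w) ≤ L₁ * t (star w * w) + ε * ‖w‖ ^ 2 := by
  have hf1 : ∀ h, h ≤ 1 → f h ≤ f 1 := fun h h1 => by
    have := hf _ (sub_nonneg.2 h1)
    rw [map_sub] at this
    linarith
  set S : Set ℝ := {r | ∀ L, 0 ≤ L → ∃ e, IsStarProjection e ∧ r ≤ f e - L * t e} with hS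
  have S0 : (0 : ℝ) ∈ S := fun L _ => ⟨0, .zero _, by simp⟩
  have Sb : BddAbove S := ⟨f 1, fun r hr => by
    obtain ⟨e, he, h⟩ := hr 0 le_rfl
    linarith [hf1 e he.le_one]⟩
  have s0 : 0 ≤ sSup S := le_csSup Sb S0
  have n1 : sSup S + ε / 2 ∉ S := fun h => by linarith [le_csSup Sb h]
  obtain ⟨r, hr, hr'⟩ := exists_lt_of_lt_csSup ⟨0, S0⟩ (show sSup S - ε / 2 < sSup S by linarith)
  simp only [hS, Set.mem_ofPred_eq, not_forall, not_exists, not_and, not_le] at n1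
  obtain ⟨L₁, hL, h1⟩ := n1
  refine ⟨L₁, hL, fun δ hδ => ?_⟩
  have f1 : 0 ≤ f 1 := hf 1 zero_le_one
  have L0 : 0 ≤ (f 1 + ε) / δ := by positivity
  obtain ⟨e₀, he₀, h2⟩ := hr (L₁ + (f 1 + ε) / δ) (by positivity)
  obtain ⟨m, hm, h3, h4⟩ := exists_max f ((L₁ + (f 1 + ε) / δ) • t) hf
    (fun l w hw => (ht l w hw).const_mul _) e₀ he₀
  simp only [LinearMap.smul_apply, smul_eq_mul] at h3 h4
  have tm := ht0 m hm.nonneg
  have hB : ∀ L : ℝ, 0 ≤ L → ∀ h, 0 ≤ h → h ≤ 1 - m → (f - L • t) h ≤ f 1 :=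
      fun L hL h h0 h1 => by
    have := hf1 h (h1.trans hm.one_sub.le_one)
    have := mul_nonneg hL (ht0 h h0)
    simp only [LinearMap.sub_apply, LinearMap.smul_apply, smul_eq_mul]
    linarith
  refine ⟨1 - m, L₁ + (f 1 + ε) / δ, hm.one_sub, by positivity, ?_, fun w hw => ⟨?_, ?_⟩⟩
  · rw [sub_sub_cancel]
    have h5 : (f 1 + ε) / δ * t m ≤ f 1 + ε := by
      nlinarith [hf1 m hm.le_one, mul_nonneg hL tm]
    rw [div_mul_eq_mul_div, div_le_iff₀ hδ] at h5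
    exact le_of_mul_le_mul_left h5 (by positivity)
  · have := scale_le hm.one_sub _ (bis_lin hm.one_sub (f - (L₁ + (f 1 + ε) / δ) • t) _ 0
      (hB _ (by positivity)) h4) w hw
    simp only [LinearMap.sub_apply, LinearMap.smul_apply, smul_eq_mul] at this
    linarith
  · have := scale_le hm.one_sub _ (bis_lin hm.one_sub (f - L₁ • t) _ ε (hB _ hL)
      fun E hE h => ?_) w hw
    · simp only [LinearMap.sub_apply, LinearMap.smul_apply, smul_eq_mul] at this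
      linarith
    · have h0 : m * E = 0 := by
        rw [sub_mul, one_mul, sub_eq_self] at h
        exact h
      have h6 := h1 _ (hm.add hE h0)
      rw [map_add, map_add] at h6
      simp only [LinearMap.sub_apply, LinearMap.smul_apply, smul_eq_mul]
      nlinarith [mul_nonneg L0 tm]

end Vale.Agent.P082.Cut
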