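import Mathlib

/-! Bounded Hochschild cochains. -/

namespace Vale.Agent.P082

/-- The Hochschild coboundary of a `k`-cochain `f`, evaluated at `(a 0, ..., a k)`. -/
def hochD {A : Type*} [Ring A] {k : ℕ} (f : (Fin k → A) → A) (a : Fin (k + 1) → A) : A :=
  a 0 * f (fun i => a i.succ) +
    ∑ j : Fin k, (-1) ^ ((j : ℕ) + 1) * f (Fin.contractNth j.castSucc (· * ·) a) +
    (-1) ^ (k + 1) * (f (fun i => a i.castSucc) * a (Fin.last k))

end Vale.Agent.P082
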