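import Vale.Agent.P082.WVal

/-! The final estimate for an approximately semicircular element. -/

namespace Vale.Agent.P082

open scoped InnerProductSpace ComplexConjugate BigOperators
open Vale.Agent.P104 Finset Polynomial

variable {A E : Type*} [CStarAlgebra A] [PartialOrder A] [StarOrderedRing A]
  [NormedAddCommGroup E] [InnerProductSpace ℂ E] {τ : A →ₗ[ℂ] ℂ} {Λ : A →ₗ[ℂ] E}

theorem norm_sq_sum_le (N : ℕ) (c : ℕ → ℝ) (e : ℕ → E) {M δ : ℝ} (hδ : 0 ≤ δ)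
    (hc : ∑ n ∈ range N, c n ^ 2 ≤ 1) (h1 : ∀ n < N, ‖e n‖ ≤ M)
    (h2 : ∀ n < N, ∀ n' < N, n ≠ n' → ‖⟪e n, e n'⟫_ℂ‖ ≤ δ) :
    ‖∑ n ∈ range N, (c n : ℂ) • e n‖ ^ 2 ≤ M ^ 2 + (∑ n ∈ range N, |c n|) ^ 2 * δ := by
  rw [← inner_self_eq_norm_sq (𝕜 := ℂ)]
  refine (RCLike.re_le_norm _).trans ?_
  rw [sum_inner]
  calc _ ≤ ∑ n ∈ range N, (c n ^ 2 * M ^ 2 + ∑ n' ∈ range N, |c n| * |c n'| * δ) := by
        refine norm_sum_le_of_le _ fun n hn => ?_
        rw [inner_sum]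
        have : c n ^ 2 * M ^ 2 = ∑ n' ∈ range N, if n = n' then c n ^ 2 * M ^ 2 else 0 := by
          rw [sum_ite_eq, if_pos hn]
        rw [this, ← sum_add_distrib]
        refine norm_sum_le_of_le _ fun n' hn' => ?_
        rw [inner_smul_left, inner_smul_right, norm_mul, norm_mul, Complex.conj_ofReal,
          Complex.norm_real, Complex.norm_real, Real.norm_eq_abs, Real.norm_eq_abs, ← mul_assoc]
        split_ifs with c
        · subst c
          refine le_add_of_le_of_nonneg ?_ (by positivity)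
          rw [abs_mul_abs_self, ← sq, inner_self_eq_norm_sq_to_K, norm_pow]
          gcongr
          simpa using h1 n (mem_range.1 hn)
        · rw [zero_add]
          exact mul_le_mul_of_nonneg_left (h2 n (mem_range.1 hn) n' (mem_range.1 hn') c)
            (by positivity)
    _ ≤ _ := by
        rw [sum_add_distrib, ← sum_mul, sq (∑ n ∈ range N, |c n|), sum_mul_sum]
        refine add_le_add (mul_le_of_le_one_left (sq_nonneg _) hc) (le_of_eq ?_)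
        simp only [sum_mul]

/-- Chebyshev polynomials of `s`, cut by `z`. -/
noncomputable def chP (s z : A) (n : ℕ) : A := aeval s (Chebyshev.S ℝ n) * z

omit [PartialOrder A] [StarOrderedRing A] in
theorem chP_succ (s z : A) (n : ℕ) : chP s z (n + 2) = s * chP s z (n + 1) - chP s z n := by
  have := Chebyshev.S_add_two ℝ n
  simp only [chP]
  push_cast
  rw [this, map_sub, map_mul, aeval_X, sub_mul, mul_assoc]

omit [PartialOrder A] [StarOrderedRing A] in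
theorem norm_pow_chP {s z : A} {M : ℝ} (hM : 0 ≤ M) (p : ℕ) : ∀ n N, n + p ≤ N →
    (∀ n ≤ N, ‖Λ (chP s z n)‖ ≤ M) → ‖Λ (s ^ p * chP s z n)‖ ≤ 2 ^ p * M := by
  induction p with
  | zero => intro n N h h'; simpa using h' n h
  | succ p ih =>
    intro n N h h'
    rw [pow_succ, mul_assoc, pow_succ, mul_assoc]
    cases n with
    | zero =>
      have : s * chP s z 0 = chP s z 1 := by simp [chP]
      rw [this]
      refine (ih 1 N (by omega) h').trans ?_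
      gcongr
      linarith
    | succ n =>
      rw [eq_add_of_sub_eq (chP_succ s z n).symm, mul_add, map_add]
      have h1 := ih (n + 2) N (by omega) h'
      have h2 := ih n N (by omega) h'
      exact (norm_add_le _ _).trans (by linarith)

theorem trunc_est (h : Tr τ Λ) {z s : A} (hs : IsSelfAdjoint s) {M ε : ℝ} (hM : 0 ≤ M)
    (hε : 0 ≤ ε) (f : ℝ[X]) {p : ℕ}
    (h4 : ∀ t : ℝ, (f.eval t - f.eval (max (-2) (min 2 t))) ^ 2 ≤ ε ^ 2 * (t / 2) ^ (2 * p))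
    (a4 : ‖Λ (s ^ p * z)‖ ≤ 2 ^ p * M) :
    ‖Λ (aeval s f * z - cfc (fun t => f.eval (max (-2) (min 2 t))) s * z)‖ ≤ ε * M := by
  have cf : Continuous fun t : ℝ => f.eval (max (-2) (min 2 t)) := by fun_prop
  set X := cfc (fun t => f.eval (max (-2) (min 2 t))) s with hX
  have a1 : aeval s f - X = cfc (fun t => f.eval t - f.eval (max (-2) (min 2 t))) s := by
    rw [cfc_sub _ _ s f.continuous.continuousOn cf.continuousOn, cfc_polynomial f s]
  have a2 : (aeval s f - X) ^ 2 ≤ (ε ^ 2 * (1 / 2) ^ (2 * p) : ℝ) • s ^ (2 * p) := by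
    have cf' : ContinuousOn (fun t : ℝ => f.eval t - f.eval (max (-2) (min 2 t)))
      (spectrum ℝ s) := (f.continuous.sub cf).continuousOn
    rw [a1, ← cfc_pow _ _ s cf', ← cfc_pow_id (R := ℝ) s, ← cfc_const_mul _ _ s]
    refine cfc_mono (fun t _ => (h4 t).trans (le_of_eq ?_)) (cf'.pow 2)
    ring
  have a3 : IsSelfAdjoint (aeval s f - X) := a1 ▸ cfc_predicate _ _
  have a6 := star_left_conjugate_le_conjugate a2 z
  obtain ⟨y, hy⟩ := CStarAlgebra.nonneg_iff_eq_star_mul_self.1 (sub_nonneg.2 a6)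
  have a7 := sq_nonneg ‖Λ y‖
  have a8 : star z * (aeval s f - X) ^ 2 * z =
      star ((aeval s f - X) * z) * ((aeval s f - X) * z) := by
    rw [star_mul, a3.star_eq, sq]; simp only [mul_assoc]
  have a9 : star z * s ^ (2 * p) * z = star (s ^ p * z) * (s ^ p * z) := by
    rw [star_mul, (hs.pow p).star_eq, two_mul, pow_add]; simp only [mul_assoc]
  rw [h.nsq, ← hy, a8, mul_smul_comm, smul_mul_assoc, a9, map_sub,
    LinearMap.map_smul_of_tower, Complex.sub_re, Complex.smul_re, ← h.nsq, ← h.nsq] at a7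
  rw [← sub_mul]
  refine le_of_sq_le_sq ?_ (by positivity)
  have b1 : (1 / 2 : ℝ) ^ (2 * p) * ‖Λ (s ^ p * z)‖ ^ 2 ≤ M ^ 2 := by
    rw [mul_comm 2, pow_mul, ← mul_pow]
    refine pow_le_pow_left₀ (by positivity) ?_ _
    rw [one_div, inv_pow, inv_mul_le_iff₀ (by positivity)]
    exact a4
  rw [smul_eq_mul, mul_assoc] at a7
  rw [mul_pow]
  nlinarith [mul_le_mul_of_nonneg_left b1 (sq_nonneg ε)]

theorem fin_est (h : Tr τ Λ) {z s Lκ : A} (hz : IsStarProjection z) (hc : ∀ x, z * x = x * z)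
    (hs : IsSelfAdjoint s) {B : A →ₗ[ℂ] A →ₗ⋆[ℂ] ℂ} {Kb L M δ ε : ℝ} (hK : 0 ≤ Kb) (hL : 0 ≤ L)
    (hM : 0 ≤ M) (hδ : 0 ≤ δ) (hε : 0 ≤ ε) (hB : TwoB Λ B Kb L) {N p N₀ : ℕ} {a b c : ℕ → ℝ}
    (hN : N ≤ N₀) (hp : p ≤ N₀) (h1 : ∑ n ∈ range N, c n ^ 2 ≤ 1)
    (h2 : (∑ n ∈ range N, c n • Chebyshev.S ℝ n) ^ 2 = ∑ n ∈ range N, b n • Chebyshev.S ℝ n)
    (h3 : ∀ t : ℝ, |t| ≤ 2 → |(∑ n ∈ range N, a n • Chebyshev.S ℝ (n + 1 : ℕ)).eval t| ≤ 100)
    (h4 : ∀ t : ℝ, ((∑ n ∈ range N, a n • Chebyshev.S ℝ (n + 1 : ℕ)).eval t -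
      (∑ n ∈ range N, a n • Chebyshev.S ℝ (n + 1 : ℕ)).eval (max (-2) (min 2 t))) ^ 2 ≤
        ε ^ 2 * (t / 2) ^ (2 * p))
    (Δ : ℕ → ℂ) (k1 : ∀ n ≤ N₀, ‖Λ (chP s z n)‖ ≤ M) (k2 : ∀ n < N, ‖Λ (Lκ * chP s z n)‖ ≤ M)
    (k3 : ∀ n < N, ∀ n' < N, n ≠ n' → ‖⟪Λ (chP s z n), Λ (chP s z n')⟫_ℂ‖ ≤ δ)
    (k4 : ∀ n < N, ∀ n' < N, n ≠ n' → ‖⟪Λ (Lκ * chP s z n), Λ (Lκ * chP s z n')⟫_ℂ‖ ≤ δ)
    (k5 : ∀ n < N, ∀ n' < N,
      ‖B (chP s z (n + 1)) (Lκ * chP s z n') - if n = n' then Δ n else 0‖ ≤ δ) :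
    ‖∑ n ∈ range N, ((a n * b n : ℝ) : ℂ) * Δ n‖ ≤
      Kb * 100 * (M ^ 2 + (∑ n ∈ range N, |c n|) ^ 2 * δ) +
        L * (ε * M) * ((∑ n ∈ range N, |b n|) * M) +
          (∑ n ∈ range N, |a n|) * (∑ n ∈ range N, |b n|) * δ := by
  set f := ∑ n ∈ range N, a n • Chebyshev.S ℝ (n + 1 : ℕ) with hf
  have ev : ∀ (c : ℕ → ℝ) (k : ℕ → ℕ), aeval s (∑ n ∈ range N, c n • Chebyshev.S ℝ (k n)) * z =
      ∑ n ∈ range N, (c n : ℂ) • chP s z (k n) := fun c k => by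
    simp only [map_sum, map_smul, sum_mul, smul_mul_assoc, chP, Complex.coe_smul]
  set X := cfc (fun t => f.eval (max (-2) (min 2 t))) s with hX
  have hX1 : ‖X * z‖ ≤ 100 := (norm_mul_le _ _).trans
    ((mul_le_of_le_one_right (norm_nonneg _) hz.norm_le).trans (norm_cfc_le (by norm_num)
      fun t _ => h3 _ (abs_le.2 ⟨le_max_left _ _, max_le (by norm_num) (min_le_left _ _)⟩)))
  set Y := ∑ n ∈ range N, (b n : ℂ) • (Lκ * chP s z n) with hY
  have hY1 : Y = (∑ n ∈ range N, (c n : ℂ) • (Lκ * chP s z n)) *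
      ∑ n ∈ range N, (c n : ℂ) • chP s z n := by
    simp only [hY, ← mul_smul_comm, ← mul_sum]
    rw [← ev b fun n => n, ← ev c fun n => n, ← h2, map_pow, mul_assoc, mul_assoc,
      ← mul_assoc z, hc, mul_assoc _ z, hz.isIdempotentElem.eq, sq, mul_assoc]
  have hY2 : ‖Λ Y‖ ≤ (∑ n ∈ range N, |b n|) * M := by
    rw [hY, map_sum, sum_mul]
    refine norm_sum_le_of_le _ fun n hn => ?_
    rw [map_smul, norm_smul, Complex.norm_real]
    exact mul_le_mul_of_nonneg_left (k2 n (mem_range.1 hn)) (abs_nonneg _)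
  have e1 : ‖B (X * z) Y‖ ≤ Kb * 100 * (M ^ 2 + (∑ n ∈ range N, |c n|) ^ 2 * δ) := by
    rw [hY1]
    refine (hB.one _ _ _).trans ?_
    have a1 := norm_sq_sum_le N c (fun n => Λ (Lκ * chP s z n)) hδ h1 k2 k4
    have a2 := norm_sq_sum_le N c (fun n => Λ (chP s z n)) hδ h1 (fun n hn => k1 n (by omega)) k3
    simp only [← map_smul, ← map_sum] at a1 a2
    rw [mul_assoc]
    refine mul_le_mul (by gcongr) ?_ (by positivity) (by positivity)
    nlinarith [sq_nonneg (‖Λ (∑ n ∈ range N, (c n : ℂ) • (Lκ * chP s z n))‖ -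
      ‖Λ (∑ n ∈ range N, (c n : ℂ) • chP s z n)‖)]
  have e2 : ‖Λ (aeval s f * z - X * z)‖ ≤ ε * M := by
    exact trunc_est h hs hM hε f h4 (by simpa [chP] using norm_pow_chP hM p 0 N₀ (by omega) k1)
  have e3 : ‖B (aeval s f * z) Y - ∑ n ∈ range N, ((a n * b n : ℝ) : ℂ) * Δ n‖ ≤
      (∑ n ∈ range N, |a n|) * (∑ n ∈ range N, |b n|) * δ := by
    rw [hf, ev a fun n => n + 1, map_sum B, LinearMap.sum_apply, ← sum_sub_distrib, sum_mul, sum_mul]
    refine norm_sum_le_of_le _ fun n hn => ?_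
    have : ((a n * b n : ℝ) : ℂ) * Δ n = ∑ n' ∈ range N,
        (a n : ℂ) * ((b n' : ℂ) * if n = n' then Δ n else 0) := by
      simp [hn, mul_assoc]
    rw [this, hY, map_sum, ← sum_sub_distrib, mul_sum, sum_mul]
    refine norm_sum_le_of_le _ fun n' hn' => ?_
    rw [map_smul B, LinearMap.smul_apply, map_smulₛₗ, Complex.conj_ofReal, smul_eq_mul, smul_eq_mul,
      ← mul_sub, ← mul_sub, norm_mul, norm_mul, Complex.norm_real, Complex.norm_real, mul_assoc]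
    gcongr
    · exact le_rfl
    · exact le_rfl
    · exact k5 n (mem_range.1 hn) n' (mem_range.1 hn')
  have e4 : ‖B (aeval s f * z - X * z) Y‖ ≤ L * (ε * M) * ((∑ n ∈ range N, |b n|) * M) :=
    (hB.two _ _).trans (by gcongr)
  rw [map_sub, LinearMap.sub_apply] at e4
  have := norm_add₃_le (a := B (X * z) Y) (b := B (aeval s f * z) Y - B (X * z) Y)
    (c := -(B (aeval s f * z) Y - ∑ n ∈ range N, ((a n * b n : ℝ) : ℂ) * Δ n))
  rw [norm_neg, add_sub_cancel, neg_sub, add_sub_cancel] at this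
  linarith

end Vale.Agent.P082
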