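import Vale.Agent.P082.Pair

/-! Designs and mutually flat frames. -/

namespace Vale.Agent.P082

open scoped InnerProductSpace ComplexConjugate
open Vale.Agent.P104 Finset

universe u v

theorem design : DesignStmt := by
  intro I _ _ _
  obtain ⟨H, H1, H2, H3⟩ := exists_fourier I
  have hP := phase_rt (I ⊕ I) 4
  set z := fun (θ : I ⊕ I → Fin (4 + 1)) (i : I ⊕ I) => rt 4 ^ (θ i : ℕ)
  have n : ∀ θ i, conj (z θ i) * z θ i = 1 := fun θ i => conj_mul_self_of_norm (hP.norm _ _)
  refine ⟨_, inferInstance, fun θ a b => z θ (.inl a) * z θ (.inr b) * H a b, hP.ne,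
    fun θ a b => ?_, fun θ a b => ?_, fun a b => ?_, fun a b c d => ?_, fun a b c d => ?_⟩
  · have : ∀ c, conj (z θ (.inl c) * z θ (.inr a) * H c a) * (z θ (.inl c) * z θ (.inr b) * H c b) =
        conj (z θ (.inr a)) * z θ (.inr b) * (conj (H a c) * H b c) := fun c => by
      rw [H3 a, H3 b, map_mul, map_mul]
      linear_combination (conj (z θ (.inr a)) * z θ (.inr b) * (conj (H c a) * H c b)) * n θ (.inl c)
    simp only [this, ← mul_sum, H2]
    split_ifs with e
    · rw [e, n, one_mul]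
    · exact mul_zero _
  · have : ∀ c, z θ (.inl a) * z θ (.inr c) * H a c * conj (z θ (.inl b) * z θ (.inr c) * H b c) =
        conj (z θ (.inl b)) * z θ (.inl a) * (conj (H b c) * H a c) := fun c => by
      rw [map_mul, map_mul]
      linear_combination (conj (z θ (.inl b)) * z θ (.inl a) * (conj (H b c) * H a c)) * n θ (.inr c)
    simp only [this, ← mul_sum, H2, eq_comm (a := b)]
    split_ifs with e
    · rw [e, n, one_mul]
    · exact mul_zero _
  · have := hP.orth 0 {.inl a, .inr b} (by simp) (by simp)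
    rw [if_neg (by simp [eq_comm])] at this
    rw [← sum_mul]
    simp only [Multiset.map_zero, Multiset.prod_zero, map_one, one_mul, Multiset.insert_eq_cons,
      Multiset.map_cons, Multiset.map_singleton, Multiset.prod_cons, Multiset.prod_singleton] at this
    rw [this, zero_mul]
  · have := hP.orth 0 {.inl a, .inr b, .inl c, .inr d} (by simp) (by simp)
    rw [if_neg (by simp [eq_comm])] at this
    simp only [Multiset.map_zero, Multiset.prod_zero, map_one, one_mul, Multiset.insert_eq_cons,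
      Multiset.map_cons, Multiset.map_singleton, Multiset.prod_cons, Multiset.prod_singleton] at this
    refine Eq.trans (sum_congr rfl fun θ _ => ?_) ((sum_mul _ _ (H a b * H c d)).symm.trans
      (by rw [this, zero_mul]))
    ring
  · have := hP.orth {.inl c, .inr d} {.inl a, .inr b} (by simp) (by simp)
    simp only [Multiset.insert_eq_cons, Multiset.map_cons, Multiset.map_singleton,
      Multiset.prod_cons, Multiset.prod_singleton] at this
    refine Eq.trans (sum_congr rfl fun θ _ => ?_) ((sum_mul _ _ (conj (H c d) * H a b)).symm.trans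
      ((congrArg (· * _) this).trans ?_))
    · simp only [map_mul]
      ring
    · by_cases e : a = c ∧ b = d
      · rw [if_pos e, e.1, e.2, if_pos rfl, H1, div_eq_mul_inv]
      · rw [if_neg e, if_neg, zero_mul]
        intro h
        have h1 : Sum.inl a ∈ (Sum.inl c ::ₘ {Sum.inr d} : Multiset (I ⊕ I)) := by simp [h]
        have h2 : Sum.inr b ∈ (Sum.inl c ::ₘ {Sum.inr d} : Multiset (I ⊕ I)) := by simp [h]
        exact e ⟨by simpa using h1, by simpa using h2⟩

variable {A E : Type*} [CStarAlgebra A] [NormedAddCommGroup E] [InnerProductSpace ℂ E]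
  {τ : A →ₗ[ℂ] ℂ} {Λ : A →ₗ[ℂ] E} [PartialOrder A] [StarOrderedRing A]

theorem flat_explicit (h : Tr τ Λ) {e : A} (hcen : ∀ x, e * x = x * e)
    (hs : ∀ x, τ (x * e) = τ x) {ι : Type*} [Fintype ι] (F : ι → A) {Z G : A}
    (hZ : Z = ∑ l, F l * e * star (F l)) (hG : G = ∑ l, star (F l) * e * F l)
    {I : Type} [Fintype I] [DecidableEq I] [Nonempty I] {v : I → A} {g : A} (hv : Frame v g e) :
    ∃ f : I → A, Frame f g e ∧ ∑ a, ∑ x,
      ‖Λ (star (f x) * (∑ l, F l * (v a * star (v a)) * star (F l)) * f x)‖ ^ 2 ≤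
        (‖G‖ * (τ Z).re + 1 + 2 * (‖Z‖ * (τ Z).re)) / Fintype.card I := by
  set Y : I → A := fun a => ∑ l, F l * (v a * star (v a)) * star (F l) with hY
  have n0 : (0 : ℝ) < Fintype.card I := by exact_mod_cast Fintype.card_pos
  have P := hv.part
  have se : star e = e := by simpa using P.sa none
  have Y0 : ∀ a, 0 ≤ Y a := fun a => sum_nonneg fun l _ =>
    star_right_conjugate_nonneg (mul_star_self_nonneg _) _
  have YZ : ∑ a, Y a = Z := by
    rw [sum_comm]
    simp only [← sum_mul, ← mul_sum, hv.sum, hZ]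
  have Y1 : ∑ a, ∑ i, ∑ j, ‖Λ (star (v i) * Y a * v j)‖ ^ 2 ≤ ‖Z‖ * (τ Z).re := by
    conv_rhs => enter [2]; rw [← YZ, map_sum, Complex.re_sum]
    rw [mul_sum]
    refine sum_le_sum fun a _ => le_trans (le_of_eq ?_) (h.mul_le (Y0 a)
      ((single_le_sum (fun a _ => Y0 a) (mem_univ a)).trans (YZ ▸ le_norm_smul
        (sum_nonneg fun a _ => Y0 a).isSelfAdjoint.star_eq)))
    have : ∀ i j, τ (star (star (v i) * Y a * v j) * (star (v i) * Y a * v j)) =
        τ (Y a * (v i * star (v i)) * Y a * (v j * star (v j))) := fun i j => by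
      rw [star_mul, star_mul, star_star, (Y0 a).isSelfAdjoint.star_eq, mul_assoc, h.tr]
      simp only [mul_assoc]
    simp only [h.nsq, this, ← Complex.re_sum, ← map_sum, ← mul_sum, ← sum_mul, hv.sum]
    rw [hs, ← hcen, mul_assoc, hcen, hs]
  obtain ⟨J, _, _, u, hu, hJ⟩ := h.dixmier hv.sa
    (fun a (b : I × ι) => star (v b.1) * F b.2 * v a) (fun a b => by
      rw [Commute, SemiconjBy, mul_assoc, hv.fix, ← mul_assoc, ← mul_assoc, hv.fix'])
    (C := ‖G‖) fun a => by
      have e1 : ∑ b : I × ι, star (star (v b.1) * F b.2 * v a) * (star (v b.1) * F b.2 * v a) =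
          star (v a) * G * v a := by
        rw [Fintype.sum_prod_type_right, hG, ← hv.sum]
        simp only [star_mul, star_star, mul_sum, sum_mul, mul_assoc]
      rw [e1]
      refine (conj_le_smul (le_norm_smul (by simp [hG, star_sum, se, mul_assoc])) _).trans
        (smul_le_smul_of_nonneg_left ?_ (norm_nonneg _))
      rw [hv.orth, if_pos rfl]
      exact IsStarProjection.le_one ⟨hv.idem, hv.sa⟩
  have e2 : ∀ a, ∑ b : I × ι, star (v b.1) * F b.2 * v a * star (star (v b.1) * F b.2 * v a) =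
      ∑ i, star (v i) * Y a * v i := fun a => by
    rw [Fintype.sum_prod_type]
    simp only [hY, star_mul, star_star, mul_sum, sum_mul, mul_assoc]
  have e3 : ∑ a, (τ (∑ i, star (v i) * Y a * v i)).re = (τ Z).re := by
    rw [← YZ, map_sum, Complex.re_sum]
    refine sum_congr rfl fun a _ => ?_
    rw [← hs (Y a), ← hv.sum, mul_sum, map_sum, map_sum]
    exact congrArg _ (sum_congr rfl fun i _ => by rw [mul_assoc, h.tr, mul_assoc])
  simp only [e2, e3] at hJ
  obtain ⟨σ, hσ⟩ := greedy (fun i j => WithLp.toLp 2 fun a =>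
    Λ (star (u j) * (star (v i) * Y a * v i) * u j))
    (fun i => ∑ a, ‖Λ (star (v i) * Y a * v i)‖ ^ 2) (fun i j => by
      simp only [PiLp.norm_sq_eq_of_L2, h.norm_ur (hu j).1, h.norm_ul (Unitary.star_mem (hu j).1),
        le_refl]) univ 0
  have e4 : ∀ a, Λ (avg u (∑ i, star (v i) * Y a * v i)) = ∑ i, (Fintype.card J : ℂ)⁻¹ •
      ∑ j, Λ (star (u j) * (star (v i) * Y a * v i) * u j) := fun a => by
    simp only [avg, mul_sum, sum_mul, map_smul, map_sum, ← smul_sum]
    rw [sum_comm]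
  simp only [zero_add, PiLp.norm_sq_eq_of_L2, WithLp.ofLp_sum, Finset.sum_apply, PiLp.smul_apply,
    ← e4] at hσ
  have Y2 : ∑ i, ∑ a, ‖Λ (star (v i) * Y a * v i)‖ ^ 2 ≤
      ∑ a, ∑ i, ∑ j, ‖Λ (star (v i) * Y a * v j)‖ ^ 2 := by
    rw [sum_comm]
    exact sum_le_sum fun a _ => sum_le_sum fun i _ => single_le_sum
      (f := fun j => ‖Λ (star (v i) * Y a * v j)‖ ^ 2) (fun _ _ => sq_nonneg _) (mem_univ i)
  obtain ⟨H, H1, H2, H3⟩ := exists_fourier I
  have hw := hv.twist fun i => hu (σ i)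
  set w : I → A := fun i => v i * u (σ i) with hw'
  have hP := phase_rt I 2
  set z := fun (θ : I → Fin (2 + 1)) (i : I) => rt 2 ^ (θ i : ℕ)
  have H4 : ∀ x i, ‖H x i‖ ^ 2 = (Fintype.card I : ℝ)⁻¹ := fun x i => by
    rw [sq]
    simpa using congrArg norm (H1 x i)
  have w1 : ∀ a i j, ‖Λ (star (w i) * Y a * w j)‖ = ‖Λ (star (v i) * Y a * v j)‖ := fun a i j => by
    rw [hw', star_mul, ← mul_assoc, h.norm_ur (hu _).1, mul_assoc, mul_assoc,
      h.norm_ul (Unitary.star_mem (hu _).1), mul_assoc]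
  have w2 : ∀ a i, star (w i) * Y a * w i =
      star (u (σ i)) * (star (v i) * Y a * v i) * u (σ i) := fun a i => by
    simp only [hw', star_mul, mul_assoc]
  obtain ⟨θ, -, hθ⟩ := exists_le_of_sum_le (s := univ) univ_nonempty
    (f := fun θ => ∑ a, ∑ x, ‖∑ i, ∑ j, (conj (z θ i) * z θ j) •
      (conj (H x i) * H x j) • Λ (star (w i) * Y a * w j)‖ ^ 2)
    (g := fun _ => (‖G‖ * (τ Z).re + 1 + 2 * (‖Z‖ * (τ Z).re)) / Fintype.card I) (by
      rw [sum_comm, sum_congr rfl fun _ _ => sum_comm, sum_const, card_univ, nsmul_eq_mul]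
      refine (sum_le_sum fun a _ => sum_le_sum fun x _ => hP.sum_quad le_rfl _).trans ?_
      simp only [H1, ← smul_sum, norm_smul, norm_mul, mul_pow, Complex.norm_conj, H4, w1, w2,
        ← mul_sum, norm_inv, Complex.norm_natCast, sum_const, card_univ, nsmul_eq_mul,
        sum_add_distrib]
      gcongr
      rw [le_div_iff₀ n0]
      field_simp
      linarith)
  refine ⟨_, hw.mix (H := fun x i => z θ i * H x i) (fun x y => ?_) (fun i j => ?_),
    le_of_eq_of_le ?_ hθ⟩
  · simp only [map_mul, mul_mul_mul_comm (conj (z θ _)), conj_mul_self_of_norm (hP.norm _ _),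
      one_mul, H2]
  · simp only [map_mul, mul_mul_mul_comm (conj (z θ _)), ← mul_sum, H3 _ i, H3 _ j, H2]
    split_ifs with c
    · rw [c, conj_mul_self_of_norm (hP.norm _ _), one_mul]
    · exact mul_zero _
  · refine sum_congr rfl fun a _ => sum_congr rfl fun x _ => ?_
    change ‖Λ (_ * Y a * _)‖ ^ 2 = _
    simp only [star_sum, star_smul, sum_mul, mul_sum, smul_mul_assoc, mul_smul_comm, map_sum,
      map_smul, smul_smul, Complex.star_def, map_mul, smul_sum]
    rw [sum_comm]
    simp only [mul_comm, mul_left_comm, mul_assoc]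

theorem tr_nonneg (h : Tr τ Λ) {x : A} (hx : 0 ≤ x) : 0 ≤ (τ x).re := by
  obtain ⟨s, rfl⟩ := CStarAlgebra.nonneg_iff_eq_star_mul_self.1 hx
  rw [← h.nsq]
  positivity

theorem tr_mul_nonneg (h : Tr τ Λ) {x y : A} (hx : 0 ≤ x) (hy : 0 ≤ y) : 0 ≤ (τ (x * y)).re := by
  have := h.mul_le hx (y := -y) (C := 0) (by simpa using hy)
  simpa using this

theorem l2_mono (h : Tr τ Λ) {x y : A} (hx : 0 ≤ x) (hxy : x ≤ y) : ‖Λ x‖ ^ 2 ≤ ‖Λ y‖ ^ 2 := by
  have hy := hx.trans hxy
  have h1 := tr_mul_nonneg h hx (sub_nonneg.2 hxy)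
  have h2 := tr_mul_nonneg h (sub_nonneg.2 hxy) hy
  rw [h.nsq, h.nsq, hx.isSelfAdjoint.star_eq, hy.isSelfAdjoint.star_eq]
  rw [mul_sub, map_sub, Complex.sub_re] at h1
  rw [sub_mul, map_sub, Complex.sub_re] at h2
  linarith

theorem split_small (h : Tr τ Λ) (y : A) {η : ℝ} (hη : 0 < η) : ∃ y₁ y₂, y = y₁ + y₂ ∧
    ‖y₁‖ ≤ η ∧ η ^ 2 * ‖Λ y₂‖ ^ 2 ≤ ‖Λ (y * star y)‖ ^ 2 := by
  set p := y * star y with hp
  have p0 : 0 ≤ p := mul_star_self_nonneg y
  have ps : IsSelfAdjoint p := p0.isSelfAdjoint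
  have key : ∀ c : ℝ → ℝ, Continuous c → cfc c p * y * star (cfc c p * y) =
      cfc (fun t => c t * t * c t) p := fun c hc => by
    have : IsSelfAdjoint (cfc c p) := cfc_predicate _ _
    rw [cfc_mul _ _ p, cfc_mul _ _ p, cfc_id' ℝ p, star_mul, this.star_eq, hp]
    simp only [mul_assoc]
  have η2 : 0 < η ^ 2 := by positivity
  have c1 : Continuous fun t : ℝ => min 1 (t / η ^ 2) := by fun_prop
  have c2 : Continuous fun t : ℝ => 1 - min 1 (t / η ^ 2) := by fun_prop
  refine ⟨cfc (fun t : ℝ => 1 - min 1 (t / η ^ 2)) p * y, cfc (fun t : ℝ => min 1 (t / η ^ 2)) p * y,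
    ?_, ?_, ?_⟩
  · rw [← add_mul, ← cfc_add p _ _ c2.continuousOn c1.continuousOn]
    simp only [sub_add_cancel, cfc_const_one ℝ p, one_mul]
  · refine le_of_sq_le_sq ?_ hη.le
    rw [sq, ← CStarRing.norm_self_mul_star, key _ c2]
    refine norm_cfc_le η2.le fun t ht => ?_
    have t0 := spectrum_nonneg_of_nonneg p0 ht
    rcases le_total 1 (t / η ^ 2) with c | c
    · simp [c, η2.le]
    · have a1 : 0 ≤ t / η ^ 2 := by positivity
      have a2 := (div_le_one η2).1 c
      rw [min_eq_right c, Real.norm_of_nonneg (by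
        have := sub_nonneg.2 c
        positivity)]
      have : (1 - t / η ^ 2) * (1 - t / η ^ 2) ≤ 1 := by nlinarith
      nlinarith
  · have e : (η ^ 2) • cfc (fun t : ℝ => min 1 (t / η ^ 2) * t * min 1 (t / η ^ 2)) p ≤ p * p := by
      nth_rw 2 [← cfc_id' ℝ p]
      nth_rw 3 [← cfc_id' ℝ p]
      rw [← cfc_mul _ _ p, ← cfc_const_mul _ _ p]
      refine cfc_mono fun t ht => ?_
      have t0 := spectrum_nonneg_of_nonneg p0 ht
      have a1 : η ^ 2 * min 1 (t / η ^ 2) ≤ t := by
        rw [← le_div_iff₀' η2]; exact min_le_right _ _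
      have a2 : 0 ≤ min 1 (t / η ^ 2) := by positivity
      have a3 := mul_le_of_le_one_right t0 (min_le_left 1 (t / η ^ 2))
      nlinarith [mul_le_mul a1 a3 (by positivity) t0]
    have := tr_nonneg h (sub_nonneg.2 e)
    rw [map_sub, Complex.sub_re, LinearMap.map_smul_of_tower, Complex.smul_re, smul_eq_mul] at this
    rw [h.nsq, h.nsq, h.tr, key _ c1, ps.star_eq]
    linarith

theorem flt_of (h : Tr τ Λ) {I : Type*} [Fintype I] {v v' : I → A} {x : A} {η : ℝ} (hη : 0 < η)
    (hs : ∑ b, ∑ c, ‖Λ (star (v b) * x * v' c * star (star (v b) * x * v' c))‖ ^ 2 ≤ η ^ 4) :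
    Flt Λ v v' x η ∧ Flt Λ v' v (star x) η := by
  choose y y' h1 h2 h3 using fun b c => split_small h (star (v b) * x * v' c) hη
  have h4 : ∑ b, ∑ c, ‖Λ (y' b c)‖ ^ 2 ≤ η ^ 2 := by
    have := (sum_le_sum fun b _ => sum_le_sum fun c _ => h3 b c).trans hs
    simp only [← mul_sum] at this
    exact le_of_mul_le_mul_left (this.trans_eq (by ring)) (by positivity)
  refine ⟨⟨y, y', h1, h2, h4⟩, fun c b => star (y b c), fun c b => star (y' b c), fun c b => ?_,
    fun c b => by rw [norm_star]; exact h2 b c, ?_⟩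
  · rw [← star_add, ← h1, star_mul, star_mul, star_star, mul_assoc]
  · simp only [h.norm_star]
    rwa [sum_comm]

theorem frames : FramesStmt.{u, v} := by
  intro A E _ _ _ _ _ τ Λ z h hz hc hs hH J _ x hx r η hη
  have zs := hz.isSelfAdjoint.star_eq
  have zi := hz.isIdempotentElem.eq
  set n : ℝ := r * (Fintype.card J * Fintype.card J) with hn
  have t0 : 0 ≤ (τ z).re := tr_nonneg h hz.nonneg
  obtain ⟨m, hm⟩ := exists_nat_ge ((3 * (n * (n * (τ z).re)) + 1) / η ^ 4)
  obtain ⟨I, _, _, v₀, g, h1, -, hv⟩ := exists_frame zs zi hH m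
  have : Nonempty I := Fintype.card_pos_iff.1 (by omega)
  suffices H : ∀ k ≤ r, ∃ v : Fin k → I → A, (∀ i, Frame (v i) g z) ∧
      ∀ i k, i ≠ k → ∀ j j', Flt Λ (v i) (v k) (star (x j) * x j') η by
    obtain ⟨v, h2, h3⟩ := H r le_rfl
    exact ⟨I, inferInstance, inferInstance, this, g, v, h2, h3⟩
  intro k hk
  induction k with
  | zero => exact ⟨Fin.elim0, fun i => i.elim0, fun i => i.elim0⟩
  | succ k ih =>
    obtain ⟨v, h2, h3⟩ := ih (by omega)
    let V : Fin k → A := fun l => ∑ a, v l a * star (v₀ a)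
    have V1 : ∀ l a, V l * v₀ a = v l a := fun l a => by
      simp [V, sum_mul, mul_assoc, hv.orth, (h2 l).fix]
    have V2 : ∀ l, V l * z * star (V l) = z := fun l => by
      nth_rw 2 [← (h2 l).sum]
      rw [← hv.sum, mul_sum, sum_mul]
      simp only [← V1, star_mul, mul_assoc]
    have V3 : ∀ l, star (V l) * z * V l = z := fun l => by
      nth_rw 2 [← hv.sum]
      simp [V, star_sum, sum_mul, mul_sum, mul_assoc, ← mul_assoc z (v l _),
        ← mul_assoc (star (v l _)) (v l _),
        (h2 l).left, (h2 l).orth, ← mul_assoc (v₀ _) g, hv.fix]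
    have u1 : ∀ j j', star (x j) * x j' * z * star (star (x j) * x j') = z := fun j j' => by
      rw [← hc, mul_assoc, (mul_mem (Unitary.star_mem (hx j)) (hx j')).2, mul_one]
    have u2 : ∀ j j', star (star (x j) * x j') * z * (star (x j) * x j') = z := fun j j' => by
      rw [← hc, mul_assoc, (mul_mem (Unitary.star_mem (hx j)) (hx j')).1, mul_one]
    set n' : ℝ := k * (Fintype.card J * Fintype.card J) with hn'
    obtain ⟨f, hf, h4⟩ := flat_explicit h hc hs
      (fun p : Fin k × J × J => star (x p.2.1) * x p.2.2 * V p.1) (Z := n' • z) (G := n' • z)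
      (by
        rw [sum_congr rfl fun p _ => (show _ = z by
          rw [star_mul _ (V _), mul_assoc _ (V _), mul_assoc _ (V _ * z), ← mul_assoc (V _ * z),
            V2, ← mul_assoc, u1])]
        simp [hn', ← Nat.cast_smul_eq_nsmul ℝ])
      (by
        rw [sum_congr rfl fun p _ => (show _ = z by
          rw [star_mul _ (V _), mul_assoc (star (V _)), mul_assoc (star (V _)), ← mul_assoc _ _ (V _),
            u2, ← mul_assoc, V3])]
        simp [hn', ← Nat.cast_smul_eq_nsmul ℝ]) hv
    have k1 : ∀ l j j', Flt Λ f (v l) (star (x j) * x j') η ∧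
        Flt Λ (v l) f (star (star (x j) * x j')) η := fun l j j' => by
      refine flt_of h hη ?_
      rw [sum_comm]
      refine le_trans (sum_le_sum fun a _ => sum_le_sum fun b _ => l2_mono h
        (mul_star_self_nonneg _) ?_) (h4.trans ?_)
      · refine le_trans (le_of_eq ?_) (star_left_conjugate_le_conjugate (single_le_sum
          (f := fun p : Fin k × J × J => star (x p.2.1) * x p.2.2 * V p.1 * (v₀ a * star (v₀ a)) *
            star (star (x p.2.1) * x p.2.2 * V p.1)) (fun p _ => star_right_conjugate_nonneg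
              (mul_star_self_nonneg _) _) (mem_univ (l, j, j'))) _)
        simp only [← V1, star_mul, star_star, mul_assoc]
      · have n0 : 0 ≤ n' := by positivity
        have n1 : n' ≤ n := by
          rw [hn, hn']
          gcongr
          omega
        have n2 : ‖n' • z‖ ≤ n := by
          rw [norm_smul, Real.norm_of_nonneg n0]
          exact (mul_le_of_le_one_right n0 hz.norm_le).trans n1
        have n3 : ‖n' • z‖ * (τ (n' • z)).re ≤ n * (n * (τ z).re) := by
          rw [LinearMap.map_smul_of_tower, Complex.smul_re, smul_eq_mul]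
          gcongr
        have n4 : (m : ℝ) ≤ Fintype.card I := by exact_mod_cast h1.le
        rw [div_le_iff₀ (by exact_mod_cast Fintype.card_pos)]
        rw [div_le_iff₀' (by positivity)] at hm
        nlinarith [mul_le_mul_of_nonneg_left n4 (by positivity : 0 ≤ η ^ 4)]
    refine ⟨Fin.cons f v, fun i => Fin.cases hf h2 i, fun i i' => ?_⟩
    refine Fin.cases ?_ (fun i => ?_) i <;> refine Fin.cases ?_ (fun i' => ?_) i' <;> intro c j j'
    · exact absurd rfl c
    · exact (k1 _ j j').1
    · simpa using (k1 _ j' j).2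
    · exact h3 _ _ (fun e => c (congrArg _ e)) j j'

end Vale.Agent.P082
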