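import Vale.Agent.P082.Glue1

/-! Invariant averages in the type I case. -/

namespace Vale.Agent.P082

open scoped InnerProductSpace
open Filter Topology Vale.Agent.P104 Finset

universe u

namespace Glue

section Alg

variable {A : Type*} [Ring A] [StarRing A]

/-- A central symmetry. -/
structure Sy (t : A) : Prop where
  comm : ∀ x, t * x = x * t
  sa : star t = t
  sq : t * t = 1

/-- Left multiplication by `x` permutes the family `m`. -/
def Perm {Ω : Type} (m : Ω → A) (x : A) : Prop := ∃ e : Ω ≃ Ω, ∀ ω, x * m ω = m (e ω)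

/-- A finite family of unitaries of `z A` permuted by the elements of `S`. -/
def Good (z : A) (S : Set A) : Prop :=
  ∃ (Ω : Type) (_ : Fintype Ω) (_ : Nonempty Ω) (m : Ω → A),
    (∀ ω, m ω * star (m ω) = z ∧ z * m ω = m ω) ∧ ∀ x ∈ S, Perm m x

theorem Good.insert {z t : A} {S : Set A} (h : Good z S) (ht : Sy t) : Good z (insert t S) := by
  obtain ⟨Ω, _, _, m, h1, h2⟩ := h
  refine ⟨Ω × Bool, inferInstance, inferInstance, fun ω => if ω.2 then t * m ω.1 else m ω.1,
    fun ω => ?_, ?_⟩
  · dsimp only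
    split_ifs
    · refine ⟨?_, by rw [← mul_assoc, ← ht.comm, mul_assoc, (h1 _).2]⟩
      rw [star_mul, ht.sa, ← ht.comm, ← mul_assoc, ht.comm (m _), mul_assoc (m _), ht.sq, mul_one,
        (h1 _).1]
    · exact h1 _
  · rintro x (rfl | hx)
    · refine ⟨Equiv.prodCongr (Equiv.refl _) Equiv.boolNot, ?_⟩
      rintro ⟨ω, _ | _⟩
      · simp
      · simp [← mul_assoc, ht.sq]
    · obtain ⟨e, he⟩ := h2 x hx
      refine ⟨Equiv.prodCongr e (Equiv.refl _), ?_⟩
      rintro ⟨ω, _ | _⟩
      · simp [he]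
      · simp [← he, ← mul_assoc, ht.comm]

theorem Good.union {z : A} {S : Set A} (h : Good z S) (D : Finset A) :
    Good z (S ∪ {t | t ∈ D ∧ Sy t}) := by
  classical
  induction D using Finset.induction_on with
  | empty => simpa using h
  | insert t D _ ih =>
    by_cases ht : Sy t
    · convert ih.insert ht using 1
      ext x
      simp only [Set.mem_union, Set.mem_ofPred_eq, mem_insert, Set.mem_insert_iff]
      constructor
      · rintro (h | ⟨rfl | h, h'⟩) <;> tauto
      · rintro (rfl | h | h) <;> tauto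
    · convert ih using 2
      ext x
      simp only [Set.mem_ofPred_eq, mem_insert]
      constructor
      · rintro ⟨rfl | h, h'⟩ <;> tauto
      · tauto

variable {I : Type} [Fintype I] [DecidableEq I] {v : I → A} {g z : A}

/-- The element with integer matrix `u` in the frame `v`. -/
def th (v : I → A) : Matrix I I ℤ →+ A where
  toFun u := ∑ a, ∑ b, u a b • (v a * star (v b))
  map_zero' := by simp
  map_add' u u' := by simp only [Matrix.add_apply, add_smul, sum_add_distrib]

omit [DecidableEq I] in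
theorem th_apply (u : Matrix I I ℤ) : th v u = ∑ a, ∑ b, u a b • (v a * star (v b)) := rfl

theorem th_single (a b : I) : th v (Matrix.single a b 1) = v a * star (v b) := by
  simp [th_apply, Matrix.single_apply, ite_and]

theorem th_one (hv : Frame v g z) : th v 1 = z := by
  simp [th_apply, Matrix.one_apply, hv.sum]

omit [DecidableEq I] in
theorem th_star (u : Matrix I I ℤ) : star (th v u) = th v (star u) := by
  simp only [th_apply, star_sum, star_smul, star_mul, star_star, Matrix.star_apply]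
  rw [sum_comm]

theorem th_mul (hv : Frame v g z) (u u' : Matrix I I ℤ) : th v u * th v u' = th v (u * u') := by
  have : ∀ a b c d, v a * star (v b) * (v c * star (v d)) =
      if b = c then v a * star (v d) else 0 := fun a b c d => by
    rw [mul_assoc, ← mul_assoc (star (v b)), hv.orth]
    split_ifs
    · rw [hv.fix']
    · simp
  simp only [th_apply, sum_mul, mul_sum, smul_mul_assoc, mul_smul_comm, this, smul_ite, smul_zero,
    Matrix.mul_apply, sum_smul, smul_sum, smul_smul]
  rw [sum_comm]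
  conv_rhs => rw [sum_comm]
  refine sum_congr rfl fun d _ => ?_
  rw [sum_comm]
  refine sum_congr rfl fun a _ => ?_
  rw [sum_comm]
  simp [mul_comm]

theorem finite_orth (I : Type) [Fintype I] [DecidableEq I] : Finite (Matrix.unitaryGroup I ℤ) := by
  have h : ∀ (u : Matrix.unitaryGroup I ℤ) a b, u.1 a b ∈ Set.Icc (-1 : ℤ) 1 := fun u a b => by
    have h1 := congrFun (congrFun (Matrix.mem_unitaryGroup_iff.1 u.2) a) a
    simp only [Matrix.mul_apply, Matrix.star_apply, star_trivial, Matrix.one_apply_eq] at h1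
    have h2 := single_le_sum (f := fun j => u.1 a j * u.1 a j) (fun j _ => mul_self_nonneg _)
      (mem_univ b)
    rw [h1] at h2
    exact abs_le.1 (abs_le_one_iff_mul_self_le_one.2 h2)
  exact Finite.of_injective (fun u a b => (⟨u.1 a b, h u a b⟩ : Set.Icc (-1 : ℤ) 1))
    fun u u' e => Subtype.ext (Matrix.ext fun a b => congrArg Subtype.val (congrFun (congrFun e a) b))

theorem good_th (hv : Frame v g z) :
    Good z (Set.range fun u : Matrix.unitaryGroup I ℤ => th v u.1) := by
  have := finite_orth I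
  refine ⟨Matrix.unitaryGroup I ℤ, Fintype.ofFinite _, ⟨1⟩, fun u => th v u.1, fun u => ⟨?_, ?_⟩,
    ?_⟩
  · rw [th_star, th_mul hv, Matrix.mem_unitaryGroup_iff.1 u.2, th_one hv]
  · rw [← th_one hv, th_mul hv, one_mul]
  · rintro _ ⟨u, rfl⟩
    exact ⟨Equiv.mulLeft u, fun w => th_mul hv _ _⟩

theorem amp_comm (hv : Frame v g z) (hz : ∀ x, z * x = x * z)
    (hg : ∀ x y, (g * x * g) * (g * y * g) = (g * y * g) * (g * x * g)) (y x : A) :
    (∑ c, v c * y * star (v c)) * x = x * ∑ c, v c * y * star (v c) := by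
  have e1 : ∀ c, star (v c) * z = star (v c) := fun c => by
    have : star z = z := by simp [← hv.sum, star_sum]
    rw [← this, ← star_mul, hv.left]
  have e2 : ∀ c d, v c * y * star (v c) * x * (v d * star (v d)) =
      v c * star (v c) * x * (v d * y * star (v d)) := fun c d => by
    have := hg y (star (v c) * x * v d)
    calc _ = (v c * g) * y * (g * star (v c)) * x * ((v d * g) * star (v d)) := by
          rw [hv.fix, hv.fix, hv.fix']
      _ = v c * ((g * y * g) * (g * (star (v c) * x * v d) * g)) * star (v d) := by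
          simp only [mul_assoc]
          rw [← mul_assoc g g, hv.idem]
      _ = (v c * g) * star (v c) * x * ((v d * g) * y * (g * star (v d))) := by
          rw [this]
          simp only [mul_assoc]
          rw [← mul_assoc g g, hv.idem]
      _ = _ := by rw [hv.fix, hv.fix, hv.fix']
  calc _ = ∑ c, v c * y * star (v c) * x * z := by
        rw [sum_mul]
        refine sum_congr rfl fun c _ => ?_
        rw [mul_assoc _ x, ← hz, ← mul_assoc, mul_assoc _ _ z, e1]
    _ = ∑ d, z * x * (v d * y * star (v d)) := by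
        simp only [← hv.sum, mul_sum, e2, sum_mul]
        exact sum_comm
    _ = _ := by
        rw [mul_sum]
        refine sum_congr rfl fun d _ => ?_
        rw [hz, mul_assoc, ← mul_assoc z, ← mul_assoc z, hv.left]

theorem expand (hv : Frame v g z) (hz : ∀ x, z * x = x * z) (x : A) :
    x * z = ∑ a, ∑ b, (∑ c, v c * (star (v a) * x * v b) * star (v c)) * (v a * star (v b)) := by
  have e : ∀ a b, (∑ c, v c * (star (v a) * x * v b) * star (v c)) * (v a * star (v b)) =
      v a * star (v a) * x * (v b * star (v b)) := fun a b => by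
    rw [sum_mul, sum_eq_single a (fun c _ h => ?_) fun h => absurd (mem_univ _) h]
    · rw [mul_assoc, ← mul_assoc (star (v a)) (v a), hv.orth, if_pos rfl, hv.fix']
      simp only [mul_assoc]
    · rw [mul_assoc, ← mul_assoc (star (v c)), hv.orth, if_neg h, zero_mul, mul_zero]
  have e2 : z * z = z := by
    nth_rw 2 [← hv.sum]
    rw [mul_sum, ← hv.sum]
    exact sum_congr rfl fun c _ => by rw [← mul_assoc, hv.sum, hv.left]
  simp only [e, ← mul_sum, ← sum_mul, hv.sum]
  rw [hz, mul_assoc, e2]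

end Alg

theorem unit_mem {A : Type*} [Ring A] [StarRing A] [Algebra ℂ A] {I : Type} [Fintype I]
    [DecidableEq I] {v : I → A} {g z : A} (hv : Frame v g z) (T : Subalgebra ℂ A)
    (h : ∀ u : Matrix.unitaryGroup I ℤ, th v u.1 ∈ T) (a b : I) : v a * star (v b) ∈ T := by
  have h1 : (1 : Matrix I I ℤ) - (Matrix.single a a 1 + Matrix.single a a 1) ∈
      Matrix.unitaryGroup I ℤ := by
    have : star (Matrix.single a a (1 : ℤ)) = Matrix.single a a 1 := by
      rw [Matrix.star_eq_conjTranspose, Matrix.conjTranspose_single, star_one]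
    rw [Matrix.mem_unitaryGroup_iff, star_sub, star_add, this, star_one]
    simp only [sub_mul, mul_sub, add_mul, mul_add, one_mul, mul_one, Matrix.single_mul_single_same]
    abel
  have h2 : Matrix.swap ℤ a b ∈ Matrix.unitaryGroup I ℤ := by
    rw [Matrix.mem_unitaryGroup_iff, Matrix.star_eq_conjTranspose, Matrix.conjTranspose_swap,
      Matrix.swap_mul_self]
  have h3 := T.smul_mem (T.sub_mem (h 1) (h ⟨_, h1⟩)) (2⁻¹ : ℂ)
  simp only [OneMemClass.coe_one, map_sub, map_add, sub_sub_cancel] at h3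
  rw [← two_smul ℂ, smul_smul, inv_mul_cancel₀ two_ne_zero, one_smul] at h3
  have h4 := T.mul_mem h3 (h ⟨_, h2⟩)
  rw [th_mul hv] at h4
  convert h4 using 1
  rw [← th_single]
  congr 1
  ext i j
  by_cases c : i = a
  · subst c
    rw [Matrix.single_mul_apply_same, one_mul, Matrix.single_apply]
    simp [Matrix.swap, PEquiv.toMatrix_apply]
  · rw [Matrix.single_mul_apply_of_ne _ _ _ _ _ c, Matrix.single_apply_of_row_ne (Ne.symm c)]

theorem cen_span {A : Type*} [CStarAlgebra A] [PartialOrder A] [StarOrderedRing A]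
    (T : Subalgebra ℂ A) (h : ∀ h : A, (∀ x, h * x = x * h) → 0 ≤ h → h ≤ 1 → h ∈ T) (y : A)
    (hy : ∀ x, y * x = x * y) : y ∈ T := by
  have hsa : ∀ a : A, (∀ x, a * x = x * a) → star a = a → a ∈ T := fun a hc ha => by
    have ht : 0 < ‖a‖ + 1 := by positivity
    have h1 : a ≤ (‖a‖ + 1) • (1 : A) := le_smul_of_norm_le ha (by linarith)
    have h2 : -a ≤ (‖a‖ + 1) • (1 : A) :=
      le_smul_of_norm_le (by rw [star_neg, ha]) (by rw [norm_neg]; linarith)
    have h3 := h ((2 * (‖a‖ + 1))⁻¹ • (a + (‖a‖ + 1) • (1 : A)))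
      (fun x => by simp only [smul_mul_assoc, mul_smul_comm, add_mul, mul_add, hc, one_mul, mul_one])
      (smul_nonneg (by positivity) (neg_le_iff_add_nonneg'.1 h2)) (by
        have h4 : a + (‖a‖ + 1) • (1 : A) ≤ (2 * (‖a‖ + 1)) • (1 : A) := by
          rw [two_mul, add_smul (‖a‖ + 1)]
          exact add_le_add h1 le_rfl
        have h5 := smul_le_smul_of_nonneg_left h4 (show 0 ≤ (2 * (‖a‖ + 1))⁻¹ by positivity)
        rwa [smul_smul, inv_mul_cancel₀ (by positivity), one_smul] at h5)
    have h6 := T.sub_mem (T.smul_mem h3 ((2 * (‖a‖ + 1) : ℝ) : ℂ))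
      (T.smul_mem T.one_mem ((‖a‖ + 1 : ℝ) : ℂ))
    rwa [Complex.coe_smul, Complex.coe_smul, smul_smul, mul_inv_cancel₀ (by positivity), one_smul,
      add_sub_cancel_right] at h6
  have hy' : ∀ x, star y * x = x * star y := fun x => by
    simpa using (congrArg star (hy (star x))).symm
  have h1 := hsa (y + star y) (fun x => by rw [add_mul, mul_add, hy, hy'])
    (by rw [star_add, star_star, add_comm])
  have h2 := hsa (Complex.I • (y - star y))
    (fun x => by rw [smul_mul_assoc, mul_smul_comm, sub_mul, mul_sub, hy, hy'])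
    (by rw [star_smul, star_sub, star_star, Complex.star_def, Complex.conj_I, neg_smul,
      ← smul_neg, neg_sub])
  have h3 := T.smul_mem (T.sub_mem h1 (T.smul_mem h2 Complex.I)) (2⁻¹ : ℂ)
  have e : (2⁻¹ : ℂ) • (y + star y - Complex.I • Complex.I • (y - star y)) = y := by
    rw [smul_smul, Complex.I_mul_I]
    module
  rwa [e] at h3

variable {K : Type u} [NormedAddCommGroup K] [InnerProductSpace ℂ K] [CompleteSpace K]
  {M : VonNeumannAlgebra K}

theorem cen_mem (T : Subalgebra ℂ (Alg M)) (hT : IsClosed (T : Set (Alg M)))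
    (h : ∀ t, Sy t → t ∈ T) (y : Alg M) (hy : ∀ x, y * x = x * y) : y ∈ T := by
  have hp : ∀ E, Cen E → E ∈ T := fun E hE => by
    have h1 := h (1 - (E + E)) ⟨fun x => by
      rw [sub_mul, mul_sub, add_mul, mul_add, hE.comm, one_mul, mul_one],
      by rw [star_sub, star_add, star_one, hE.proj.2.star_eq], by
        simp only [sub_mul, mul_sub, add_mul, mul_add, one_mul, mul_one, hE.proj.1.eq]
        abel⟩
    have h3 := T.smul_mem (T.sub_mem T.one_mem h1) (2⁻¹ : ℂ)
    rwa [sub_sub_cancel, ← two_smul ℂ, smul_smul, inv_mul_cancel₀ two_ne_zero, one_smul] at h3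
  have key : ∀ n : ℕ, ∀ h : Alg M, (∀ x, h * x = x * h) → 0 ≤ h → h ≤ 1 →
      ∃ t ∈ T, ‖h - t‖ ≤ (1 / 2) ^ n := fun n => by
    induction n with
    | zero =>
      intro h _ h0 h1
      exact ⟨0, T.zero_mem, by simpa using (CStarAlgebra.norm_le_one_iff_of_nonneg h h0).2 h1⟩
    | succ n ih =>
      intro h hc h0 h1
      obtain ⟨E, e1, e2, -, e3, e4, -, e5⟩ := bis_mem (M := M) h.2 (IsStarProjection.one _) h0 h1
      have hE : Cen (⟨E, e1⟩ : Alg M) := ⟨proj_coe.2 e2, fun x => Subtype.ext (e5 x.1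
        (congrArg Subtype.val (hc x)).symm (congrArg Subtype.val (hc (star x))).symm).eq.symm⟩
      obtain ⟨t, ht, h2⟩ := ih ((2 : ℂ) • h - ⟨E, e1⟩) (fun x => by
        rw [sub_mul, mul_sub, smul_mul_assoc, mul_smul_comm, hc, hE.comm]) e3 e4
      refine ⟨(2⁻¹ : ℂ) • (t + ⟨E, e1⟩), T.smul_mem (T.add_mem ht (hp _ hE)) _, ?_⟩
      have e : h - (2⁻¹ : ℂ) • (t + ⟨E, e1⟩) = (2⁻¹ : ℂ) • ((2 : ℂ) • h - ⟨E, e1⟩ - t) := by
        module
      rw [e, norm_smul, pow_succ, mul_comm, norm_inv, Complex.norm_two, one_div]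
      rw [one_div] at h2
      gcongr
  refine cen_span T (fun h hc h0 h1 => ?_) y hy
  refine hT.closure_subset (Metric.mem_closure_iff.2 fun ε hε => ?_)
  obtain ⟨n, hn⟩ := exists_pow_lt_of_lt_one hε (show (1 / 2 : ℝ) < 1 by norm_num)
  obtain ⟨t, ht, h2⟩ := key n h hc h0 h1
  exact ⟨t, ht, by rw [dist_eq_norm]; exact h2.trans_lt hn⟩

theorem approx_of {z : Alg M} (hz : Cen z) (Y : Set (Alg M →ₗ[ℂ] ℂ)) {S : Set (Alg M)}
    (h : Good z S) (hS : ∀ x ∈ S, star x * x = z) :
    Approx M z Y (S ∪ {t | Sy t} ∪ {x | x * z = 0}) := by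
  classical
  intro D ε hε
  obtain ⟨Ω, _, _, m, h1, h2⟩ := h.union (D.image fun d => d.2.1)
  have n0 : (0 : ℝ) < Fintype.card Ω := by exact_mod_cast Fintype.card_pos
  have m1 : ∀ ω, star (m ω) * z = star (m ω) := fun ω => by
    rw [← hz.proj.2.star_eq, ← star_mul, (h1 ω).2]
  refine ⟨Ω, inferInstance, fun _ => (Fintype.card Ω : ℝ)⁻¹, m, fun _ => by positivity,
    by simp, fun ω => ?_, fun d hd _ => ⟨?_, fun hx => ?_⟩⟩
  · rw [← norm_star]
    exact norm_le_one_of_proj (by rw [star_star, (h1 ω).1]; exact hz.proj)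
  · simp [(h1 _).1, mul_assoc, sub_mul, hz.proj.1.eq, hε.le]
  · have key : (star d.2.1 * d.2.1 * z = z ∧ Perm m d.2.1) → ∑ ω, d.2.2
        ((d.1 (d.2.1 * m ω) * star (m ω) - d.1 (m ω) * star (m ω) * d.2.1) * z) = 0 := by
      rintro ⟨h3, e, he⟩
      simp only [sub_mul, map_sub, sum_sub_distrib]
      rw [sub_eq_zero, ← e.sum_comp fun ω => d.2.2 (d.1 (m ω) * star (m ω) * d.2.1 * z)]
      refine sum_congr rfl fun ω _ => ?_
      rw [← he, star_mul, mul_assoc, mul_assoc, mul_assoc, mul_assoc, ← mul_assoc (star d.2.1), h3]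
    rw [← mul_sum]
    rcases hx with (hx | hx) | hx
    · rw [key ⟨by rw [hS _ hx, hz.proj.1.eq], h2 _ (Or.inl hx)⟩]
      simp [hε.le]
    · have hx' : Sy d.2.1 := hx
      rw [key ⟨by rw [hx'.sa, hx'.sq, one_mul], h2 _ (Or.inr ⟨mem_image_of_mem _ hd, hx'⟩)⟩]
      simp [hε.le]
    · have hx' : d.2.1 * z = 0 := hx
      have : ∀ ω, d.2.1 * m ω = 0 := fun ω => by rw [← (h1 ω).2, ← mul_assoc, hx', zero_mul]
      simp [this, mul_assoc, hx', hε.le]

end Glue

variable {K : Type u} [NormedAddCommGroup K] [InnerProductSpace ℂ K] [CompleteSpace K]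
  {M : VonNeumannAlgebra K}

theorem avgI (hA : ApproxStmt M) : AvgIStmt M := by
  rintro z hz ⟨I, _, _, v, g, hv, hg⟩
  refine hA z {φ | VecF φ} _ hz (fun φ h => h) (fun a _ h => ?_) (fun T hT h => ?_)
    (Glue.approx_of hz _ (Glue.good_th hv) ?_)
  · refine Subtype.ext (ContinuousLinearMap.ext fun ξ => ext_inner_left ℂ fun η => ?_)
    have := h { toFun := fun x => ⟪η, x.1 ξ⟫_ℂ
                map_add' := fun x y => inner_add_right _ _ _
                map_smul' := fun t x => inner_smul_right _ _ _ }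
      ⟨Unit, inferInstance, fun _ => ξ, fun _ => η, fun a => by simp⟩
    simpa using this
  · rw [eq_top_iff]
    intro x _
    have e : x = x * z + x * (1 - z) := by rw [← mul_add, add_sub_cancel, mul_one]
    rw [e, Glue.expand hv hz.comm]
    refine T.add_mem (T.sum_mem fun a _ => T.sum_mem fun b _ => T.mul_mem ?_ ?_) ?_
    · exact Glue.cen_mem T hT (fun t ht => h (Or.inl (Or.inr ht))) _ (Glue.amp_comm hv hz.comm hg _)
    · exact Glue.unit_mem hv T (fun u => h (Or.inl (Or.inl ⟨u, rfl⟩))) a b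
    · refine h (Or.inr ?_)
      change x * (1 - z) * z = 0
      rw [mul_assoc, hz.proj.one_sub_mul_self, mul_zero]
  · rintro _ ⟨u, rfl⟩
    rw [Glue.th_star, Glue.th_mul hv, Matrix.mem_unitaryGroup_iff'.1 u.2, Glue.th_one hv]

end Vale.Agent.P082
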