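import Vale.Agent.P082.Core

/-! The main estimate in the tracial case. -/

namespace Vale.Agent.P082

open scoped InnerProductSpace ComplexConjugate BigOperators
open Vale.Agent.P104 Finset Function Polynomial

universe u v

variable {A : Type u} {E : Type v} [CStarAlgebra A] [PartialOrder A] [StarOrderedRing A]
  [NormedAddCommGroup E] [InnerProductSpace ℂ E] {τ : A →ₗ[ℂ] ℂ} {Λ : A →ₗ[ℂ] E}
  {I G R J : Type} [Fintype I] [DecidableEq I] [Fintype G] [Fintype R] [DecidableEq R]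
  [Fintype J] [DecidableEq J] {z g : A} {v : R → I → A} {U : G → I → I → ℂ} {η : ℝ}
  {B : A →ₗ[ℂ] A →ₗ⋆[ℂ] ℂ} {Kb L σ δ : ℝ} {x : J → A}

/-- A word without its first unitary. -/
noncomputable def tl (z : A) (v : R → I → A) (U : G → I → I → ℂ) (x : J → A)
    (θ : R × Bool → J) (γ : R → G) : List (R × Bool) → A
  | [] => z
  | s :: w => dl v U s (γ s.1) * star (x (θ (bar s))) * val z (lt v U (x ∘ θ) γ) w

omit [PartialOrder A] [StarOrderedRing A] [Fintype R] [DecidableEq R] [Fintype J]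
  [DecidableEq J] in
theorem tl_mul {θ : R × Bool → J} (h : Setup τ Λ z g v U (x ∘ θ) η) (γ : R → G)
    (w : List (R × Bool)) : tl z v U x θ γ w * star (tl z v U x θ γ w) = z ∧
      star (tl z v U x θ γ w) * tl z v U x θ γ w = z := by
  cases w with
  | nil => simp [tl, h.proj.isSelfAdjoint.star_eq, h.proj.isIdempotentElem.eq]
  | cons s w =>
    have e : tl z v U x θ γ (s :: w) = star (x (θ s)) * val z (lt v U (x ∘ θ) γ) (s :: w) := by
      have := (h.uni s).1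
      simp only [tl, val, lt, comp_apply, ← mul_assoc] at this ⊢
      rw [this, one_mul]
    obtain ⟨h1, h2⟩ := (h.lets γ).mul_star (s :: w)
    have h3 : star (x (θ s)) * x (θ s) = 1 := (h.uni s).1
    have h4 : x (θ s) * star (x (θ s)) = 1 := (h.uni s).2
    rw [e, star_mul, star_star]
    constructor
    · rw [mul_assoc, ← mul_assoc (val _ _ _), h1, h.cen, ← mul_assoc, h3, one_mul]
    · rw [mul_assoc, ← mul_assoc (x _), h4, one_mul, h2]

omit [PartialOrder A] [StarOrderedRing A] [DecidableEq I] in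
theorem diag_eq (j o : J) (n : ℕ) :
    diag z v U x (fun i => (if i = j then 1 else 0) - if i = o then 1 else 0) B σ n =
      (Fintype.card J : ℂ)⁻¹ * ∑ w ∈ Inj R (n + 1), ((σ ^ (2 * (n + 1)) : ℝ) : ℂ) *
        𝔼 ω : (R × Bool → J) × (R → G), (B (x j * tl z v U x ω.1 ω.2 w) (x j * tl z v U x ω.1 ω.2 w)
          - B (x o * tl z v U x ω.1 ω.2 w) (x o * tl z v U x ω.1 ω.2 w)) := by
  have : Nonempty J := ⟨o⟩
  rw [diag, expect_sum_comm, mul_sum]
  refine sum_congr rfl fun w hw => ?_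
  obtain ⟨h1, h2⟩ := mem_filter.1 hw
  obtain _ | ⟨s, w⟩ := w
  · simpa using mem_All.1 h1
  have h3 : s.1 ∉ w.map Prod.fst := (List.nodup_cons.1 h2).1
  have e : ∀ (θ : R × Bool → J) i γ, val z (lt v U (x ∘ update θ s i) γ) (s :: w) =
      x i * tl z v U x θ γ (s :: w) := fun θ i γ => by
    rw [val, tl, lt, comp_apply, comp_apply, update_self, update_of_ne (bar_ne s),
      val_congr (ξ' := lt v U (x ∘ θ) γ) fun t ht => ?_]
    · simp only [mul_assoc]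
    · have h4 : t.1 ≠ s.1 := fun c => h3 (List.mem_map.2 ⟨t, ht, c⟩)
      rw [lt, lt, comp_apply, comp_apply, update_of_ne fun c => h4 (by rw [c]),
        update_of_ne fun c => h4 (by rw [← c, bar_fst])]
      rfl
  rw [expect_update s, ← univ_product_univ, expect_product, mul_left_comm, mul_expect, mul_expect]
  refine expect_congr rfl fun θ _ => ?_
  simp only [e, hd, comp_apply, update_self, one_mul, Complex.ofReal_mul, mul_assoc, ← mul_expect]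
  rw [expect_eq_sum_div_card, div_eq_inv_mul, card_univ, expect_sub_distrib]
  simp only [Complex.ofReal_sub, apply_ite Complex.ofReal, Complex.ofReal_one,
    Complex.ofReal_zero, sub_mul, ite_mul, one_mul, zero_mul, sum_sub_distrib, sum_ite_eq',
    mem_univ, if_true, mul_left_comm]

theorem small_exists {C δ : ℝ} (hC : 0 ≤ C) (hδ : 0 < δ) : ∃ η > 0, C * η ≤ δ :=
  ⟨δ / (C + 1), by positivity, by
    rw [← mul_div_assoc, div_le_iff₀ (by positivity)]; nlinarith⟩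

theorem mass_ge {N r n : ℕ} {σ : ℝ} (s1 : σ ^ 2 * (2 * r - 1) = 1)
    (hr : 2 * ((N : ℝ) + 1) ^ 2 ≤ r) (hn' : n < N) :
    2⁻¹ ≤ #(Inj (Fin r) (n + 1)) * σ ^ (2 * (n + 1)) := by
  have N0 : (0 : ℝ) ≤ N := N.cast_nonneg
  have r1 : (1 : ℝ) ≤ r := by nlinarith
  have b1 := card_Inj_ge (R := Fin r) N (n + 1) hn' (by
    rw [Fintype.card_fin]; exact_mod_cast (by nlinarith : (N : ℝ) ≤ r))
  rw [Fintype.card_fin] at b1
  refine le_trans ?_ (mul_le_mul_of_nonneg_right b1 (by rw [pow_mul]; positivity))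
  rw [pow_mul, ← mul_pow]
  have b2 : (n + 1 : ℕ) ≤ (N : ℝ) := by exact_mod_cast hn'
  have b3 : N / r ≤ (1 : ℝ) := by rw [div_le_one (by linarith)]; nlinarith
  have b4 : N * (N / r) ≤ (2 : ℝ)⁻¹ := by
    rw [← mul_div_assoc, div_le_iff₀ (by linarith)]; nlinarith
  have b5 := one_add_mul_le_pow (a := -(N / r : ℝ)) (by linarith) (n + 1)
  have b6 : 1 + -(N / r : ℝ) ≤ 2 * (r - N) * σ ^ 2 := by
    have : (r : ℝ) * (N / r) = N := by field_simp
    nlinarith [mul_nonneg (sq_nonneg σ) (sub_nonneg.2 b3)]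
  have b7 : 0 ≤ (N / r : ℝ) := by positivity
  refine le_trans (by nlinarith) (b5.trans (pow_le_pow_left₀ (by linarith) b6 _))

omit [PartialOrder A] [StarOrderedRing A] in
theorem dist_of {r N : ℕ} {v : Fin r → I → A} (S : ∀ θ : Fin r × Bool → J,
    Setup τ Λ z g v U (x ∘ θ) η) (o : J) {a b : ℕ → ℝ} {ε C₀ : ℝ} (hε : 0 < ε) (C0 : 0 < C₀)
    (a0 : ∀ n, 0 ≤ a n * b n) (a1 : 2 * Fintype.card J * C₀ / ε ≤ ∑ n ∈ range N, a n * b n)
    (s1 : σ ^ 2 * (2 * r - 1) = 1) (hr : 2 * ((N : ℝ) + 1) ^ 2 ≤ r) :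
    ∃ (Ω : Type) (_ : Fintype Ω) (p : Ω → ℝ) (u : Ω → A), (∀ ω, 0 ≤ p ω) ∧ ∑ ω, p ω = 1 ∧
      (∀ ω, u ω * star (u ω) = z ∧ star (u ω) * u ω = z) ∧ ∀ (B : A →ₗ[ℂ] A →ₗ⋆[ℂ] ℂ) (j : J),
        ‖∑ n ∈ range N, ((a n * b n : ℝ) : ℂ) * diag z v U x
          (fun i => (if i = j then 1 else 0) - if i = o then 1 else 0) B σ n‖ ≤ C₀ →
        ‖∑ ω, (p ω : ℂ) * (B (x j * u ω) (x j * u ω) - B (x o * u ω) (x o * u ω))‖ ≤ ε := by
  have : Nonempty J := ⟨o⟩
  have := (S fun _ => o).des.ne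
  have J0 : (0 : ℝ) < Fintype.card J := by exact_mod_cast Fintype.card_pos
  set s := (range N).sigma fun n => Inj (Fin r) (n + 1)
  set Z := ∑ w ∈ s, a w.1 * b w.1 * σ ^ (2 * (w.1 + 1)) with hZ
  have Z1 : Fintype.card J * C₀ / ε ≤ Z := by
    rw [hZ, sum_sigma]
    rw [mul_assoc, mul_div_assoc] at a1
    refine le_trans (by linarith) (?_ : (∑ n ∈ range N, a n * b n) / 2 ≤ _)
    rw [sum_div]
    refine sum_le_sum fun n hn => ?_
    dsimp only
    rw [sum_const, nsmul_eq_mul, mul_left_comm, div_eq_mul_inv]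
    exact mul_le_mul_of_nonneg_left (mass_ge s1 hr (mem_range.1 hn)) (a0 n)
  have Z0 : 0 < Z := lt_of_lt_of_le (by positivity) Z1
  have n0 : (0 : ℝ) < Fintype.card ((Fin r × Bool → J) × (Fin r → G)) := by
    exact_mod_cast Fintype.card_pos
  refine ⟨s × (Fin r × Bool → J) × (Fin r → G), inferInstance, fun ω => a ω.1.1.1 * b ω.1.1.1 *
    σ ^ (2 * (ω.1.1.1 + 1)) / Z / Fintype.card ((Fin r × Bool → J) × (Fin r → G)),
    fun ω => tl z v U x ω.2.1 ω.2.2 ω.1.1.2, fun ω => ?_, ?_, fun ω => tl_mul (S _) _ _,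
    fun B j k2 => ?_⟩
  · have := a0 ω.1.1.1
    dsimp only
    rw [pow_mul]
    positivity
  · rw [Fintype.sum_prod_type]
    simp only [sum_const, card_univ, nsmul_eq_mul, mul_div_cancel₀ _ n0.ne']
    rw [← sum_div, sum_coe_sort s fun w => a w.1 * b w.1 * σ ^ (2 * (w.1 + 1)), div_self Z0.ne']
  have k3 := mul_le_mul_of_nonneg_left k2 (show 0 ≤ Fintype.card J / Z by positivity)
  rw [div_mul_eq_mul_div _ _ C₀, ← Real.norm_of_nonneg (show 0 ≤ Fintype.card J / Z by positivity),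
    ← Complex.norm_real, ← norm_mul] at k3
  refine le_trans (le_of_eq ?_) (k3.trans ((div_le_comm₀ Z0 hε).2 Z1))
  congr 1
  dsimp only
  rw [Fintype.sum_prod_type, sum_coe_sort s fun w => ∑ ω : (Fin r × Bool → J) × (Fin r → G),
    ((a w.1 * b w.1 * σ ^ (2 * (w.1 + 1)) / Z / Fintype.card ((Fin r × Bool → J) × (Fin r → G))
      : ℝ) : ℂ) * (B (x j * tl z v U x ω.1 ω.2 w.2) (x j * tl z v U x ω.1 ω.2 w.2)
          - B (x o * tl z v U x ω.1 ω.2 w.2) (x o * tl z v U x ω.1 ω.2 w.2)), sum_sigma, mul_sum]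
  refine sum_congr rfl fun n _ => ?_
  rw [diag_eq, mul_sum, mul_sum, mul_sum]
  refine sum_congr rfl fun w _ => ?_
  have : (Fintype.card J : ℂ) ≠ 0 := by exact_mod_cast J0.ne'
  rw [← mul_sum, expect_eq_sum_div_card, card_univ]
  push_cast
  field_simp

theorem params {t Kb L C : ℝ} (t0 : 0 ≤ t) (hK : 0 ≤ Kb) (hL : 0 ≤ L) (hC : 0 ≤ C) (N m : ℕ) :
    ∃ (δ σ η : ℝ) (r : ℕ), 0 < η ∧ 0 ≤ σ ∧ σ ≤ δ / 2 ∧ δ ≤ 1 / 4 ∧ C * δ ≤ 1 ∧
      σ ^ 2 * (2 * r - 1) = 1 ∧ 2 * ((N : ℝ) + 1) ^ 2 ≤ r ∧ err t 1 1 σ η r m ≤ δ ∧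
        err t Kb L σ η r m ≤ δ := by
  obtain ⟨δ, δ0, δ1⟩ := small_exists (C := 4 + C) (by positivity) one_pos
  obtain ⟨σ', σ0, σ1⟩ := small_exists (C := 1 + (L + 1) * t ^ 2 * (2 * m) ^ m) (by positivity)
    (half_pos δ0)
  obtain ⟨r, hr⟩ := exists_nat_ge (1 / σ' ^ 2 + 2 * (N + 1) ^ 2)
  have r0 : 0 < 1 / σ' ^ 2 := by positivity
  have N0 : (0 : ℝ) ≤ N := N.cast_nonneg
  have r1 : (1 : ℝ) ≤ r := by nlinarith
  obtain ⟨η, η0, η1⟩ := small_exists (C := (2 * r) ^ m *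
    ((Kb + 1) * t ^ 2 + 3 * (L + 1) * t * (t + 1))) (by positivity) (half_pos δ0)
  obtain ⟨σ, s0, s1⟩ : ∃ σ : ℝ, 0 ≤ σ ∧ σ ^ 2 * (2 * r - 1) = 1 := ⟨(√(2 * r - 1))⁻¹,
    by positivity, by rw [inv_pow, Real.sq_sqrt (by linarith), inv_mul_cancel₀ (by linarith)]⟩
  have s2 : σ ≤ σ' := by
    refine le_of_sq_le_sq ?_ σ0.le
    have : 1 / σ' ^ 2 ≤ 2 * r - 1 := by nlinarith
    rw [div_le_iff₀ (by positivity)] at this
    refine le_of_mul_le_mul_right (a := (2 * r - 1 : ℝ)) ?_ (by linarith)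
    linarith
  have q : 0 ≤ (L + 1) * t ^ 2 * (2 * m) ^ m * σ' := by positivity
  have q' := mul_nonneg hC δ0.le
  have he : ∀ K' L', 0 ≤ K' → K' ≤ Kb + 1 → 0 ≤ L' → L' ≤ L + 1 → err t K' L' σ η r m ≤ δ :=
    fun K' L' k0 k1 l0 l1 => by
      have b1 : L' * t ^ 2 * ((2 * m) ^ m * σ) ≤ (L + 1) * t ^ 2 * ((2 * m) ^ m * σ') := by gcongr
      have b2 : (2 * r) ^ m * ((K' * t ^ 2 + 3 * L' * t * (t + 1)) * η) ≤ (2 * r) ^ m *
        (((Kb + 1) * t ^ 2 + 3 * (L + 1) * t * (t + 1)) * η) := by gcongr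
      rw [err]
      linarith
  exact ⟨δ, σ, η, r, η0, s0, by linarith, by linarith, by linarith, s1, by linarith,
    he 1 1 zero_le_one (by linarith) zero_le_one (by linarith),
    he Kb L hK (by linarith) hL (by linarith)⟩

theorem mainII (hC : ChebStmt) (hT : TruncStmt) (hD : DesignStmt) (hF : FramesStmt.{u, v})
    (hP : PairStmt.{u, v}) : MainIIStmt.{u, v} := by
  intro A E _ _ _ _ _ τ Λ z h hz hc hs hH J _ x o hx Kb L ε hK hL hε
  classical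
  have : Nonempty J := ⟨o⟩
  obtain ⟨M, hM⟩ : ∃ M, M = 2 * ‖Λ 1‖ + 1 := ⟨_, rfl⟩
  have M0 : 0 ≤ M := by rw [hM]; positivity
  obtain ⟨N, a, b, c, a0, a1, c1, c2, c3⟩ :=
    hC (2 * Fintype.card J * (Kb * 100 * ((2 * M) ^ 2 + 1) + 2) / ε)
  have α0 : 0 ≤ ∑ n ∈ range N, |a n| := sum_nonneg fun _ _ => abs_nonneg _
  have β0 : 0 ≤ ∑ n ∈ range N, |b n| := sum_nonneg fun _ _ => abs_nonneg _
  obtain ⟨ε', ε0, ε1⟩ := small_exists (C := L * (2 * M) * ((∑ n ∈ range N, |b n|) * (2 * M)))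
    (by positivity) one_pos
  obtain ⟨p, c4⟩ := hT _ (ε' ^ 2) (by positivity)
  obtain ⟨δ, σ, η, r, η0, s0, s2, δ1, δ2, s1, hr, e1, e2⟩ := params (norm_nonneg (Λ 1)) hK hL
    (C := ((∑ n ∈ range N, |c n|) ^ 2 + (∑ n ∈ range N, |a n|) * ∑ n ∈ range N, |b n|) *
      (1 + 16 * (L + 1) * M ^ 2)) (by positivity) N (2 * (N + p) + 2)
  obtain ⟨I, _, _, _, g, v, hv, hfl⟩ := hF A E τ Λ z h hz hc hs hH J x hx r η η0
  obtain ⟨G, _, U, hU⟩ := hD I
  have S : ∀ θ : Fin r × Bool → J, Setup τ Λ z g v U (x ∘ θ) η := fun θ =>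
    ⟨h, hz, hc, hs, hv, hU, fun _ => hx _, η0.le, fun s t c => hfl _ _ c _ _⟩
  obtain ⟨Ω, _, P, u, h1, h2, h3, h4⟩ := dist_of S o hε (by positivity) a0 a1 s1 hr
  refine ⟨Ω, inferInstance, P, u, h1, h2, h3, fun B hB j => h4 B j ?_⟩
  have r1 : 1 ≤ r := by
    have N0 : (0 : ℝ) ≤ N := N.cast_nonneg
    exact_mod_cast (by nlinarith : (1 : ℝ) ≤ r)
  rw [← Fintype.card_fin r] at s1 e1 e2 r1
  refine (core hP S hK hL hB s0 s2 δ1 s1 r1
    (κ := fun i => (if i = j then 1 else 0) - if i = o then 1 else 0) (by simp [sum_sub_distrib])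
    (fun i => by split_ifs <;> simp) ε0.le (Nat.le_add_right N p) (Nat.le_add_left p N) c1 c2 c3 c4
    e1 e2 hM).trans ?_
  have δ0 : 0 ≤ δ := by linarith
  generalize ∑ n ∈ range N, |a n| = α at *
  generalize ∑ n ∈ range N, |b n| = β at *
  generalize ∑ n ∈ range N, |c n| = κ at *
  have q1 : 0 ≤ κ ^ 2 * (δ * (1 + 16 * (L + 1) * M ^ 2)) := by positivity
  have q2 : 0 ≤ α * β * (δ * (1 + 16 * (L + 1) * M ^ 2)) := by positivity
  have q3 : κ ^ 2 * (δ * (1 + 16 * (L + 1) * M ^ 2)) ≤ 1 := by linarith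
  have := mul_le_mul_of_nonneg_left q3 (by positivity : 0 ≤ Kb * 100)
  linarith

end Vale.Agent.P082
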