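import Vale.Agent.P082.Cover
import Vale.Agent.P104.Trace

/-! The structure theorem for central projections. -/

namespace Vale.Agent.P082

open scoped InnerProductSpace ComplexOrder
open Filter Topology Vale.Agent.P104 Finset

universe u

variable {K : Type u} [NormedAddCommGroup K] [InnerProductSpace ℂ K] [CompleteSpace K]
  {M : VonNeumannAlgebra K}

theorem pi_of_init {A : Type*} [CStarAlgebra A] {w : A} (h : IsStarProjection (star w * w)) :
    w * star w * w = w := by
  have : star (w * star w * w - w) * (w * star w * w - w) = 0 := by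
    have e := h.1.eq
    simp only [star_sub, star_mul, star_star, sub_mul, mul_sub, mul_assoc] at e ⊢
    rw [e, e, sub_self]
  exact sub_eq_zero.1 ((CStarRing.star_mul_self_eq_zero_iff _).1 this)

theorem cover_fam {e p : Alg M} (he : IsStarProjection e) (he0 : e ≠ 0) (hp : Cen p)
    (hpe : p * e = e) (S₀ : Set (Alg M)) (h1 : ∀ w ∈ S₀, star w * w = e)
    (h2 : S₀.Pairwise fun w w' => star w * w' = 0) :
    ∃ (S : Set (Alg M)) (u : Option S → Alg M) (z : Alg M), S₀ ⊆ S ∧ Cen z ∧ z ≠ 0 ∧ p * z = z ∧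
      (∀ w : S, star (u (some w)) * u (some w) = e) ∧
      (∀ o, u o * e = u o ∧ u o * star (u o) * u o = u o) ∧
      (∀ o o', o ≠ o' → star (u o) * u o' = 0) ∧ SSum (fun o => u o * star (u o) * z) z ∧
      ∀ y, (∀ x, y * x * (e - star (u none) * u none) = 0) → y * z = 0 := by
  have pi : ∀ w : Alg M, star w * w = e → w * star w * w = w := fun w h => pi_of_init (h ▸ he)
  obtain ⟨S, r, S0, S1, S2, r1, r2, r3⟩ := max_fam (fun w => star w * w = e) pi S₀ h1 h2
  obtain ⟨w, w1, w2, w3, w4⟩ := max_pi r1.one_sub he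
  have w5 : e * star w = star w := by rw [← he.2.star_eq, ← star_mul, w3]
  have w6 : r * w = 0 := by rw [← w2, ← mul_assoc, mul_sub, r1.1.eq, mul_one, sub_self, zero_mul]
  have p2 := (pi_init w1).sub_of_mul_eq_right he (by rw [← mul_assoc, w5])
  obtain ⟨z, z1, z2, z3⟩ := exists_supp p2
  obtain ⟨u, hu⟩ : ∃ u : Option S → Alg M, u = fun o => o.elim w Subtype.val := ⟨_, rfl⟩
  have u0 : u none = w := by rw [hu]; rfl
  have us : ∀ v : S, u (some v) = v.1 := fun v => by rw [hu]; rfl
  have u1 : ∀ o, u o * e = u o ∧ u o * star (u o) * u o = u o := by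
    rintro (_ | v)
    · rw [u0]; exact ⟨w3, w1⟩
    · rw [us]
      have := pi _ (S1 _ v.2).1
      exact ⟨by rw [← (S1 _ v.2).1, ← mul_assoc, this], this⟩
  have o : ∀ v : S, star v.1 * w = 0 := fun v => by
    rw [← (S1 _ v.2).2, star_mul, r1.2.star_eq, mul_assoc, w6, mul_zero]
  have u2 : ∀ o o', o ≠ o' → star (u o) * u o' = 0 := by
    rintro (_ | v) (_ | v') c
    · exact absurd rfl c
    · rw [u0, us]; simpa using star_eq_zero_mul (o v')
    · rw [u0, us]; exact o v
    · rw [us, us]; exact S2 v.2 v'.2 fun h => c (congrArg some (Subtype.ext h))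
  obtain ⟨t, t1, t2, t3⟩ := exists_psum (fun o => u o * star (u o)) (fun o => pi_fin (u1 o).2)
    fun o o' c => by rw [mul_assoc, ← mul_assoc (star _), u2 o o' c, zero_mul, mul_zero]
  have t4 : ∀ o, (1 - t) * (u o * star (u o)) = 0 := fun o => by rw [sub_mul, t3, one_mul, sub_self]
  have t5 : (1 - t) * r = 0 := (r2.mul_left _).unique (ssum_zero fun v => by rw [← us, t4])
  have t6 : (1 - t) * z = 0 := z3 _ fun x => by
    have : (1 - t) * (1 - r - w * star w) = 1 - t := by
      rw [mul_sub, mul_sub, t5, ← u0, t4, mul_one, sub_zero, sub_zero]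
    rw [← this, mul_assoc (1 - t), mul_assoc (1 - t), w4, mul_zero]
  rw [sub_mul, one_mul, sub_eq_zero] at t6
  refine ⟨S, u, z, S0, z1, fun c => ?_, ?_, fun v => by rw [us]; exact (S1 _ v.2).1, u1, u2,
    by simpa only [← t6] using t1.mul_right z, u0 ▸ z3⟩
  · rw [c, zero_mul, eq_comm, sub_eq_zero] at z2
    have := r3 w z2.symm w6
    rw [this, mul_zero] at z2
    exact he0 z2
  · have := z3 (1 - p) fun x => by
      have : p * (e - star w * w) = e - star w * w := by
        rw [← w5, mul_sub, hpe, ← mul_assoc, ← mul_assoc, hpe]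
      rw [← this, ← mul_assoc, mul_assoc _ x, ← hp.comm, ← mul_assoc, sub_mul, hp.proj.1.eq,
        one_mul, sub_self, zero_mul, zero_mul]
    rw [sub_mul, one_mul, sub_eq_zero] at this
    exact this.symm

theorem copA_of {ι : Type u} [Infinite ι] {e z : Alg M} (hz : Cen z) {u : Option ι → Alg M}
    (h1 : ∀ w, star (u (some w)) * u (some w) = e)
    (h2 : ∀ o, u o * e = u o ∧ u o * star (u o) * u o = u o)
    (h3 : ∀ o o', o ≠ o' → star (u o) * u o' = 0) (h4 : SSum (fun o => u o * star (u o) * z) z) :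
    CopA z := by
  classical
  obtain ⟨φ⟩ : Nonempty (ι × Option ι ↪ ι) := by
    have := Cardinal.aleph0_le_mk ι
    rw [← Cardinal.le_def, Cardinal.mk_prod, Cardinal.lift_id, Cardinal.lift_id,
      Cardinal.mk_option, Cardinal.add_one_eq this, Cardinal.mul_eq_self this]
  obtain ⟨a, ha⟩ : ∃ a : ι → Option ι → Alg M, ∀ j o, a j o = u (some (φ (j, o))) * star (u o) * z :=
    ⟨_, fun _ _ => rfl⟩
  have a1 : ∀ j o k o', star (a j o) * a k o' =
      if (j, o) = (k, o') then u o * star (u o) * z else 0 := fun j o k o' => by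
    rw [ha, ha, star_mul, star_mul, star_star, hz.proj.2.star_eq]
    have : z * (u o * star (u (some (φ (j, o))))) * (u (some (φ (k, o'))) * star (u o') * z) =
        u o * (star (u (some (φ (j, o)))) * u (some (φ (k, o')))) * star (u o') * (z * z) := by
      rw [hz.comm]
      simp only [mul_assoc]
      rw [hz.comm]
      simp only [mul_assoc]
    rw [this, hz.proj.1.eq]
    split_ifs with c
    · cases c
      rw [h1, (h2 o).1]
    · rw [h3 _ _ fun d => c (φ.injective (Option.some_injective _ d)), mul_zero, zero_mul, zero_mul]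
  have q1 : ∀ o, IsStarProjection (u o * star (u o) * z) := fun o =>
    (pi_fin (h2 o).2).mul hz.proj (hz.comm _).symm
  have hs : ∀ j, ∃ s, SSum (a j) s := fun j => exists_ssum _
    (fun o o' c => by rw [a1, if_neg (by simpa using c)]) fun s => norm_le_one_of_proj (by
      rw [star_sum, sum_mul_sum, sum_congr rfl fun o ho => sum_eq_single o
        (fun o' _ c => by rw [a1, if_neg (by simpa using c.symm)]) fun c => absurd ho c]
      simp only [a1, if_true]
      exact proj_sumA s _ q1 fun o o' c => by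
        rw [mul_assoc, hz.comm, ← mul_assoc, ← mul_assoc, ← mul_assoc, mul_assoc (u o), h3 o o' c]
        simp)
  choose s hs using hs
  have s1 : ∀ j k o, star (a j o) * s k = if j = k then u o * star (u o) * z else 0 := fun j k o => by
    have := ((hs k).mul_left (star (a j o))).unique (ssum_single o fun o' c => by
      rw [a1, if_neg (by simp [c.symm])])
    rw [this, a1]
    simp
  refine ⟨fun n => s (Infinite.natEmbedding ι n), fun j => (hs _).star_mul h4 fun o => ?_,
    fun j k c => (hs _).star_mul (ssum_zero (v := fun _ => 0) fun _ => rfl) fun o => ?_⟩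
  · rw [s1, if_pos rfl]
  · rw [s1, if_neg fun d => c ((Infinite.natEmbedding ι).injective d)]

theorem typeI_of {ι : Type u} [Finite ι] {e z : Alg M} (he : IsStarProjection e) (hz : Cen z)
    {u : Option ι → Alg M} (h1 : ∀ w, star (u (some w)) * u (some w) = e)
    (h2 : ∀ o, u o * e = u o ∧ u o * star (u o) * u o = u o)
    (h3 : ∀ o o', o ≠ o' → star (u o) * u o' = 0) (h4 : SSum (fun o => u o * star (u o) * z) z)
    (h5 : ∀ y, (∀ x, y * x * (e - star (u none) * u none) = 0) → y * z = 0)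
    (ha : ∀ x y, e * x * e * (e * y * e) = e * y * e * (e * x * e)) : TypeI z := by
  classical
  have := Fintype.ofFinite ι
  have zz := hz.proj.1.eq
  have f1 : e * star (u none) = star (u none) := by rw [← he.2.star_eq, ← star_mul, (h2 _).1]
  have f2 : e * (star (u none) * u none) * e = star (u none) * u none := by
    rw [← mul_assoc, f1, mul_assoc, (h2 _).1]
  have f3 : u none * z = 0 := by
    have := h5 (star (u none) * u none) fun x => by
      have e1 : e * (e - star (u none) * u none) = e - star (u none) * u none := by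
        rw [mul_sub, he.1.eq, ← mul_assoc, f1]
      have e2 := ha (star (u none) * u none) x
      rw [f2] at e2
      have e3 : star (u none) * u none * e = star (u none) * u none := by rw [mul_assoc, (h2 _).1]
      calc _ = star (u none) * u none * (e * x * e) * (e - star (u none) * u none) := by
            rw [mul_assoc _ (e * x * e), mul_assoc _ e, e1, ← mul_assoc, ← mul_assoc, e3]
        _ = 0 := by
            rw [e2, mul_assoc, mul_sub, e3, (pi_init (h2 _).2).1.eq, sub_self, mul_zero]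
    rw [← (h2 none).2, mul_assoc (u none), mul_assoc, this, mul_zero]
  have f4 : ∑ w, u (some w) * star (u (some w)) * z = z := by
    have := ssum_fin.unique h4
    rwa [Fintype.sum_option, mul_assoc, ← hz.comm, ← mul_assoc, f3, zero_mul, zero_add] at this
  have c : ∀ x y, x * z * (y * z) = x * y * z := fun x y => by
    rw [mul_assoc, ← mul_assoc z, hz.comm y, mul_assoc y, zz, mul_assoc]
  have sz : ∀ x : Alg M, star (x * z) = star x * z := fun x => by
    rw [star_mul, hz.proj.2.star_eq, hz.comm]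
  refine ⟨Fin (Fintype.card ι), inferInstance, inferInstance,
    fun i => u (some ((Fintype.equivFin ι).symm i)) * z, e * z,
    ⟨by rw [sz, he.2.star_eq], by rw [c, he.1.eq], fun i j => ?_, ?_, fun i => ?_⟩, fun x y => ?_⟩
  · rw [sz, c]
    split_ifs with d
    · rw [d, h1]
    · rw [h3 _ _ (by simpa using d), zero_mul]
  · simp only [sz, c]
    rw [(Fintype.equivFin ι).symm.sum_comp fun w => u (some w) * star (u (some w)) * z, f4]
  · rw [c, (h2 _).1]
  · have k : ∀ x, e * z * x * (e * z) = e * x * e * z := fun x => by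
      rw [mul_assoc e z, hz.comm, ← mul_assoc e, c]
    rw [k, k, c, c, ha]

theorem exists_vtrace {e : K →L[ℂ] K} (he : e ∈ M) (hep : IsStarProjection e) {Ω : K}
    (h : TwoTracial M e Ω) : ∃ ω : K, (∀ x ∈ relComm M e, ∀ y ∈ relComm M e,
      ⟪ω, (x * y) Ω⟫_ℂ = ⟪ω, (y * x) Ω⟫_ℂ) ∧ ∀ x ∈ relComm M e,
        ‖x Ω‖ ^ 2 ≤ 2 * (⟪ω, (star x * x) Ω⟫_ℂ).re ∧ (⟪ω, (star x * x) Ω⟫_ℂ).im = 0 := by
  let S : StarSubalgebra ℂ (K →L[ℂ] K) := (relComm M e).toStarSubalgebra
  have hS : IsClosed (S : Set (K →L[ℂ] K)) := vn_isClosed (relComm M e)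
  let j₀ : S →ₗ[ℂ] K :=
    { toFun := fun x => x.1 Ω
      map_add' := fun _ _ => rfl
      map_smul' := fun _ _ => rfl }
  let U : Submodule ℂ K := j₀.range.topologicalClosure
  let j : S →ₗ[ℂ] U := j₀.codRestrict U fun x =>
    Submodule.le_topologicalClosure _ (LinearMap.mem_range_self _ x)
  have hd : DenseRange j := by
    rw [DenseRange, Subtype.dense_iff]
    intro z hz
    refine closure_mono ?_ hz
    rintro _ ⟨x, rfl⟩
    exact ⟨j x, ⟨x, rfl⟩, rfl⟩
  obtain ⟨ω, h1, h2⟩ := trace_of_cyclic j hd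
    (fun x y => by
      show ⟪x.1 Ω, y.1 Ω⟫_ℂ = ⟪Ω, star x.1 (y.1 Ω)⟫_ℂ
      rw [inner_star_right])
    (fun x v => two_unitary he hep h v.1.2 (congrArg Subtype.val (Unitary.mem_iff.1 v.2).2) x.2)
  exact ⟨ω, fun x hx y hy => h1 ⟨x, hx⟩ ⟨y, hy⟩, fun x hx => h2 ⟨x, hx⟩⟩

theorem two_sep {e x : Alg M} (he : IsStarProjection e) {Ω : K} (h : TwoTracial M e.1 Ω)
    (hx : x * e = x) (h0 : x.1 Ω = 0) : x = 0 := by
  rw [← hx]
  refine Subtype.ext (ContinuousLinearMap.ext fun ξ => ?_)
  have h1 := h.cyc (e.1 ξ) (congrArg (fun T : Alg M => T.1 ξ) he.1.eq)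
  refine (closure_minimal (t := {η | x.1 η = 0}) ?_
    (isClosed_eq x.1.continuous continuous_const)) h1
  rintro _ ⟨y, hy, rfl⟩
  change (x.1 * y) Ω = 0
  rw [commute_of_mem (M := M) x.2 hy, mul_apply_eq_comp, h0, map_zero]

theorem typeII_of {ι : Type u} [Fintype ι] {e z : Alg M} (he : IsStarProjection e) (hz : Cen z)
    {u : ι → Alg M} (h2 : ∀ o, u o * e = u o) (h4 : ∑ o, u o * star (u o) * z = z) {Ω : K}
    (h : TwoTracial M e.1 Ω) (hH : HalvA z) : TypeII z := by
  obtain ⟨ω, h5, h6⟩ := exists_vtrace (M := M) e.2 (proj_coe.1 he) h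
  have zz := hz.proj.1.eq
  obtain ⟨y, hy⟩ : ∃ y : Alg M → ι → ι → Alg M, ∀ x i j, y x i j = star (u i) * x * u j * z :=
    ⟨_, fun _ _ _ => rfl⟩
  have y1 : ∀ x i j, y x i j * e = y x i j := fun x i j => by
    rw [hy, mul_assoc, hz.comm, ← mul_assoc, mul_assoc _ _ e, h2]
  have y2 : ∀ x i j, (y x i j).1 ∈ relComm M e.1 := fun x i j => by
    refine (mem_relComm (proj_coe.1 he).2).2 ⟨(y x i j).2, congrArg Subtype.val (?_ : e * _ = _ * e)⟩
    rw [y1, hy, ← mul_assoc, ← mul_assoc, ← mul_assoc, ← he.2.star_eq, ← star_mul, h2]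
  have y3 : ∀ x x' i k, y (x * x') i k = ∑ j, y x i j * y x' j k := fun x x' i k => by
    have : ∀ j, y x i j * y x' j k = star (u i) * x * (u j * star (u j) * z) * (x' * u k * z) :=
      fun j => by
        rw [hy, hy, mul_assoc _ z, ← mul_assoc z, ← mul_assoc z, ← mul_assoc z, hz.comm]
        simp only [mul_assoc]
    simp only [this, ← sum_mul, ← mul_sum, h4]
    rw [hy, mul_assoc _ z, hz.comm, mul_assoc _ z z, zz]
    simp only [mul_assoc]
  have y4 : ∀ x i j, y (star x) i j = star (y x j i) := fun x i j => by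
    rw [hy, hy, star_mul, star_mul, star_mul, star_star, hz.proj.2.star_eq, hz.comm, mul_assoc,
      mul_assoc, mul_assoc, mul_assoc]
  let t : Alg M →ₗ[ℂ] ℂ :=
    { toFun := fun x => ∑ i, ⟪ω, (y x i i).1 Ω⟫_ℂ
      map_add' := fun a b => by simp [hy, mul_add, add_mul, inner_add_right, sum_add_distrib]
      map_smul' := fun c a => by simp [hy, inner_smul_right, mul_sum] }
  have t0 : ∀ x, t x = ∑ i, ⟪ω, (y x i i).1 Ω⟫_ℂ := fun _ => rfl
  have t1 : ∀ x x', t (x * x') = ∑ i, ∑ j, ⟪ω, ((y x i j).1 * (y x' j i).1) Ω⟫_ℂ := fun x x' => by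
    simp [t0, y3, inner_sum]
  have t2 : ∀ x, t (star x * x) = ∑ i, ∑ j, ⟪ω, (star (y x j i).1 * (y x j i).1) Ω⟫_ℂ := fun x => by
    simp only [t1, y4]
    rfl
  have t3 : ∀ x i j, 0 ≤ ⟪ω, (star (y x j i).1 * (y x j i).1) Ω⟫_ℂ := fun x i j => by
    obtain ⟨a, b⟩ := h6 _ (y2 x j i)
    exact ⟨by simp only [Complex.zero_re]; nlinarith [sq_nonneg ‖(y x j i).1 Ω‖], b.symm⟩
  let τ : Alg M →ₚ[ℂ] ℂ := .mk₀ t fun a ha => by
    obtain ⟨s, rfl⟩ := CStarAlgebra.nonneg_iff_eq_star_mul_self.1 ha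
    rw [t2]
    exact sum_nonneg fun i _ => sum_nonneg fun j _ => t3 s i j
  refine ⟨hH, τ, ⟨Fin (Fintype.card ι), inferInstance,
    fun i => (u ((Fintype.equivFin ι).symm i) * z).1 Ω, fun i => (u ((Fintype.equivFin ι).symm i)).1 ω,
    fun a => ?_⟩, fun x x' => ?_, fun x => ?_, fun x hx => ?_⟩
  · rw [(Fintype.equivFin ι).symm.sum_comp fun i => ⟪(u i).1 ω, a.1 ((u i * z).1 Ω)⟫_ℂ]
    refine sum_congr rfl fun i _ => ?_
    rw [← inner_star_right, hy]
    rfl
  · change t _ = t _
    rw [t1, t1, sum_comm]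
    exact sum_congr rfl fun i _ => sum_congr rfl fun j _ => h5 _ (y2 _ _ _) _ (y2 _ _ _)
  · change t _ = t _
    simp only [t0, hy]
    refine sum_congr rfl fun i _ => ?_
    rw [← mul_assoc _ x z, mul_assoc _ z, hz.comm, ← mul_assoc, mul_assoc _ z z, zz]
  · change t _ = 0 at hx
    rw [t2, sum_eq_zero_iff_of_nonneg fun i _ => sum_nonneg fun j _ => t3 x i j] at hx
    have k : ∀ i j, y x j i = 0 := fun i j => by
      have a := (sum_eq_zero_iff_of_nonneg fun j _ => t3 x i j).1 (hx i (mem_univ _)) j (mem_univ _)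
      have b := (h6 _ (y2 x j i)).1
      rw [a, Complex.zero_re, mul_zero] at b
      exact two_sep he h (y1 _ _ _) (norm_eq_zero.1 (by nlinarith [norm_nonneg ((y x j i).1 Ω)]))
    have : ∀ i j, u j * star (u j) * z * x * (u i * star (u i) * z) = u j * y x j i * star (u i) * z :=
      fun i j => by
        rw [hy, mul_assoc _ z x, hz.comm x, ← mul_assoc _ x, mul_assoc _ z, ← mul_assoc z,
          ← mul_assoc z, hz.comm (u i)]
        simp only [mul_assoc]
    calc x * z = z * x * z := by rw [hz.comm, mul_assoc, zz]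
      _ = ∑ i, ∑ j, u j * star (u j) * z * x * (u i * star (u i) * z) := by
        simp only [← sum_mul, ← mul_sum, h4]
      _ = 0 := by simp [this, k]

theorem struct : StructStmt M := by
  intro p hp hp0
  have pp := proj_coe.1 hp.proj
  have p0 : p.1 ≠ 0 := fun h => hp0 (Subtype.ext h)
  have key : ∃ e : Alg M, IsStarProjection e ∧ e ≠ 0 ∧ p * e = e ∧ (AbelianProj M e.1 ∨
      Copies M e.1 ∨ (Halving M p.1 ∧ ∃ Ω, TwoTracial M e.1 Ω)) := by
    by_cases hab : ∃ e ∈ M, IsStarProjection e ∧ e ≠ 0 ∧ p.1 * e = e ∧ AbelianProj M e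
    · obtain ⟨e, h1, h2, h3, h4, h5⟩ := hab
      exact ⟨⟨e, h1⟩, proj_coe.2 h2, fun h => h3 (congrArg Subtype.val h), Subtype.ext h4, .inl h5⟩
    have hH : Halving M p.1 := halving_of_no_abelian fun e h1 h2 h3 h4 h5 =>
      hab ⟨e, h1, h2, h3, h4, h5⟩
    obtain ⟨e, h1, h2, h3, h4, h5⟩ := trichotomy (M := M) p.1 p.2 pp p0
    exact ⟨⟨e, h1⟩, proj_coe.2 h2, fun h => h3 (congrArg Subtype.val h), Subtype.ext h4,
      h5.imp_right fun h => h.imp_right fun h => ⟨hH, h.2⟩⟩
  obtain ⟨e, he, he0, hpe, h⟩ := key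
  rcases h with h | ⟨s, s1, s2, s3⟩ | ⟨hH, Ω, h⟩
  · obtain ⟨S, u, z, -, z1, z2, z3, u1, u2, u3, u4, u5⟩ := cover_fam he he0 hp hpe ∅ (by simp) (by simp)
    refine ⟨z, z1, z2, z3, ?_⟩
    cases finite_or_infinite S
    · exact .inr (.inl (typeI_of he z1 u1 u2 u3 u4 u5 fun x y => Subtype.ext (h _ x.2 _ y.2)))
    · exact .inl (copA_of z1 u1 u2 u3 u4)
  · let s' : ℕ → Alg M := fun j => ⟨s j, s1 j⟩
    have t2 : ∀ j, star (s' j) * s' j = e := fun j => Subtype.ext (s2 j)
    have t3 : ∀ j k, j ≠ k → star (s' j) * s' k = 0 := fun j k c => Subtype.ext (s3 j k c)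
    obtain ⟨S, u, z, z0, z1, z2, z3, u1, u2, u3, u4, -⟩ := cover_fam he he0 hp hpe (Set.range s')
      (by rintro _ ⟨j, rfl⟩; exact t2 j) (by
        rintro _ ⟨j, rfl⟩ _ ⟨k, rfl⟩ c
        exact t3 j k fun d => c (by rw [d]))
    have : Infinite S := ((Set.infinite_range_of_injective fun j k c => by
      by_contra d
      have := t3 j k d
      rw [c, t2] at this
      exact he0 this).mono z0).to_subtype
    exact ⟨z, z1, z2, z3, .inl (copA_of z1 u1 u2 u3 u4)⟩
  · obtain ⟨S, u, z, -, z1, z2, z3, u1, u2, u3, u4, -⟩ := cover_fam he he0 hp hpe ∅ (by simp) (by simp)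
    refine ⟨z, z1, z2, z3, ?_⟩
    cases finite_or_infinite S
    · have := Fintype.ofFinite (Option S)
      refine .inr (.inr (typeII_of he z1 (fun o => (u2 o).1) (ssum_fin.unique u4) h
        fun g g1 g2 g3 => ?_))
      have g4 : p * g = g := by rw [← g3, ← mul_assoc, z3]
      obtain ⟨w, w0, w1, w2, w3⟩ := hH g.1 g.2 (proj_coe.1 ⟨g2, g1⟩) (congrArg Subtype.val g4)
      exact ⟨⟨w, w0⟩, Subtype.ext w1, Subtype.ext w2, Subtype.ext w3⟩
    · exact .inl (copA_of z1 u1 u2 u3 u4)

end Vale.Agent.P082
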