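import Vale.Agent.P082.Bar
import Vale.Agent.P082.Copies
import Vale.Agent.P082.Frames
import Vale.Agent.P082.MainII
import Vale.Agent.P082.Cut
import Vale.Agent.P082.Glue
import Vale.Agent.P082.Struct
import Vale.Agent.P082.Cheb

/-! The vanishing theorem. -/

namespace Vale.Agent.P082

open Vale.Agent.P104

universe u

variable {K : Type u} [NormedAddCommGroup K] [InnerProductSpace ℂ K] [CompleteSpace K]
  (M : VonNeumannAlgebra K)

theorem vanish (hCB : AvgCBStmt M) (k : ℕ)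
    (f : ContinuousMultilinearMap ℂ (fun _ : Fin (k + 1) => Alg M) (Alg M))
    (hf : ∀ a, hochD f a = 0) :
    ∃ g : ContinuousMultilinearMap ℂ (fun _ : Fin k => Alg M) (Alg M), ∀ a, f a = hochD g a := by
  have h1 : ‖(1 : Alg M)‖ ≤ 1 := alg_norm_one
  obtain ⟨F, C, hC0, hF, hc, hfin⟩ := barStmt (Alg M) h1 k f hf
  refine hfin ((k + 3) * C) (glue F _ _ (by positivity) fun p hp hp0 => ?_)
  obtain ⟨z, hz, hz0, hpz, h⟩ := struct p hp hp0
  refine ⟨z, hz, hz0, hpz, ?_⟩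
  have key : (∃ ρ, Avg (fun (ψ : Alg M →L[ℂ] Alg M) c => ‖ψ‖ ≤ c) ρ z) →
      Sol F (k + 1) z ((k + 3) * C) := fun ⟨ρ, hρ⟩ => by
    obtain ⟨β, hβ, h2⟩ := solAvg hC0 gauge_norm hρ hz.comm hF hc (slices_norm h1 hC0 hF)
    exact ⟨β, hβ.mono (by nlinarith [(k.cast_nonneg : (0 : ℝ) ≤ k)]), h2⟩
  rcases h with h | h | h
  · obtain ⟨G, H, hG1, hG2, hG3, hH1, hH2⟩ := copies M z F k C hC0 hz h hF hc
    obtain ⟨hg, ρ, hρ⟩ := hCB
    obtain ⟨β, hβ, h2⟩ := solAvg hC0 hg hρ (by simp) hG1 hG2 hG3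
    refine ⟨_, (hβ.sub hH1).mono (le_of_eq (by ring)), fun l hl => ?_⟩
    rw [bd_add, h2 l hl, hH2 l hl, mul_one, sub_sub_cancel]
  · exact key (avgI approxStmt z hz h)
  · exact key (avgII approxStmt (mainII cheb trunc design frames pairStmt) z hz h)

end Vale.Agent.P082
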