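import Vale.Agent.P082.Cover

/-! Gluing solutions over orthogonal central projections, and limits of approximate averages. -/

namespace Vale.Agent.P082

open scoped InnerProductSpace
open Filter Topology Vale.Agent.P104 Finset

universe u

variable {K : Type u} [NormedAddCommGroup K] [InnerProductSpace ℂ K] [CompleteSpace K]
  {M : VonNeumannAlgebra K}

namespace Glue

theorem bd_mul {A : Type*} [NormedRing A] (l : List A) (G : List A → A) (w : A) :
    Bd l (fun x => G x * w) = Bd l G * w := by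
  induction l generalizing G with
  | nil => simp [Bd]
  | cons y l ih =>
    cases l with
    | nil => simp [Bd]
    | cons y' l =>
      simp only [Bd]
      rw [ih (fun w => G (y :: w)), sub_mul]

theorem prod_nn {A : Type*} [NormedRing A] (l : List A) : 0 ≤ (l.map norm).prod :=
  List.prod_nonneg (by simp +contextual)

theorem norm_diag {A ι : Type*} [CStarAlgebra A] [PartialOrder A] [StarOrderedRing A]
    (s : Finset ι) (p a : ι → A) (hp : ∀ i, IsStarProjection (p i))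
    (hc : ∀ i x, p i * x = x * p i) (ho : ∀ i j, i ≠ j → p i * p j = 0)
    (hs : ∑ i ∈ s, p i ≤ 1) {c : ℝ} (c0 : 0 ≤ c) (ha : ∀ i, ‖a i‖ ≤ c) :
    ‖∑ i ∈ s, a i * p i‖ ≤ c := by
  refine le_of_sq_le_sq (norm_sq_le_of_le (by positivity) ?_) c0
  have e : star (∑ i ∈ s, a i * p i) * ∑ i ∈ s, a i * p i =
      ∑ i ∈ s, star (p i) * (star (a i) * a i) * p i := by
    rw [star_sum, sum_mul_sum]
    refine sum_congr rfl fun i hi => ?_
    rw [sum_eq_single i (fun j _ h => ?_) fun h => absurd hi h]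
    · rw [star_mul]; noncomm_ring
    · rw [star_mul, (hp i).2.star_eq, hc, mul_assoc, ← mul_assoc (p i), hc, mul_assoc,
        ho i j h.symm, mul_zero, mul_zero]
  rw [e]
  refine (sum_le_sum (g := fun i => c ^ 2 • p i) fun i _ => ?_).trans ?_
  · refine (conj_le_smul (star_mul_self_le_norm_sq (a i)) _).trans ?_
    rw [(hp i).2.star_eq, (hp i).1.eq]
    exact smul_le_smul_of_nonneg_right (pow_le_pow_left₀ (norm_nonneg _) (ha i) 2) (hp i).nonneg
  · rw [← smul_sum]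
    exact smul_le_smul_of_nonneg_left hs (by positivity)

theorem patch {ι : Type*} (p : ι → Alg M) (hp : ∀ i, Cen (p i))
    (ho : ∀ i j, i ≠ j → p i * p j = 0) (a : ι → Alg M) {c : ℝ} (c0 : 0 ≤ c)
    (ha : ∀ i, ‖a i‖ ≤ c) : ∃ b : Alg M, ‖b‖ ≤ c ∧ ∀ i, b * p i = a i * p i := by
  classical
  have hb : ∀ s : Finset ι, ‖∑ i ∈ s, a i * p i‖ ≤ c := fun s =>
    norm_diag s p a (fun i => (hp i).proj) (fun i => (hp i).comm) ho
      (proj_sumA s p (fun i => (hp i).proj) ho).le_one c0 ha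
  refine ⟨wlim (Ultrafilter.of atTop) fun s : Finset ι => ∑ i ∈ s, a i * p i, wlim_norm_le hb,
    fun i => ?_⟩
  rw [← wlim_mul_right hb, ← wlim_const (U := Ultrafilter.of (atTop : Filter (Finset ι)))
    (a i * p i)]
  refine wlim_congr (C := c * ‖p i‖) (fun s => (norm_mul_le _ _).trans
    (mul_le_mul_of_nonneg_right (hb s) (norm_nonneg _))) (fun _ => le_rfl) ?_
  refine Ultrafilter.of_le _ ((eventually_ge_atTop {i}).mono fun s hs => ?_)
  have hi : i ∈ s := hs (mem_singleton_self i)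
  show _ * _ = _
  rw [sum_mul, sum_eq_single i (fun j _ h => by rw [mul_assoc, ho j i h, mul_zero])
    fun h => absurd hi h, mul_assoc, (hp i).proj.1.eq]

theorem sol_of {ι : Type*} (p : ι → Alg M) (hp : ∀ i, Cen (p i))
    (ho : ∀ i j, i ≠ j → p i * p j = 0) (h1 : SSum p 1) {F : List (Alg M) → Alg M} {n : ℕ} {C : ℝ}
    (hC : 0 ≤ C) (h : ∀ i, Sol F n (p i) C) : Sol F n 1 C := by
  choose β hβ hd using h
  have ext : ∀ a b : Alg M, (∀ i, a * p i = b * p i) → a = b := fun a b e => by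
    simpa using ((h1.mul_left a).congr e).unique (h1.mul_left b)
  choose b hb1 hb2 using fun l : List (Alg M) => patch p hp ho (fun i => β i l)
    (mul_nonneg hC (prod_nn l)) fun i => (hβ i).bdd l
  refine ⟨b, ⟨fun l l' => ⟨fun x y => ext _ _ fun i => ?_, fun t x => ext _ _ fun i => ?_⟩,
    fun x y l => ext _ _ fun i => ?_, fun l y x => ext _ _ fun i => ?_, hb1,
    fun l hl => ext _ _ fun i => ?_⟩, fun l hl => ext _ _ fun i => ?_⟩
  · rw [add_mul, hb2, hb2, hb2, ((hβ i).ml l l').1, add_mul]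
  · rw [smul_mul_assoc, hb2, hb2, ((hβ i).ml l l').2, smul_mul_assoc]
  · rw [mul_assoc, hb2, hb2, (hβ i).lm, mul_assoc]
  · rw [mul_assoc, ← (hp i).comm x, ← mul_assoc, hb2, hb2, (hβ i).rm, mul_assoc, mul_assoc,
      (hp i).comm x]
  · rw [hb2, (hβ i).len l hl]
  · rw [← bd_mul, funext fun x => hb2 x i, bd_mul, hd i l hl, mul_one, mul_assoc,
      (hp i).proj.1.eq]

end Glue

theorem glue : GlueStmt M := by
  intro F n C hC h
  obtain ⟨S, z, -, S1, S2, z1, z2, z3⟩ := max_fam (fun w : Alg M => Cen w ∧ Sol F n w C)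
    (fun w h => pi_of_proj h.1.proj) ∅ (by simp) (by simp)
  have z4 : SSum (fun w : S => w.1) z := z2.congr fun w => by
    rw [(S1 _ w.2).1.1.proj.2.star_eq, (S1 _ w.2).1.1.proj.1.eq]
  have zc : ∀ x, z * x = x * z := fun x =>
    ((z4.mul_right x).congr fun w => (S1 _ w.2).1.1.comm x).unique (z4.mul_left x)
  have z5 : z = 1 := by
    by_contra c
    obtain ⟨w, w1, w2, w3, w4⟩ := h (1 - z) ⟨z1.one_sub, fun x => by
      rw [sub_mul, mul_sub, zc, one_mul, mul_one]⟩ fun e => c (sub_eq_zero.1 e).symm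
    refine w2 (z3 w ⟨w1, w4⟩ ?_)
    rw [← w3, ← mul_assoc, z1.mul_one_sub_self, zero_mul]
  rw [z5] at z4
  refine Glue.sol_of _ (fun w => (S1 _ w.2).1.1) (fun w w' c => ?_) z4 hC fun w => (S1 _ w.2).1.2
  have : star w.1 * w'.1 = 0 := S2 w.2 w'.2 fun e => c (Subtype.ext e)
  rwa [(S1 _ w.2).1.1.proj.2.star_eq] at this

namespace Glue

theorem vec_wlim {φ : Alg M →ₗ[ℂ] ℂ} (hφ : VecF φ) {ι : Type*} {U : Ultrafilter ι}
    {v : ι → Alg M} {C : ℝ} (hb : ∀ i, ‖v i‖ ≤ C) :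
    Tendsto (fun i => φ (v i)) U (𝓝 (φ (wlim U v))) := by
  obtain ⟨I, _, ξ, η, h⟩ := hφ
  simp only [h]
  exact tendsto_finsetSum _ fun i _ => wlim_spec hb _ _

/-- A finite average. -/
noncomputable def av {A Ω : Type*} [CStarAlgebra A] [Fintype Ω] (p : Ω → ℝ) (m : Ω → A) (z : A) :
    (A →L[ℂ] A) →ₗ[ℂ] A where
  toFun ψ := ∑ ω, (p ω : ℂ) • (ψ (m ω) * star (m ω) * z)
  map_add' ψ ψ' := by
    simp only [add_apply, add_mul, smul_add, sum_add_distrib]
  map_smul' t ψ := by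
    simp only [smul_apply, smul_mul_assoc, RingHom.id_apply, smul_sum,
      smul_comm t]

section Av

variable {A Ω : Type*} [CStarAlgebra A] [Fintype Ω] {p : Ω → ℝ} {m : Ω → A} {z : A}

theorem av_apply (ψ : A →L[ℂ] A) : av p m z ψ = ∑ ω, (p ω : ℂ) • (ψ (m ω) * star (m ω) * z) := rfl

theorem av_norm (p0 : ∀ ω, 0 ≤ p ω) (p1 : ∑ ω, p ω = 1) (hm : ∀ ω, ‖m ω‖ ≤ 1) (hz : ‖z‖ ≤ 1)
    (ψ : A →L[ℂ] A) : ‖av p m z ψ‖ ≤ ‖ψ‖ := by
  refine (norm_sum_le_of_le _ (n := fun ω => p ω * ‖ψ‖) fun ω _ => ?_).trans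
    (by rw [← sum_mul, p1, one_mul])
  rw [norm_smul, Complex.norm_real, Real.norm_of_nonneg (p0 ω)]
  refine mul_le_mul_of_nonneg_left ((norm_mul_le _ _).trans ?_) (p0 ω)
  refine (mul_le_of_le_one_right (norm_nonneg _) hz).trans ((norm_mul_le _ _).trans ?_)
  refine (mul_le_of_le_one_right (norm_nonneg _) (by rw [norm_star]; exact hm ω)).trans ?_
  exact (ψ.le_opNorm _).trans (mul_le_of_le_one_right (norm_nonneg _) (hm ω))

theorem av_left (y : A) (ψ : A →L[ℂ] A) :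
    av p m z (ContinuousLinearMap.mul ℂ A y ∘L ψ) = y * av p m z ψ := by
  simp only [av_apply, mul_sum, mul_smul_comm, ContinuousLinearMap.comp_apply,
    ContinuousLinearMap.mul_apply', mul_assoc]

theorem av_id (p1 : ∑ ω, p ω = 1) (y : A) (φ : A →ₗ[ℂ] ℂ) :
    φ (av p m z (ContinuousLinearMap.mul ℂ A y) - y * z) =
      ∑ ω, (p ω : ℂ) * φ (y * (m ω * star (m ω) - 1) * z) := by
  have : y * z = ∑ ω, (p ω : ℂ) • (y * z) := by
    rw [← sum_smul, ← Complex.ofReal_sum, p1, Complex.ofReal_one, one_smul]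
  rw [this, av_apply, ← sum_sub_distrib, map_sum]
  refine sum_congr rfl fun ω _ => ?_
  rw [← smul_sub, map_smul, smul_eq_mul, ContinuousLinearMap.mul_apply', mul_sub, sub_mul,
    mul_one, mul_assoc y (m ω)]

theorem av_right (hz : ∀ x, z * x = x * z) (x : A) (ψ : A →L[ℂ] A) (φ : A →ₗ[ℂ] ℂ) :
    φ (av p m z (ψ ∘L ContinuousLinearMap.mul ℂ A x) - av p m z ψ * x) =
      ∑ ω, (p ω : ℂ) * φ ((ψ (x * m ω) * star (m ω) - ψ (m ω) * star (m ω) * x) * z) := by
  rw [av_apply, av_apply, sum_mul, ← sum_sub_distrib, map_sum]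
  refine sum_congr rfl fun ω _ => ?_
  rw [smul_mul_assoc, ← smul_sub, map_smul, smul_eq_mul, mul_assoc _ z, hz, ← mul_assoc, sub_mul]
  rfl

theorem right_of {ρ : (A →L[ℂ] A) →ₗ[ℂ] A} (hρ : ∀ ψ, ‖ρ ψ‖ ≤ ‖ψ‖) {S : Set A}
    (hS : ∀ T : Subalgebra ℂ A, IsClosed (T : Set A) → S ⊆ T → T = ⊤)
    (h : ∀ x ∈ S, ∀ ψ, ρ (ψ ∘L ContinuousLinearMap.mul ℂ A x) = ρ ψ * x) (x : A)
    (ψ : A →L[ℂ] A) : ρ (ψ ∘L ContinuousLinearMap.mul ℂ A x) = ρ ψ * x := by
  let T : Subalgebra ℂ A :=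
    { carrier := {x | ∀ ψ, ρ (ψ ∘L ContinuousLinearMap.mul ℂ A x) = ρ ψ * x}
      mul_mem' := fun {a b} ha hb ψ => by
        rw [← mul_assoc, ← ha, ← hb]
        congr 1
        ext y
        simp [mul_assoc]
      add_mem' := fun {a b} ha hb ψ => by
        rw [mul_add, ← ha, ← hb, ← map_add, map_add (ContinuousLinearMap.mul ℂ A),
          ContinuousLinearMap.comp_add]
      algebraMap_mem' := fun t ψ => by
        rw [Algebra.algebraMap_eq_smul_one, mul_smul_comm, mul_one, ← map_smul]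
        congr 1
        ext y
        simp }
  have hT : IsClosed (T : Set A) := by
    have : (T : Set A) = ⋂ ψ, {x | ρ (ψ ∘L ContinuousLinearMap.mul ℂ A x) = ρ ψ * x} := by
      ext x
      rw [Set.mem_iInter]
      rfl
    rw [this]
    refine isClosed_iInter fun ψ => isClosed_eq ?_ (by fun_prop)
    have h1 : Continuous ρ := (ρ.mkContinuous 1 (by simpa using hρ)).continuous
    exact h1.comp (continuous_const.clm_comp (ContinuousLinearMap.mul ℂ A).continuous)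
  have : x ∈ T := by rw [hS T hT h]; trivial
  exact this ψ

end Av

theorem exists_ultra (α : Type*) : ∃ U : Ultrafilter (Finset α × ℕ), ∀ (d : α)
    (f : Finset α × ℕ → ℂ), (∀ i : Finset α × ℕ, d ∈ i.1 → ‖f i‖ ≤ 1 / (i.2 + 1)) →
      Tendsto f U (𝓝 0) := by
  classical
  refine ⟨Ultrafilter.of (atTop ×ˢ atTop), fun d f h => ?_⟩
  refine Tendsto.mono_left ?_ (Ultrafilter.of_le _)
  refine squeeze_zero_norm' (tendsto_fst.eventually (eventually_ge_atTop {d}) |>.mono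
    fun i hi => h i (hi (mem_singleton_self d))) ?_
  exact (tendsto_one_div_add_atTop_nhds_zero_nat (𝕜 := ℝ)).comp tendsto_snd

end Glue

theorem approxStmt : ApproxStmt M := by
  intro z Y S hz hY hsep hS h
  choose Ω _ p m p0 p1 hm hd using fun i : Finset _ × ℕ => h i.1 (1 / (i.2 + 1)) (by positivity)
  obtain ⟨U, hU⟩ := Glue.exists_ultra ((Alg M →L[ℂ] Alg M) × Alg M × (Alg M →ₗ[ℂ] ℂ))
  have hb := fun ψ i => Glue.av_norm (p0 i) (p1 i) (hm i) hz.proj.norm_le ψ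
  let ρ : (Alg M →L[ℂ] Alg M) →ₗ[ℂ] Alg M :=
    { toFun := fun ψ => wlim U fun i => Glue.av (p i) (m i) z ψ
      map_add' := fun ψ ψ' => by
        simp only [map_add]
        exact wlim_add (hb ψ) (hb ψ')
      map_smul' := fun t ψ => by
        simp only [map_smul]
        exact wlim_smul (hb ψ) t }
  have hρ : ∀ ψ, ρ ψ = wlim U fun i => Glue.av (p i) (m i) z ψ :=
    fun _ => rfl
  have n1 : ∀ ψ, ‖ρ ψ‖ ≤ ‖ψ‖ := fun ψ => wlim_norm_le (hb ψ)
  have z1 : ∀ ψ, ρ ψ * z = ρ ψ := fun ψ => by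
    rw [hρ, ← wlim_mul_right (hb ψ)]
    simp only [Glue.av_apply, sum_mul, smul_mul_assoc, mul_assoc, hz.proj.1.eq]
  refine ⟨ρ, fun ψ ψ' _ _ _ _ => map_add _ _ _, fun t ψ _ _ => map_smul _ _ _,
    fun ψ c hc => (n1 ψ).trans hc, fun y ψ _ _ => ?_,
    fun x ψ _ _ => Glue.right_of n1 hS (fun x hx ψ => ?_) x ψ, fun y => ?_⟩
  · rw [hρ, hρ, ← wlim_mul_left (hb ψ)]
    simp only [Glue.av_left]
  · refine sub_eq_zero.1 (hsep _ ?_ fun φ hφ => ?_)
    · rw [sub_mul, z1, mul_assoc, ← hz.comm, ← mul_assoc, z1]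
    · have hb' : ∀ i, ‖Glue.av (p i) (m i) z ψ * x‖ ≤ ‖ψ‖ * ‖x‖ := fun i =>
        (norm_mul_le _ _).trans (mul_le_mul_of_nonneg_right (hb ψ i) (norm_nonneg _))
      rw [hρ, hρ, ← wlim_mul_right (hb ψ), map_sub]
      refine tendsto_nhds_unique ((Glue.vec_wlim (hY φ hφ) (hb _)).sub
        (Glue.vec_wlim (hY φ hφ) hb')) (hU (ψ, x, φ) _ fun i hi => ?_)
      rw [← map_sub, Glue.av_right hz.comm]
      exact (hd i _ hi hφ).2 hx
  · refine sub_eq_zero.1 (hsep _ ?_ fun φ hφ => ?_)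
    · rw [sub_mul, z1, mul_assoc, hz.proj.1.eq]
    · rw [hρ, map_sub]
      refine tendsto_nhds_unique ((Glue.vec_wlim (hY φ hφ) (hb _)).sub_const _)
        (hU (0, y, φ) _ fun i hi => ?_)
      rw [← map_sub, Glue.av_id (p1 i)]
      exact (hd i _ hi hφ).1

end Vale.Agent.P082
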