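import Vale.Agent.P082.PairW

/-! The two basic estimates for random letters in flat frames. -/

namespace Vale.Agent.P082

open scoped InnerProductSpace ComplexConjugate BigOperators
open Vale.Agent.P104 Finset

universe u v

variable {A E : Type*} [CStarAlgebra A] [NormedAddCommGroup E] [InnerProductSpace ℂ E]
  {τ : A →ₗ[ℂ] ℂ} {Λ : A →ₗ[ℂ] E} {I G : Type*} [Fintype I] [DecidableEq I] [Fintype G]
  {U : G → I → I → ℂ} {v v' : I → A} {g z : A}

theorem Design.bil (h : Design U) {V : Type*} [AddCommGroup V] [Module ℂ V]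
    (F : I → I → I → I → V) :
    ∑ γ, ∑ a, ∑ b, ∑ c, ∑ d, (U γ a b * conj (U γ c d)) • F a b c d =
      ((Fintype.card G : ℂ) / Fintype.card I) • ∑ a, ∑ b, F a b a b := by
  rw [sum_comm, smul_sum]
  refine sum_congr rfl fun a _ => ?_
  rw [sum_comm, smul_sum]
  refine sum_congr rfl fun b _ => ?_
  rw [sum_comm, sum_congr rfl fun c _ => sum_comm]
  simp only [← sum_smul, h.p3, ite_and, ite_smul, zero_smul, sum_ite_irrel, sum_ite_eq, mem_univ,
    if_true, sum_const_zero]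

theorem Design.ses (h : Design U) (B : A →ₗ[ℂ] A →ₗ⋆[ℂ] ℂ) (p q : I → I → A) :
    𝔼 γ, B (∑ a, ∑ b, U γ a b • p a b) (∑ a, ∑ b, U γ a b • q a b) =
      (Fintype.card I : ℂ)⁻¹ * ∑ a, ∑ b, B (p a b) (q a b) := by
  have := h.ne
  have n0 : (Fintype.card G : ℂ) ≠ 0 := by exact_mod_cast Fintype.card_ne_zero
  have e := h.bil fun a b c d => B (p a b) (q c d)
  rw [expect_eq_sum_div_card, card_univ, div_eq_iff n0, mul_comm, ← mul_assoc, ← div_eq_mul_inv,
    ← smul_eq_mul, ← e]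
  refine sum_congr rfl fun γ _ => ?_
  simp only [map_sum B, LinearMap.sum_apply, map_smul B, LinearMap.smul_apply]
  simp only [map_sum, map_smulₛₗ, smul_eq_mul, mul_sum, mul_assoc]

theorem Design.sq (h : Design U) (p : I → I → A) :
    𝔼 γ, ‖Λ (∑ a, ∑ b, U γ a b • p a b)‖ ^ 2 =
      (Fintype.card I : ℝ)⁻¹ * ∑ a, ∑ b, ‖Λ (p a b)‖ ^ 2 := by
  have := h.ses (LinearMap.mk₂'ₛₗ (RingHom.id ℂ) (starRingEnd ℂ) (fun x y => ⟪Λ y, Λ x⟫_ℂ)
    (by simp [inner_add_right]) (by simp [inner_smul_right]) (by simp [inner_add_left])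
    (by simp [inner_smul_left, mul_comm])) p p
  simp only [LinearMap.mk₂'ₛₗ_apply, inner_self_eq_norm_sq_to_K] at this
  apply Complex.ofReal_injective
  rw [Complex.ofReal_expect]
  push_cast
  exact this

theorem expect_le_sqrt {Ω : Type*} [Fintype Ω] [Nonempty Ω] (f : Ω → ℝ) {c : ℝ} (hc : 0 ≤ c)
    (h : 𝔼 ω, f ω ^ 2 ≤ c ^ 2) : 𝔼 ω, f ω ≤ c := by
  have := expect_mul_sq_le_sq_mul_sq univ f fun _ => 1
  simp only [mul_one, one_pow, Fintype.expect_const] at this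
  exact le_of_sq_le_sq (this.trans h) hc

omit [Fintype G] in
theorem Frame.proj (hv : Frame v g z) : IsStarProjection g ∧ IsStarProjection z := by
  have e1 : star z = z := by simp [← hv.sum, star_sum]
  refine ⟨⟨hv.idem, hv.sa⟩, ?_, e1⟩
  rw [IsIdempotentElem]
  nth_rw 2 [← hv.sum]
  rw [mul_sum]
  simp only [← mul_assoc, hv.left, hv.sum]

omit [Fintype G] in
theorem Frame.norm_le (hv : Frame v g z) (a : I) : ‖v a‖ ≤ 1 ∧ ‖star (v a)‖ ≤ 1 := by
  have : ‖star (v a)‖ ≤ 1 := norm_le_of_mul_star (Frame.proj hv).1 (by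
    rw [star_star, hv.orth, if_pos rfl])
  exact ⟨norm_star (v a) ▸ this, this⟩

variable [PartialOrder A] [StarOrderedRing A]

omit [Fintype G] [PartialOrder A] [StarOrderedRing A] in
theorem amp_sq (h : Tr τ Λ) (hv : Frame v g z) (hv' : Frame v' g z) {y : A} (h1 : g * y = y)
    (h2 : y * g = y) : ‖Λ (∑ a, v a * y * star (v' a))‖ ^ 2 = Fintype.card I * ‖Λ y‖ ^ 2 := by
  have e : ∀ a b, τ (v' a * (star y * (star (v a) * (v b * (y * star (v' b)))))) =
      if a = b then τ (star y * y) else 0 := fun a b => by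
    rw [← mul_assoc (star (v a)), hv.orth]
    split_ifs with c
    · rw [← mul_assoc g, h1, h.tr, mul_assoc, mul_assoc, hv'.orth, if_pos c.symm, h2]
    · simp
  rw [h.nsq, h.nsq]
  simp only [star_sum, sum_mul, mul_sum, star_mul, star_star, mul_assoc, map_sum, e]
  simp

omit [Fintype G] in
theorem amp_norm (hv : Frame v g z) (hv' : Frame v' g z) (y : A) :
    ‖∑ a, v a * y * star (v' a)‖ ≤ ‖y‖ := by
  set T := ∑ a, v a * y * star (v' a) with hT
  have e : T * star T = ∑ a, v a * (y * g * star y) * star (v a) := by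
    simp only [hT, star_sum, sum_mul, mul_sum, star_mul, star_star, mul_assoc]
    refine sum_congr rfl fun a _ => ?_
    simp only [← mul_assoc (star (v' _)), hv'.orth, ite_mul, zero_mul, mul_ite, mul_zero,
      sum_ite_eq', mem_univ, if_true]
  have h1 : y * g * star y ≤ (‖y‖ ^ 2) • (1 : A) := by
    refine (star_right_conjugate_le_conjugate (Frame.proj hv).1.le_one y).trans ?_
    rw [mul_one, ← Algebra.algebraMap_eq_smul_one]
    exact CStarAlgebra.mul_star_le_algebraMap_norm_sq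
  have h2 : T * star T ≤ (‖y‖ ^ 2) • z := by
    rw [e, ← hv.sum, smul_sum]
    refine sum_le_sum fun a _ => (star_right_conjugate_le_conjugate h1 _).trans (le_of_eq ?_)
    simp
  have h3 := CStarAlgebra.norm_le_norm_of_nonneg_of_le (mul_star_self_nonneg T) h2
  rw [CStarRing.norm_self_mul_star, norm_smul, norm_pow, norm_norm, ← sq] at h3
  exact le_of_sq_le_sq (h3.trans (mul_le_of_le_one_right (sq_nonneg _)
    (Frame.proj hv).2.norm_le)) (norm_nonneg _)

omit [Fintype G] in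
theorem entries_sq (h : Tr τ Λ) (hs : ∀ x, τ (x * z) = τ x) (hv : Frame v g z)
    (hv' : Frame v' g z) {β : A} (hβ : ‖β‖ ≤ 1) :
    ∑ d, ∑ b, ‖Λ (star (v' d) * β * v b)‖ ^ 2 ≤ ‖Λ 1‖ ^ 2 := by
  have e : ∀ d b, τ (star (star (v' d) * β * v b) * (star (v' d) * β * v b)) =
      τ (star β * (v' d * star (v' d)) * β * (v b * star (v b))) := fun d b => by
    rw [star_mul, star_mul, star_star, mul_assoc, h.tr]
    simp only [mul_assoc]
  simp only [h.nsq (_ * _), e, ← Complex.re_sum, ← map_sum, ← mul_sum, ← sum_mul, hv.sum, hv'.sum]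
  have e2 : star β * z * β = star (z * β) * (z * β) := by
    rw [star_mul, (Frame.proj hv).2.isSelfAdjoint.star_eq, mul_assoc, mul_assoc, ← mul_assoc z z,
      (Frame.proj hv).2.isIdempotentElem.eq]
  rw [hs, e2, ← h.nsq]
  exact pow_le_pow_left₀ (norm_nonneg _) ((trw_one h _).trans (mul_le_of_le_one_right
    (norm_nonneg _) (nmul (Frame.proj hv).2.norm_le hβ))) 2

omit [Fintype G] in
theorem col_sq (h : Tr τ Λ) (hv : Frame v g z) (b : I) :
    Fintype.card I * ‖Λ (star (v b))‖ ^ 2 ≤ ‖Λ 1‖ ^ 2 := by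
  have h1 := amp_sq h hv hv hv.idem hv.idem
  have h2 : ‖Λ (star (v b))‖ ^ 2 = ‖Λ g‖ ^ 2 := by
    rw [h.nsq, h.nsq, star_star, h.tr, hv.orth, if_pos rfl, hv.sa, hv.idem]
  simp only [hv.fix, hv.sum] at h1
  rw [h2, ← h1]
  exact pow_le_pow_left₀ (norm_nonneg _) ((trw_one h _).trans (mul_le_of_le_one_right
    (norm_nonneg _) (Frame.proj hv).2.norm_le)) 2

theorem pair_one (h : Tr τ Λ) (hs : ∀ x, τ (x * z) = τ x) (hv : Frame v g z)
    (hv' : Frame v' g z) {U' : G → I → I → ℂ} (hU : Design U) (hU' : Design U') {η : ℝ}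
    (η0 : 0 ≤ η) {x : A} (hx : Flt Λ v v' x η) {β : A} (hβ : ‖β‖ ≤ 1) :
    𝔼 γ', ‖Λ ((Fintype.card G : ℂ)⁻¹ • ∑ γ,
      dm v (U γ) * (x * dm v' (U' γ') * β) * star (dm v (U γ)))‖ ≤ 2 * (‖Λ 1‖ + 1) * η := by
  have := hU.ne
  have n0 : (Fintype.card G : ℂ) ≠ 0 := by exact_mod_cast Fintype.card_ne_zero
  obtain ⟨y, y', e, y1, y2⟩ := hx
  set m := Fintype.card I
  have e1 : ∀ Y : A, (Fintype.card G : ℂ)⁻¹ • ∑ γ, dm v (U γ) * Y * star (dm v (U γ)) =
      (m : ℂ)⁻¹ • ∑ a, v a * (∑ b, star (v b) * Y * v b) * star (v a) := fun Y => by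
    have := hU.bil fun a b c d => v a * star (v b) * Y * (v d * star (v c))
    simp only [dm, star_sum, star_smul, star_mul, star_star, sum_mul, smul_mul_assoc]
    have sm : ∀ (c : ℂ) (f : I → A), c • ∑ i, f i = ∑ i, c • f i := fun c f => smul_sum
    simp only [mul_sum, mul_smul_comm, sm (U _ _ _), smul_smul, Complex.star_def]
    rw [this, smul_smul, ← mul_div_assoc, inv_mul_cancel₀ n0, one_div]
    simp only [sum_mul, mul_assoc, m]
  have e2 : ∀ γ', ∑ b, star (v b) * (x * dm v' (U' γ') * β) * v b = ∑ c, ∑ d, U' γ' c d •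
      ∑ b, (y b c + y' b c) * (star (v' d) * β * v b) := fun γ' => by
    simp only [dm, ← e, mul_sum, sum_mul, mul_smul_comm, smul_mul_assoc, smul_sum, mul_assoc]
    rw [sum_comm]
    exact sum_congr rfl fun c _ => sum_comm
  refine expect_le_sqrt _ (by positivity) ?_
  have e3 : ∀ γ', ‖Λ ((Fintype.card G : ℂ)⁻¹ • ∑ γ, dm v (U γ) * (x * dm v' (U' γ') * β) *
      star (dm v (U γ)))‖ ^ 2 = (m : ℝ)⁻¹ ^ 2 * m * ‖Λ (∑ c, ∑ d, U' γ' c d •
        ∑ b, (y b c + y' b c) * (star (v' d) * β * v b))‖ ^ 2 := fun γ' => by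
    rw [e1, map_smul, norm_smul, mul_pow, amp_sq h hv hv, e2, norm_inv, Complex.norm_natCast,
      mul_assoc]
    · simp only [mul_sum, ← mul_assoc, hv.fix']
    · simp only [sum_mul, mul_assoc, hv.fix]
  simp only [e3, ← mul_expect, hU'.sq]
  have k : ∀ c d, ‖Λ (∑ b, (y b c + y' b c) * (star (v' d) * β * v b))‖ ^ 2 ≤
      m * ∑ b, (2 * η ^ 2 * ‖Λ (star (v' d) * β * v b)‖ ^ 2 + 2 * ‖Λ (y' b c)‖ ^ 2) := by
    intro c d
    rw [map_sum]
    refine (pow_le_pow_left₀ (norm_nonneg _) (norm_sum_le _ _) 2).trans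
      (sq_sum_le_card_mul_sum_sq.trans (mul_le_mul_of_nonneg_left (sum_le_sum fun b _ => ?_)
        (by positivity)))
    have a1 := (trw_left h (y b c) (star (v' d) * β * v b)).trans
      (mul_le_mul_of_nonneg_right (y1 b c) (norm_nonneg _))
    have a2 := (trw_right h (y' b c) (star (v' d) * β * v b)).trans (mul_le_of_le_one_right
      (norm_nonneg _) (nmul (nmul (Frame.norm_le hv' d).2 hβ) (Frame.norm_le hv b).1))
    rw [add_mul, map_add]
    refine (pow_le_pow_left₀ (norm_nonneg _) ((norm_add_le _ _).trans (add_le_add a1 a2)) 2).trans ?_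
    nlinarith [sq_nonneg (η * ‖Λ (star (v' d) * β * v b)‖ - ‖Λ (y' b c)‖)]
  have k2 : ∑ c, ∑ d, ‖Λ (∑ b, (y b c + y' b c) * (star (v' d) * β * v b))‖ ^ 2 ≤
      m ^ 2 * (2 * η ^ 2 * ‖Λ 1‖ ^ 2 + 2 * η ^ 2) := by
    refine (sum_le_sum fun c _ => sum_le_sum fun d _ => k c d).trans ?_
    simp only [← mul_sum, sum_add_distrib, sum_const, card_univ, nsmul_eq_mul]
    rw [sum_comm] at y2
    have := entries_sq h hs hv hv' hβ
    calc _ ≤ m * (2 * η ^ 2 * (m * ‖Λ 1‖ ^ 2) + 2 * (m * η ^ 2)) := by gcongr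
      _ = _ := by ring
  rcases Nat.eq_zero_or_pos m with c | c
  · simp only [c, Nat.cast_zero, mul_zero, zero_mul]
    positivity
  have m0 : (0 : ℝ) < m := by exact_mod_cast c
  calc _ ≤ (m : ℝ)⁻¹ ^ 2 * m * ((m : ℝ)⁻¹ * (m ^ 2 * (2 * η ^ 2 * ‖Λ 1‖ ^ 2 + 2 * η ^ 2))) := by
        gcongr
    _ = 2 * η ^ 2 * ‖Λ 1‖ ^ 2 + 2 * η ^ 2 := by field_simp
    _ ≤ _ := by nlinarith [norm_nonneg (Λ 1), sq_nonneg η, sq_nonneg (η * ‖Λ 1‖),
        mul_nonneg (sq_nonneg η) (norm_nonneg (Λ 1))]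

omit [Fintype G] [DecidableEq I] in
theorem sum_sum_le (f : I → I → ℝ) {c : ℝ} (hc : 0 ≤ c) (h : ∑ a, ∑ b, f a b ^ 2 ≤ c ^ 2) :
    ∑ a, ∑ b, f a b ≤ Fintype.card I * c := by
  refine le_of_sq_le_sq ?_ (by positivity)
  rw [← Fintype.sum_prod_type'] at h ⊢
  refine sq_sum_le_card_mul_sum_sq.trans ?_
  rw [card_univ, Fintype.card_prod, mul_pow, sq (Fintype.card I : ℝ)]
  push_cast
  gcongr

theorem pair_two (h : Tr τ Λ) (hs : ∀ x, τ (x * z) = τ x) (hv : Frame v g z)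
    (hv' : Frame v' g z) {U' : G → I → I → ℂ} (hU : Design U) (hU' : Design U') {η : ℝ}
    (η0 : 0 ≤ η) {x : A} (hx : Flt Λ v v' x η) {B : A →ₗ[ℂ] A →ₗ⋆[ℂ] ℂ} {Kb L : ℝ} (hK : 0 ≤ Kb)
    (hL : 0 ≤ L) (hB : TwoB Λ B Kb L) {α δ α' β δ' : A} (h1 : ‖α‖ ≤ 1) (h2 : ‖δ‖ ≤ 1)
    (h3 : ‖α'‖ ≤ 1) (h4 : ‖β‖ ≤ 1) (h5 : ‖δ'‖ ≤ 1) :
    ‖𝔼 γ, 𝔼 γ', B (α * dm v (U γ) * x * dm v' (U' γ') * δ)
      (α' * dm v' (U' γ') * β * dm v (U γ) * δ')‖ ≤ (Kb * ‖Λ 1‖ ^ 2 + L * ‖Λ 1‖) * η := by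
  have := hU.ne
  obtain ⟨y, y', e, y1, y2⟩ := hx
  set m := Fintype.card I
  set T : (I → I → A) → I → I → ℂ := fun y b c => ∑ a, ∑ d,
    B (α * (v a * y b c * star (v' d)) * δ)
      (α' * v' c * (star (v' d) * β * v a) * (star (v b) * δ')) with hT
  have e1 : 𝔼 γ, 𝔼 γ', B (α * dm v (U γ) * x * dm v' (U' γ') * δ)
      (α' * dm v' (U' γ') * β * dm v (U γ) * δ') =
      (m : ℂ)⁻¹ * ∑ b, ∑ c, (m : ℂ)⁻¹ * T y b c + (m : ℂ)⁻¹ * ((m : ℂ)⁻¹ * ∑ b, ∑ c, T y' b c) := by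
    have a1 : ∀ γ, 𝔼 γ', B (α * dm v (U γ) * x * dm v' (U' γ') * δ)
        (α' * dm v' (U' γ') * β * dm v (U γ) * δ') = (m : ℂ)⁻¹ * ∑ c, ∑ d,
          B (∑ a, ∑ b, U γ a b • (α * (v a * star (v b)) * x * (v' c * star (v' d)) * δ))
            (∑ a, ∑ b, U γ a b • (α' * (v' c * star (v' d)) * β * (v a * star (v b)) * δ')) := by
      intro γ
      have := hU'.ses B (fun c d => α * dm v (U γ) * x * (v' c * star (v' d)) * δ)
        fun c d => α' * (v' c * star (v' d)) * β * dm v (U γ) * δ'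
      have d1 : ∀ (v : I → A) (u : I → I → ℂ) (p q : A),
          ∑ a, ∑ b, u a b • (p * (v a * star (v b)) * q) = p * dm v u * q := fun v u p q => by
        simp only [dm, mul_sum, sum_mul, mul_smul_comm, smul_mul_assoc]
      simp only [mul_assoc _ β, mul_assoc _ (β * _), d1] at this
      simp only [mul_assoc _ x, mul_assoc _ (x * _), d1]
      simpa only [mul_assoc] using this
    simp only [a1, ← mul_expect, expect_sum_comm, hU.ses, ← mul_sum, ← mul_add, ← sum_add_distrib,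
      hT, ← LinearMap.add_apply, ← map_add, ← add_mul, ← e]
    congr 2
    rw [sum_congr rfl fun c _ => sum_comm, sum_congr rfl fun c _ => sum_congr rfl fun _ _ =>
      sum_comm, sum_congr rfl fun c _ => sum_comm, sum_comm]
    simp only [mul_assoc]
  rcases Nat.eq_zero_or_pos m with c | c
  · simp only [e1, c, Nat.cast_zero, inv_zero, zero_mul, add_zero, norm_zero]
    positivity
  have m0 : (0 : ℝ) < m := by exact_mod_cast c
  have k1 : ∀ b c, ‖(m : ℂ)⁻¹ * T y b c‖ ≤ Kb * η * (‖Λ 1‖ ^ 2 / m) := fun b c => by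
    have s0 : (‖Λ 1‖ / √m) ^ 2 = ‖Λ 1‖ ^ 2 / m := by rw [div_pow, Real.sq_sqrt m0.le]
    have b1 : ‖Λ (star (v b) * δ')‖ ≤ ‖Λ 1‖ / √m := by
      refine (trw_right h _ _).trans ((mul_le_of_le_one_right (norm_nonneg _) h5).trans
        (le_of_sq_le_sq ?_ (by positivity)))
      rw [s0, le_div_iff₀' m0]
      exact col_sq h hv b
    have b2 : 𝔼 γ, ‖Λ (∑ a, ∑ d, U γ a d • (star (v' d) * β * v a))‖ ≤ ‖Λ 1‖ / √m := by
      refine expect_le_sqrt _ (by positivity) ?_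
      rw [hU.sq, s0, div_eq_inv_mul, sum_comm]
      exact mul_le_mul_of_nonneg_left (entries_sq h hs hv hv' h4) (by positivity)
    rw [hT, ← hU.ses, ← s0, sq, ← mul_assoc, mul_right_comm]
    refine (norm_expect_le' _).trans (le_trans (expect_le_expect fun γ _ => ?_)
      ((mul_expect _ _ _).symm.trans_le (mul_le_mul_of_nonneg_left b2 (by positivity))))
    have b3 : ∑ a, ∑ d, U γ a d • (α * (v a * y b c * star (v' d)) * δ) =
        α * (dm v (U γ) * ∑ d, v d * y b c * star (v' d)) * δ := by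
      simp only [dm, sum_mul, smul_mul_assoc, mul_sum, mul_smul_comm, mul_assoc,
        ← mul_assoc (star (v _)) (v _), hv.orth, ite_mul, zero_mul, mul_ite, mul_zero, smul_ite,
        smul_zero, sum_ite_eq', mem_univ, if_true, ← mul_assoc (v _) g, hv.fix]
      exact sum_comm
    have b4 : ‖α * (dm v (U γ) * ∑ d, v d * y b c * star (v' d)) * δ‖ ≤ η :=
      (norm_mul_le _ _).trans ((mul_le_of_le_one_right (norm_nonneg _) h2).trans
        ((norm_mul_le _ _).trans ((mul_le_of_le_one_left (norm_nonneg _) h1).trans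
        ((norm_mul_le _ _).trans ((mul_le_of_le_one_left (norm_nonneg _) (norm_le_of_mul_star
          (Frame.proj hv).2 (dm_mul_star hv hU γ))).trans ((amp_norm hv hv' _).trans (y1 b c)))))))
    rw [b3]
    simp only [← smul_mul_assoc, ← mul_smul_comm (U γ _ _) (α' * v' c), ← sum_mul, ← mul_sum]
    refine (hB.one _ _ _).trans ?_
    rw [mul_right_comm (Kb * η)]
    gcongr
    exact (trw_left h _ _).trans (mul_le_of_le_one_left (norm_nonneg _)
      (nmul h3 (Frame.norm_le hv' c).1))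
  have k2 : ‖∑ b, ∑ c, T y' b c‖ ≤ L * (m * η) * (m * ‖Λ 1‖) := by
    calc _ ≤ ∑ b, ∑ c, ∑ a, ∑ d, L * ‖Λ (y' b c)‖ * ‖Λ (star (v' d) * β * v a)‖ := by
          refine norm_sum_le_of_le _ fun b _ => norm_sum_le_of_le _ fun c _ =>
            norm_sum_le_of_le _ fun a _ => norm_sum_le_of_le _ fun d _ => (hB.two _ _).trans ?_
          gcongr
          · exact (trw_both h h1 h2 _).trans
              (trw_both h (Frame.norm_le hv a).1 (Frame.norm_le hv' d).2 _)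
          · exact trw_both h (nmul h3 (Frame.norm_le hv' c).1) (nmul (Frame.norm_le hv b).2 h5) _
      _ ≤ _ := by
          simp only [← mul_sum, ← sum_mul]
          gcongr
          · exact sum_sum_le _ η0 y2
          · rw [sum_comm]
            exact sum_sum_le _ (norm_nonneg _) (entries_sq h hs hv hv' h4)
  have k3 : ‖∑ b, ∑ c, (m : ℂ)⁻¹ * T y b c‖ ≤ m * (m * (Kb * η * (‖Λ 1‖ ^ 2 / m))) := by
    refine (norm_sum_le_of_le _ fun b _ => norm_sum_le_of_le _ fun c _ => k1 b c).trans ?_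
    simp only [sum_const, card_univ, nsmul_eq_mul, le_refl, m]
  rw [e1]
  refine (norm_add_le _ _).trans ?_
  simp only [norm_mul (_⁻¹), norm_inv, Complex.norm_natCast]
  calc _ ≤ (m : ℝ)⁻¹ * (m * (m * (Kb * η * (‖Λ 1‖ ^ 2 / m)))) +
        (m : ℝ)⁻¹ * ((m : ℝ)⁻¹ * (L * (m * η) * (m * ‖Λ 1‖))) := by gcongr
    _ = _ := by field_simp

theorem pairStmt : PairStmt.{u, v} := fun _ _ _ _ _ _ _ _ _ _ _ _ _ _ _ _ _ _ _ _ _ _ h _ hs hv hv'
    hU hU' η0 hx => ⟨fun _ hβ => pair_one h hs hv hv' hU hU' η0 hx hβ,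
  fun _ _ _ hK hL hB _ _ _ _ _ h1 h2 h3 h4 h5 =>
    pair_two h hs hv hv' hU hU' η0 hx hK hL hB h1 h2 h3 h4 h5⟩

end Vale.Agent.P082
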