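import Vale.Agent.P082.WVal

/-! Expectations of a form on pairs of random words. -/

namespace Vale.Agent.P082

open scoped InnerProductSpace ComplexConjugate BigOperators
open Vale.Agent.P104 Finset Function

universe u v

variable {A : Type u} {E : Type v} [CStarAlgebra A] [PartialOrder A] [StarOrderedRing A]
  [NormedAddCommGroup E] [InnerProductSpace ℂ E] {τ : A →ₗ[ℂ] ℂ} {Λ : A →ₗ[ℂ] E}
  {I G R : Type} [Fintype I] [DecidableEq I] [Fintype G] [Fintype R] [DecidableEq R]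

/-- The data defining the random letters. -/
structure Setup (τ : A →ₗ[ℂ] ℂ) (Λ : A →ₗ[ℂ] E) (z g : A) (v : R → I → A) (U : G → I → I → ℂ)
    (a : R × Bool → A) (η : ℝ) : Prop where
  tr : Tr τ Λ
  proj : IsStarProjection z
  cen : ∀ x, z * x = x * z
  supp : ∀ x, τ (x * z) = τ x
  fr : ∀ i, Frame (v i) g z
  des : Design U
  uni : ∀ s, a s ∈ unitary A
  eta : 0 ≤ η
  flt : ∀ s t : R × Bool, s.1 ≠ t.1 → Flt Λ (v s.1) (v t.1) (star (a (bar s)) * a t) η

/-- The random part of a letter. -/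
noncomputable def dl (v : R → I → A) (U : G → I → I → ℂ) (s : R × Bool) (g : G) : A :=
  dm (v s.1) (Ue U s.2 g)

/-- The random letters. -/
noncomputable def lt (v : R → I → A) (U : G → I → I → ℂ) (a : R × Bool → A) (γ : R → G)
    (s : R × Bool) : A := a s * dl v U s (γ s.1) * star (a (bar s))

variable {z g : A} {v : R → I → A} {U : G → I → I → ℂ} {a : R × Bool → A} {η : ℝ}

omit [PartialOrder A] [StarOrderedRing A] [DecidableEq I] [Fintype G] [Fintype R]
  [DecidableEq R] in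
theorem star_dl (s : R × Bool) (γ : G) : star (dl v U s γ) = dl v U (bar s) γ :=
  star_dm_ue _ _ _

omit [PartialOrder A] [StarOrderedRing A] [Fintype R] [DecidableEq R] in
theorem Setup.dl_mul (h : Setup τ Λ z g v U a η) (s : R × Bool) (γ : G) :
    dl v U s γ * dl v U (bar s) γ = z := by
  rw [← star_dl]
  exact dm_mul_star (h.fr _) (h.des.ue _) γ

omit [PartialOrder A] [StarOrderedRing A] [Fintype R] [DecidableEq R] in
theorem Setup.z_dl (h : Setup τ Λ z g v U a η) (s : R × Bool) (γ : G) :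
    z * dl v U s γ = dl v U s γ := by
  simp only [dl, dm, mul_sum, mul_smul_comm, ← mul_assoc, (h.fr _).left]

omit [PartialOrder A] [StarOrderedRing A] [Fintype R] [DecidableEq R] in
theorem Setup.lets (h : Setup τ Λ z g v U a η) (γ : R → G) : Lets z (lt v U a γ) where
  proj := h.proj
  cen := h.cen
  inv s := by
    simp only [lt, bar_bar, bar_fst, mul_assoc]
    rw [← mul_assoc (star _), (h.uni _).1, one_mul, ← mul_assoc (dl v U s _), h.dl_mul, h.cen,
      ← mul_assoc, (h.uni _).2, one_mul]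
  adj s := by simp only [lt, star_mul, star_star, star_dl, bar_bar, bar_fst, mul_assoc]
  fix s := by rw [lt, ← mul_assoc, ← mul_assoc, h.cen, mul_assoc _ z, h.z_dl]

omit [PartialOrder A] [StarOrderedRing A] [Fintype R] [DecidableEq R] in
theorem Setup.norm_a (h : Setup τ Λ z g v U a η) (s : R × Bool) : ‖a s‖ ≤ 1 :=
  norm_le_of_mul_star (IsStarProjection.one A) (h.uni s).2

omit [PartialOrder A] [StarOrderedRing A] [DecidableEq I] [Fintype G] [Fintype R] in
theorem val_update {w : List (R × Bool)} {i : R} (hi : i ∉ w.map Prod.fst) (γ : R → G) (c : G) :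
    val z (lt v U a (update γ i c)) w = val z (lt v U a γ) w :=
  val_congr fun s hs => by
    rw [lt, lt, update_of_ne fun e => hi (List.mem_map.2 ⟨s, hs, e⟩)]

omit [PartialOrder A] [StarOrderedRing A] in
theorem nmul {x y : A} (hx : ‖x‖ ≤ 1) (hy : ‖y‖ ≤ 1) : ‖x * y‖ ≤ 1 :=
  (norm_mul_le _ _).trans (mul_le_one₀ hx (norm_nonneg _) hy)

/-- The average of a word over one coordinate is small. -/
def Sm (Λ : A →ₗ[ℂ] E) (z : A) (v : R → I → A) (U : G → I → I → ℂ) (a : R × Bool → A)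
    (w : List (R × Bool)) (i : R) (δ : ℝ) : Prop :=
  𝔼 γ : R → G, ‖Λ ((Fintype.card G : ℂ)⁻¹ • ∑ c, val z (lt v U a (update γ i c)) w)‖ ≤ δ

omit [PartialOrder A] [StarOrderedRing A] in
theorem Setup.sm_one (h : Setup τ Λ z g v U a η) {w₁ w₂ : List (R × Bool)} {s : R × Bool}
    (h1 : s.1 ∉ w₁.map Prod.fst) (h2 : s.1 ∉ w₂.map Prod.fst) :
    Sm Λ z v U a (w₁ ++ s :: w₂) s.1 0 := by
  have : ∀ γ : R → G, ∑ c, val z (lt v U a (update γ s.1 c)) (w₁ ++ s :: w₂) = 0 := fun γ => by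
    simp only [(h.lets _).append, val, val_update h1, val_update h2, lt, update_self, ← mul_sum,
      ← sum_mul, dl, sum_dm _ (h.des.ue _), mul_zero, zero_mul]
  simp [Sm, this]

theorem Setup.sm_two (hP : PairStmt.{u, v}) (h : Setup τ Λ z g v U a η)
    {w₁ w₂ w₃ : List (R × Bool)} {s s' : R × Bool} (hs : s'.1 = s.1)
    (hr : (w₁ ++ s :: (w₂ ++ s' :: w₃)).IsChain fun s t => t ≠ bar s)
    (h1 : s.1 ∉ w₁.map Prod.fst) (h2 : ((s :: w₂).map Prod.fst).Nodup)
    (h3 : s.1 ∉ w₃.map Prod.fst) :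
    Sm Λ z v U a (w₁ ++ s :: (w₂ ++ s' :: w₃)) s.1 (2 * (‖Λ 1‖ + 1) * η) := by
  have := h.des.ne
  have h4 : s.1 ∉ w₂.map Prod.fst := (List.nodup_cons.1 h2).1
  have η0 := h.eta
  rcases eq_or_bar hs with rfl | rfl
  · have : ∀ γ : R → G, ∑ c, val z (lt v U a (update γ s'.1 c))
        (w₁ ++ s' :: (w₂ ++ s' :: w₃)) = 0 := fun γ => by
      simp only [(h.lets _).append, val, val_update h1, val_update h3, val_update h4, lt,
        update_self, ← mul_sum]
      have := sum_dm_two (v s'.1) (h.des.ue s'.2) (LinearMap.mk₂ ℂ (fun x y =>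
        a s' * x * star (a (bar s')) * (val z (lt v U a γ) w₂ * (a s' * y * star (a (bar s')) *
          val z (lt v U a γ) w₃))) (by intros; noncomm_ring) (by simp) (by intros; noncomm_ring)
          (by simp))
      simp only [LinearMap.mk₂_apply] at this
      simp only [dl]
      rw [this, mul_zero]
    simp only [Sm, this, smul_zero, map_zero, norm_zero, Fintype.expect_const]
    positivity
  · obtain _ | ⟨t, w₂⟩ := w₂
    · exact absurd rfl (List.isChain_iff_forall_rel_of_append_cons_cons.1 hr rfl)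
    have h5 : s.1 ≠ t.1 := fun e => h4 (by simp [e])
    have h6 : t.1 ∉ w₂.map Prod.fst := (List.nodup_cons.1 (List.nodup_cons.1 h2).2).1
    have h7 : s.1 ∉ w₂.map Prod.fst := fun e => h4 (List.mem_cons_of_mem _ e)
    refine le_trans (expect_le_expect fun γ _ => ?_) (le_trans (le_of_eq (expect_update t.1
      fun γ => ‖Λ ((Fintype.card G : ℂ)⁻¹ • ∑ c, dl v U s c * (star (a (bar s)) * a t *
        dl v U t (γ t.1) * (star (a (bar t)) * val z (lt v U a γ) w₂ * a (bar s))) *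
          star (dl v U s c))‖)) (expect_le univ_nonempty fun γ _ => ?_))
    · refine le_trans (le_of_eq ?_) (trw_both h.tr (nmul ((h.lets γ).norm_val w₁) (h.norm_a s))
        (nmul (norm_star (a s) ▸ h.norm_a s) ((h.lets γ).norm_val w₃)) _)
      simp only [(h.lets _).append, val, val_update h1, val_update h3, val_update h7, lt,
        update_self, update_of_ne h5.symm, bar_bar, bar_fst, star_dl, mul_smul_comm,
        smul_mul_assoc, mul_sum, sum_mul, mul_assoc, List.cons_append]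
    · simp only [update_self, val_update h6]
      exact (hP A E τ Λ z g _ I G _ _ _ _ η h.tr h.cen h.supp (h.fr s.1) (h.fr t.1)
        (h.des.ue s.2) (h.des.ue t.2) h.eta (h.flt s t h5)).1 _
          (nmul (nmul (norm_star (a (bar t)) ▸ h.norm_a _) ((h.lets γ).norm_val _)) (h.norm_a _))

variable {B : A →ₗ[ℂ] A →ₗ⋆[ℂ] ℂ} {Kb L : ℝ}

theorem Setup.pair_left (h : Setup τ Λ z g v U a η) (hL : 0 ≤ L)
    (hB : ∀ x y, ‖B x y‖ ≤ L * ‖Λ x‖ * ‖Λ y‖) {w w' : List (R × Bool)} {i : R} {δ : ℝ}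
    (hs : Sm Λ z v U a w i δ) (hi : i ∉ w'.map Prod.fst) :
    ‖𝔼 γ : R → G, B (val z (lt v U a γ) w) (val z (lt v U a γ) w')‖ ≤ L * ‖Λ 1‖ * δ := by
  have := h.des.ne
  rw [expect_update i]
  refine (norm_expect_le' _).trans (le_trans (expect_le_expect fun γ _ => ?_)
    ((mul_expect _ _ _).symm.trans_le (mul_le_mul_of_nonneg_left hs (by positivity))))
  simp only [val_update hi]
  rw [expect_eq_sum_div_card, ← LinearMap.sum_apply, ← map_sum, div_eq_inv_mul, ← smul_eq_mul,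
    ← LinearMap.smul_apply, ← map_smul, card_univ, mul_right_comm]
  refine (hB _ _).trans (mul_le_mul_of_nonneg_left ((trw_one h.tr _).trans
    (mul_le_of_le_one_right (norm_nonneg _) ((h.lets γ).norm_val _))) (by positivity))

/-- The conjugate transposed form. -/
noncomputable def flipB (B : A →ₗ[ℂ] A →ₗ⋆[ℂ] ℂ) : A →ₗ[ℂ] A →ₗ⋆[ℂ] ℂ :=
  LinearMap.mk₂'ₛₗ (RingHom.id ℂ) (starRingEnd ℂ) (fun x y => conj (B y x)) (by simp)
    (by simp) (by simp) (by simp)

theorem Setup.pair_right (h : Setup τ Λ z g v U a η) (hL : 0 ≤ L)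
    (hB : ∀ x y, ‖B x y‖ ≤ L * ‖Λ x‖ * ‖Λ y‖) {w w' : List (R × Bool)} {i : R} {δ : ℝ}
    (hs : Sm Λ z v U a w' i δ) (hi : i ∉ w.map Prod.fst) :
    ‖𝔼 γ : R → G, B (val z (lt v U a γ) w) (val z (lt v U a γ) w')‖ ≤ L * ‖Λ 1‖ * δ := by
  have := h.pair_left (B := flipB B) hL (fun x y => by
    rw [mul_right_comm]
    simpa [flipB] using hB y x) hs hi
  rw [← Complex.norm_conj, expect_eq_sum_div_card, map_div₀, map_sum, map_natCast,
    ← expect_eq_sum_div_card]
  exact this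

omit [PartialOrder A] [StarOrderedRing A] in
theorem Setup.pair_bar (h : Setup τ Λ z g v U a η) {w₁ w₂ u₁ u₂ : List (R × Bool)}
    {s : R × Bool} (h1 : ((w₁ ++ s :: w₂).map Prod.fst).Nodup)
    (h2 : ((u₁ ++ bar s :: u₂).map Prod.fst).Nodup) :
    𝔼 γ : R → G, B (val z (lt v U a γ) (w₁ ++ s :: w₂))
      (val z (lt v U a γ) (u₁ ++ bar s :: u₂)) = 0 := by
  have := h.des.ne
  simp only [List.map_append, List.map_cons, List.nodup_middle, List.nodup_cons, List.mem_append,
    not_or, bar_fst] at h1 h2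
  rw [expect_update s.1]
  refine expect_eq_zero fun γ _ => ?_
  have := sum_dm_two (v s.1) (h.des.ue s.2) (LinearMap.mk₂ ℂ (fun x y =>
    B (val z (lt v U a γ) w₁ * (a s * x * star (a (bar s)) * val z (lt v U a γ) w₂))
      (val z (lt v U a γ) u₁ * (a (bar s) * star y * star (a s) * val z (lt v U a γ) u₂)))
    (by simp [mul_add, add_mul]) (by simp) (by simp [mul_add, add_mul]) (by simp))
  simp only [LinearMap.mk₂_apply, star_dm_ue] at this
  simp only [(h.lets _).append, val, val_update h1.1.1, val_update h1.1.2, val_update h2.1.1,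
    val_update h2.1.2, lt, update_self, bar_fst, bar_bar]
  rw [expect_eq_sum_div_card]
  exact div_eq_zero_iff.2 (Or.inl this)

theorem Setup.pair_desc (hP : PairStmt.{u, v}) (h : Setup τ Λ z g v U a η) (hK : 0 ≤ Kb)
    (hL : 0 ≤ L) (hB : TwoB Λ B Kb L) {w₁ w₂ u₁ u₂ u₃ : List (R × Bool)} {s t : R × Bool}
    (h1 : ((w₁ ++ s :: t :: w₂).map Prod.fst).Nodup)
    (h2 : ((u₁ ++ t :: (u₂ ++ s :: u₃)).map Prod.fst).Nodup) :
    ‖𝔼 γ : R → G, B (val z (lt v U a γ) (w₁ ++ s :: t :: w₂))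
      (val z (lt v U a γ) (u₁ ++ t :: (u₂ ++ s :: u₃)))‖ ≤
        (Kb * ‖Λ 1‖ ^ 2 + L * ‖Λ 1‖) * η := by
  have := h.des.ne
  have e : ∀ (l : List (R × Bool)) (x : R × Bool), x.1 ∉ l.map Prod.fst ↔
    ∀ y ∈ l, x.1 ≠ y.1 := fun l x => by simp only [List.mem_map, not_exists, not_and, ne_eq, eq_comm]
  have k1 : s.1 ≠ t.1 ∧ (s.1 ∉ w₁.map Prod.fst ∧ s.1 ∉ w₂.map Prod.fst) ∧
      t.1 ∉ w₁.map Prod.fst ∧ t.1 ∉ w₂.map Prod.fst := by
    simp only [List.map_append, List.map_cons, List.nodup_append, List.nodup_cons, List.mem_cons,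
      not_or] at h1
    exact ⟨h1.2.1.1.1, ⟨fun c => h1.2.2 _ c _ (Or.inl rfl) rfl, h1.2.1.1.2⟩,
      fun c => h1.2.2 _ c _ (Or.inr (Or.inl rfl)) rfl, h1.2.1.2.1⟩
  have k2 : (s.1 ∉ u₁.map Prod.fst ∧ s.1 ∉ u₂.map Prod.fst ∧ s.1 ∉ u₃.map Prod.fst) ∧
      t.1 ∉ u₁.map Prod.fst ∧ t.1 ∉ u₂.map Prod.fst ∧ t.1 ∉ u₃.map Prod.fst := by
    simp only [List.map_append, List.map_cons, List.nodup_append, List.nodup_cons, List.mem_cons,
      not_or, List.mem_append] at h2
    exact ⟨⟨fun c => h2.2.2 _ c _ (Or.inr (Or.inr (Or.inl rfl))) rfl,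
      fun c => h2.2.1.2.2.2 _ c _ (Or.inl rfl) rfl, h2.2.1.2.2.1.1⟩,
      fun c => h2.2.2 _ c _ (Or.inl rfl) rfl, h2.2.1.1.1, h2.2.1.1.2.2⟩
  rw [expect_update t.1, expect_comm, expect_congr rfl fun c _ => expect_update s.1 _,
    expect_comm]
  refine (norm_expect_le' _).trans (expect_le univ_nonempty fun γ _ => ?_)
  rw [expect_comm]
  have n := fun w => (h.lets γ).norm_val w
  have n' := fun s => norm_star (a s) ▸ h.norm_a s
  refine le_trans (le_of_eq ?_) ((hP A E τ Λ z g _ I G _ _ _ _ η h.tr h.cen h.supp (h.fr s.1)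
    (h.fr t.1) (h.des.ue s.2) (h.des.ue t.2) h.eta (h.flt s t k1.1)).2 B Kb L hK hL hB _ _ _ _ _
    (nmul (n w₁) (h.norm_a s)) (nmul (n' (bar t)) (n w₂)) (nmul (n u₁) (h.norm_a t))
    (nmul (n' (bar t)) (nmul (n u₂) (h.norm_a s))) (nmul (n' (bar s)) (n u₃)))
  simp only [(h.lets _).append, val, val_update k1.2.1.1, val_update k1.2.1.2,
    val_update k1.2.2.1, val_update k1.2.2.2, val_update k2.1.1, val_update k2.1.2.1,
    val_update k2.1.2.2, val_update k2.2.1, val_update k2.2.2.1, val_update k2.2.2.2, lt,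
    update_self, update_of_ne k1.1, dl, mul_assoc]

theorem Setup.pair (hP : PairStmt.{u, v}) (h : Setup τ Λ z g v U a η) (hK : 0 ≤ Kb)
    (hL : 0 ≤ L) (hB : TwoB Λ B Kb L) {w w' : List (R × Bool)}
    (hw : w.IsChain fun s t => t ≠ bar s) (hw' : w'.IsChain fun s t => t ≠ bar s)
    (hb : ¬Bad (w ++ w')) (hd : ¬(w = w' ∧ (w.map Prod.fst).Nodup)) :
    ‖𝔼 γ : R → G, B (val z (lt v U a γ) w) (val z (lt v U a γ) w')‖ ≤
      (Kb * ‖Λ 1‖ ^ 2 + 3 * L * ‖Λ 1‖ * (‖Λ 1‖ + 1)) * η := by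
  have η0 := h.eta
  have p1 : 0 ≤ L * ‖Λ 1‖ * η := by positivity
  have p2 : 0 ≤ L * ‖Λ 1‖ * ‖Λ 1‖ * η := by positivity
  have p3 : 0 ≤ Kb * ‖Λ 1‖ ^ 2 * η := by positivity
  have c0 : ∀ (l : List (R × Bool)) i, (l.map Prod.fst).count i = 0 → i ∉ l.map Prod.fst :=
    fun l i => List.count_eq_zero.1
  by_cases h1 : ∃ i, ((w ++ w').map Prod.fst).count i = 1
  · obtain ⟨i, hi⟩ := h1
    rw [List.map_append, List.count_append] at hi
    have key : ∀ w : List (R × Bool), (w.map Prod.fst).count i = 1 → Sm Λ z v U a w i 0 := by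
      intro w hw
      obtain ⟨s, hs, rfl⟩ := List.mem_map.1 (List.count_pos_iff.1 (hw ▸ one_pos))
      obtain ⟨w₁, w₂, rfl⟩ := List.append_of_mem hs
      simp only [List.map_append, List.map_cons, List.count_append, List.count_cons_self] at hw
      exact h.sm_one (c0 _ _ (by omega)) (c0 _ _ (by omega))
    by_cases h2 : (w.map Prod.fst).count i = 1
    · exact (h.pair_left hL hB.two (key w h2) (c0 _ _ (by omega))).trans (by nlinarith)
    · exact (h.pair_right hL hB.two (key w' (by omega)) (c0 _ _ (by omega))).trans (by nlinarith)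
  push Not at h1
  have h2 : ∀ i, (w.map Prod.fst).count i + (w'.map Prod.fst).count i ≤ 2 := fun i => by
    by_contra c
    exact hb ⟨h1, i, by rw [List.map_append, List.count_append]; omega⟩
  simp only [List.map_append, List.count_append] at h1
  have key : ∀ w : List (R × Bool), (w.IsChain fun s t => t ≠ bar s) → ¬(w.map Prod.fst).Nodup →
      (∀ i, (w.map Prod.fst).count i ≤ 2) →
      ∃ i, (w.map Prod.fst).count i = 2 ∧ Sm Λ z v U a w i (2 * (‖Λ 1‖ + 1) * η) := by
    intro w hw hn hc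
    obtain ⟨w₁, s, w₂, s', w₃, rfl, e, hn'⟩ := exists_dup _ w hn
    have := hc s.1
    simp only [List.map_append, List.map_cons, List.count_append, List.count_cons_self, e] at this
    refine ⟨s.1, ?_, h.sm_two hP e hw (c0 _ _ (by omega)) hn' (c0 _ _ (by omega))⟩
    simp only [List.map_append, List.map_cons, List.count_append, List.count_cons_self, e]
    omega
  by_cases n1 : (w.map Prod.fst).Nodup
  swap
  · obtain ⟨i, hi, hs⟩ := key w hw n1 fun i => by have := h2 i; omega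
    exact (h.pair_left hL hB.two hs (c0 _ _ (by have := h2 i; omega))).trans (by nlinarith)
  by_cases n2 : (w'.map Prod.fst).Nodup
  swap
  · obtain ⟨i, hi, hs⟩ := key w' hw' n2 fun i => by have := h2 i; omega
    exact (h.pair_right hL hB.two hs (c0 _ _ (by have := h2 i; omega))).trans (by nlinarith)
  by_cases h3 : ∃ s ∈ w, bar s ∈ w'
  · obtain ⟨s, hs, hs'⟩ := h3
    obtain ⟨w₁, w₂, rfl⟩ := List.append_of_mem hs
    obtain ⟨u₁, u₂, rfl⟩ := List.append_of_mem hs'
    rw [h.pair_bar n1 n2, norm_zero]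
    positivity
  push Not at h3
  have h4 : ∀ i, i ∈ w.map Prod.fst ↔ i ∈ w'.map Prod.fst := fun i => by
    have a1 := List.nodup_iff_count_le_one.1 n1 i
    have a2 := List.nodup_iff_count_le_one.1 n2 i
    have a3 := h1 i
    rw [← List.count_pos_iff, ← List.count_pos_iff]
    omega
  have hp : w.Perm w' := (List.perm_ext_iff_of_nodup n1.of_map n2.of_map).2 fun s => by
    constructor
    · intro hs
      obtain ⟨t, ht, e⟩ := List.mem_map.1 ((h4 _).1 (List.mem_map_of_mem hs))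
      rcases eq_or_bar e with rfl | rfl
      exacts [ht, absurd ht (h3 s hs)]
    · intro hs
      obtain ⟨t, ht, e⟩ := List.mem_map.1 ((h4 _).2 (List.mem_map_of_mem hs))
      rcases eq_or_bar e with rfl | rfl
      exacts [ht, absurd (by rwa [bar_bar]) (h3 _ ht)]
  obtain ⟨w₁, s, t, w₂, u₁, u₂, u₃, rfl, rfl⟩ := exists_descent n1.of_map hp fun c => hd ⟨c, n1⟩
  exact (h.pair_desc hP hK hL hB n1 n2).trans (by nlinarith)

end Vale.Agent.P082
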