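import Vale.Agent.P082.Asm

/-! A chain map on bar cochains and its homotopy to the identity. -/

namespace Vale.Agent.P082

open Finset

variable {A : Type*} [NormedRing A] [NormedAlgebra ℂ A] {ι : Type*} [Fintype ι]

/-- Multiply the first entry. -/
def hm (c : A) : List A → List A
  | [] => []
  | y :: l => c * y :: l

/-- Precomposition with `cons`. -/
noncomputable def cs (y : A) : (List A → A) →ₗ[ℂ] (List A → A) := LinearMap.funLeft ℂ A (List.cons y)

@[simp] theorem cs_apply (y : A) (G : List A → A) (w : List A) : cs y G w = G (y :: w) := rfl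

variable (z : A) (a b : ι → A)

/-- The chain map. -/
noncomputable def pT : A → List A → (List A → A) →ₗ[ℂ] A
  | y, [] => LinearMap.proj [z * y]
  | y, y₁ :: l => (Fintype.card ι : ℂ)⁻¹ • ∑ i, pT (a i * y₁) l ∘ₗ cs (y * b i)

/-- The homotopy. -/
noncomputable def pH : A → List A → (List A → A) →ₗ[ℂ] A
  | _, [] => 0
  | y, y₁ :: l => pT z a b 1 (y₁ :: l) ∘ₗ cs y - pH y₁ l ∘ₗ cs y

/-- The chain map on cochains. -/
noncomputable def lT (G : List A → A) : List A → A
  | [] => 0
  | y :: l => pT z a b y l G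

/-- The homotopy on cochains. -/
noncomputable def lH (G : List A → A) : List A → A
  | [] => 0
  | y :: l => pH z a b y l G

variable {z a b}

theorem pT_nil (y : A) (G : List A → A) : pT z a b y [] G = G [z * y] := rfl

theorem pT_cons (y y₁ : A) (l : List A) (G : List A → A) : pT z a b y (y₁ :: l) G =
    (Fintype.card ι : ℂ)⁻¹ • ∑ i, pT z a b (a i * y₁) l (cs (y * b i) G) := by
  simp [pT]

theorem pH_cons (y y₁ : A) (l : List A) (G : List A → A) : pH z a b y (y₁ :: l) G =
    pT z a b 1 (y₁ :: l) (cs y G) - pH z a b y₁ l (cs y G) := rfl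

theorem pT_congr {l : List A} {y : A} {G G' : List A → A}
    (h : ∀ w : List A, w.length = l.length + 1 → G w = G' w) :
    pT z a b y l G = pT z a b y l G' := by
  induction l generalizing y G G' with
  | nil => exact h _ rfl
  | cons y₁ l ih =>
    rw [pT_cons, pT_cons]
    congr 1
    exact sum_congr rfl fun i _ => ih fun w hw => h _ (by simp [hw])

theorem pH_congr {l : List A} {y : A} {G G' : List A → A}
    (h : ∀ w : List A, w.length = l.length + 2 → G w = G' w) :
    pH z a b y l G = pH z a b y l G' := by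
  induction l generalizing y G G' with
  | nil => rfl
  | cons y₁ l ih =>
    rw [pH_cons, pH_cons, pT_congr (l := y₁ :: l) (G := cs y G) (G' := cs y G') fun w hw =>
      h _ (by simp [hw]), ih (G := cs y G) (G' := cs y G') fun w hw => h _ (by simp [hw])]

omit [NormedAlgebra ℂ A] in
theorem bd_congr {l : List A} {y : A} {G G' : List A → A}
    (h : ∀ w : List A, w ≠ [] → w.length = l.length → G w = G' w) :
    Bd (y :: l) G = Bd (y :: l) G' := by
  induction l generalizing y G G' with
  | nil => rfl
  | cons y₁ l ih =>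
    rw [Bd, Bd, h _ (by simp) (by simp), ih fun w _ hw => h _ (by simp) (by simp [hw])]

theorem pT_map (φ : A →ₗ[ℂ] A) (l : List A) (y : A) (G : List A → A) :
    pT z a b y l (fun w => φ (G w)) = φ (pT z a b y l G) := by
  induction l generalizing y G with
  | nil => rfl
  | cons y₁ l ih =>
    rw [pT_cons, pT_cons, map_smul, map_sum]
    congr 1
    exact sum_congr rfl fun i _ => ih _ (cs (y * b i) G)

theorem pH_map (φ : A →ₗ[ℂ] A) (l : List A) (y : A) (G : List A → A) :
    pH z a b y l (fun w => φ (G w)) = φ (pH z a b y l G) := by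
  induction l generalizing y G with
  | nil => exact (map_zero φ).symm
  | cons y₁ l ih =>
    rw [pH_cons, pH_cons, map_sub, ← pT_map, ← ih]
    rfl

theorem pT_hm (hz : ∀ x, z * x = x * z) (c y : A) (l : List A) (G : List A → A) :
    pT z a b y l (fun w => G (hm c w)) = pT z a b (c * y) l G := by
  cases l with
  | nil => rw [pT_nil, pT_nil, hm, ← mul_assoc, ← hz, mul_assoc]
  | cons y₁ l => simp only [pT_cons, mul_assoc]; rfl

theorem pH_hm (c y : A) (l : List A) (G : List A → A) :
    pH z a b y l (fun w => G (hm c w)) = pH z a b (c * y) l G := by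
  cases l <;> rfl

omit [NormedAlgebra ℂ A] in
theorem bd_hm (c y : A) (l : List A) (G : List A → A) :
    Bd (y :: l) (fun w => G (hm c w)) = Bd (c * y :: l) G := by
  cases l with
  | nil => rfl
  | cons y₁ l => simp only [Bd, hm, mul_assoc]

/-- The bar differential is linear in the cochain. -/
def bdL (l : List A) : (List A → A) →ₗ[ℂ] A where
  toFun := Bd l
  map_add' G H := by
    have := bd_add l (G + H) H
    simp only [Pi.add_apply, add_sub_cancel_right] at this
    exact eq_add_of_sub_eq this.symm
  map_smul' c G := by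
    induction l generalizing G with
    | nil => simp [Bd]
    | cons y l ih =>
      cases l with
      | nil => simp [Bd]
      | cons y' l =>
        simp only [Bd, smul_sub, RingHom.id_apply] at ih ⊢
        rw [← ih]
        rfl

/-- The data of the chain map. -/
structure Pr (z : A) (a b : ι → A) : Prop where
  ne : Nonempty ι
  cen : ∀ x, z * x = x * z
  idem : z * z = z
  ba : ∀ i, b i * a i = z
  zb : ∀ i, z * b i = b i
  nz : ‖z‖ ≤ 1
  na : ∀ i, ‖a i‖ ≤ 1
  nb : ∀ i, ‖b i‖ ≤ 1

theorem Pr.av (h : Pr z a b) (x : A) : (Fintype.card ι : ℂ)⁻¹ • ∑ _ : ι, x = x := by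
  have := h.ne
  have n0 : (Fintype.card ι : ℂ) ≠ 0 := by exact_mod_cast Fintype.card_ne_zero
  rw [sum_const, card_univ, ← Nat.cast_smul_eq_nsmul ℂ, smul_smul, inv_mul_cancel₀ n0, one_smul]

theorem Pr.pT_z (h : Pr z a b) (y : A) (l : List A) (G : List A → A) :
    pT z a b (z * y) l G = pT z a b y l G := by
  cases l with
  | nil => rw [pT_nil, pT_nil, ← mul_assoc, h.idem]
  | cons y₁ l => simp only [pT_cons, h.cen y, mul_assoc, h.zb]

omit [NormedAlgebra ℂ A] in
theorem bd_cons (y : A) (G : List A → A) {w : List A} (hw : w ≠ []) :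
    Bd (y :: w) G = G (hm y w) - Bd w fun w => G (y :: w) := by
  cases w
  · exact absurd rfl hw
  · rfl

theorem Pr.bd_T (h : Pr z a b) (l : List A) (y : A) (G : List A → A) :
    Bd (y :: l) (lT z a b G) = pT z a b y l fun w => Bd w G := by
  induction l generalizing y G with
  | nil => rfl
  | cons y₁ l ih =>
    have e1 : ∀ i, pT z a b (a i * y₁) l (cs (y * b i) fun w => Bd w G) =
        pT z a b (y * y₁) l G - Bd (a i * y₁ :: l) (lT z a b (cs (y * b i) G)) := fun i => by
      have : z * (y * y₁) = y * b i * (a i * y₁) := by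
        rw [← mul_assoc, h.cen y, ← h.ba i]; simp only [mul_assoc]
      rw [ih, ← h.pT_z (y * y₁), this, ← pT_hm h.cen (y * b i), ← map_sub]
      exact pT_congr fun w hw => bd_cons _ _ (by rintro rfl; simp at hw)
    rw [pT_cons, Bd]
    simp only [e1, sum_sub_distrib, smul_sub, h.av, ← bd_hm (a _)]
    congr 1
    refine Eq.trans (bd_congr (G' := (Fintype.card ι : ℂ)⁻¹ • ∑ i, fun w =>
      lT z a b (cs (y * b i) G) (hm (a i) w)) fun w hw _ => ?_) ?_
    · cases w
      · exact absurd rfl hw
      · simp only [lT, pT_cons, hm, Pi.smul_apply, Finset.sum_apply]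
    · exact ((bdL _).map_smul _ _).trans (congrArg _ (map_sum (bdL _) _ _))

theorem Pr.bd_H (h : Pr z a b) (l : List A) (y : A) (G : List A → A) :
    Bd (l ++ [y]) (lH z a b G) + lH z a b (fun w => Bd w G) (l ++ [y]) =
      lT z a b G (l ++ [y]) - G (l ++ [z * y]) := by
  induction l generalizing G with
  | nil => simp [Bd, lH, lT, pH, pT_nil]
  | cons y₀ l ih =>
    obtain ⟨y₁, l', e⟩ : ∃ y₁ l', l ++ [y] = y₁ :: l' := by cases l <;> simp
    have ih := ih (cs y₀ G)
    rw [List.cons_append, List.cons_append, e] at *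
    have e1 : pT z a b 1 (y₁ :: l') (cs y₀ fun w => Bd w G) = pT z a b y₀ (y₁ :: l') G -
        Bd (1 :: y₁ :: l') (lT z a b (cs y₀ G)) := by
      rw [h.bd_T]
      nth_rw 2 [← mul_one y₀]
      rw [← pT_hm h.cen, ← map_sub]
      exact pT_congr fun w hw => bd_cons _ _ (by rintro rfl; simp at hw)
    have e2 : pH z a b y₁ l' (cs y₀ fun w => Bd w G) = pH z a b (y₀ * y₁) l' G -
        pH z a b y₁ l' fun w => Bd w (cs y₀ G) := by
      rw [← pH_hm, ← map_sub]
      exact pH_congr fun w hw => bd_cons _ _ (by rintro rfl; simp at hw)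
    have e3 : Bd (y₁ :: l') (fun w => lH z a b G (y₀ :: w)) = Bd (y₁ :: l')
        (fun w => lT z a b (cs y₀ G) (1 :: w)) - Bd (y₁ :: l') (lH z a b (cs y₀ G)) := by
      rw [← bd_add]
      refine bd_congr fun w hw _ => ?_
      cases w
      · exact absurd rfl hw
      · rfl
    simp only [lH, lT, cs_apply] at ih
    rw [Bd, e3]
    simp only [lH, pH_cons, e1, e2, Bd, one_mul, lT]
    linear_combination (norm := abel) ih

/-- Linearity in each slot. -/
def ML (G : List A → A) : Prop := ∀ l₁ l₂ : List A, IsLinearMap ℂ fun a => G (l₁ ++ a :: l₂)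

/-- Right modularity. -/
def RM (G : List A → A) : Prop := ∀ (l : List A) (y x : A), G (l ++ [y * x]) = G (l ++ [y]) * x

theorem ML.cs {G : List A → A} (h : ML G) (y : A) : ML (cs y G) := fun l₁ l₂ => h (y :: l₁) l₂

theorem RM.cs {G : List A → A} (h : RM G) (y : A) : RM (cs y G) := fun l => h (y :: l)

theorem ML.cs_lin {G : List A → A} (h : ML G) : IsLinearMap ℂ fun y => P082.cs y G :=
  ⟨fun _ _ => funext fun w => (h [] w).1 _ _, fun _ _ => funext fun w => (h [] w).2 _ _⟩

theorem lin_av {f : ι → A → A} (h : ∀ i, IsLinearMap ℂ (f i)) (c : ℂ) :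
    IsLinearMap ℂ fun x => c • ∑ i, f i x :=
  ⟨fun x y => by simp only [fun i => (h i).1 x y, sum_add_distrib, smul_add],
    fun t x => by simp only [fun i => (h i).2 t x, ← smul_sum, smul_comm c]⟩

theorem ML.pT_head {G : List A → A} (h : ML G) (l : List A) :
    IsLinearMap ℂ fun y => pT z a b y l G := by
  cases l with
  | nil => exact ⟨fun x y => by simp only [pT_nil, mul_add]; exact (h [] []).1 _ _,
      fun t x => by simp only [pT_nil, mul_smul_comm]; exact (h [] []).2 _ _⟩
  | cons y₁ l =>
    simp only [pT_cons]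
    exact lin_av (fun i => ⟨fun x y => by rw [add_mul, h.cs_lin.1, map_add],
      fun t x => by rw [smul_mul_assoc, h.cs_lin.2, map_smul]⟩) _

theorem ML.pT {G : List A → A} (h : ML G) (y : A) (l₁ l₂ : List A) :
    IsLinearMap ℂ fun x => pT z a b y (l₁ ++ x :: l₂) G := by
  induction l₁ generalizing y G with
  | nil =>
    simp only [List.nil_append, pT_cons]
    exact lin_av (fun i => ⟨fun x y => by rw [mul_add, ((h.cs _).pT_head _).1],
      fun t x => by rw [mul_smul_comm, ((h.cs _).pT_head _).2]⟩) _
  | cons y₁ l ih =>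
    simp only [List.cons_append, pT_cons]
    exact lin_av (fun i => ih (h.cs _) _) _

theorem ML.lT {G : List A → A} (h : ML G) : ML (lT z a b G)
  | [], l₂ => h.pT_head l₂
  | y :: l₁, l₂ => h.pT y l₁ l₂

theorem lin_sub {f g : A → A} (h : IsLinearMap ℂ f) (h' : IsLinearMap ℂ g) :
    IsLinearMap ℂ fun x => f x - g x :=
  ⟨fun x y => by rw [h.1, h'.1]; abel, fun t x => by rw [h.2, h'.2, smul_sub]⟩

theorem ML.lH {G : List A → A} (h : ML G) : ML (lH z a b G) := by
  have h1 : ∀ {G : List A → A}, ML G → ∀ l, IsLinearMap ℂ fun y => pH z a b y l G := by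
    intro G h l
    cases l with
    | nil => exact ⟨fun _ _ => (add_zero _).symm, fun _ _ => (smul_zero _).symm⟩
    | cons y₁ l =>
      exact ⟨fun x y => by simp only [pH_cons, h.cs_lin.1, map_add]; abel,
        fun t x => by simp only [pH_cons, h.cs_lin.2, map_smul, smul_sub]⟩
  intro l₁ l₂
  cases l₁ with
  | nil => exact h1 h l₂
  | cons y l₁ =>
    induction l₁ generalizing y G with
    | nil => exact lin_sub ((h.cs y).pT 1 [] l₂) (h1 (h.cs y) l₂)
    | cons y₁ l ih => exact lin_sub ((h.cs y).pT 1 (y₁ :: l) l₂) (ih (h.cs y) y₁)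

theorem RM.lT {G : List A → A} (h : RM G) : RM (lT z a b G) := by
  have h1 : ∀ {G : List A → A}, RM G → ∀ y x, pT z a b (y * x) [] G = pT z a b y [] G * x :=
    fun h y x => by rw [pT_nil, ← mul_assoc]; exact h [] _ _
  intro l w x
  cases l with
  | nil => exact h1 h w x
  | cons y l =>
    induction l generalizing y G with
    | nil =>
      simp only [P082.lT, List.cons_append, List.nil_append, pT_cons, smul_mul_assoc, sum_mul,
        ← mul_assoc, h1 (h.cs _)]
    | cons y₁ l ih =>
      have := fun i => ih (h.cs (y * b i)) (a i * y₁)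
      simp only [P082.lT, List.cons_append, pT_cons, smul_mul_assoc, sum_mul] at this ⊢
      simp only [this]

theorem RM.lH {G : List A → A} (h : RM G) : RM (lH z a b G) := by
  intro l w x
  cases l with
  | nil => exact (zero_mul _).symm
  | cons y l =>
    induction l generalizing y G with
    | nil =>
      have := (h.cs y).lT (z := z) (a := a) (b := b) [1] w x
      simp only [P082.lT, P082.lH, List.cons_append, List.nil_append, pH_cons, sub_mul] at this ⊢
      rw [this]
      simp [pH]
    | cons y₁ l ih =>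
      have h1 := (h.cs y).lT (z := z) (a := a) (b := b) (1 :: y₁ :: l) w x
      have h2 := ih (h.cs y) y₁
      simp only [P082.lT, P082.lH, List.cons_append, pH_cons, sub_mul] at h1 h2 ⊢
      rw [h1, h2]

omit [NormedAlgebra ℂ A] in
theorem prod_norm_nonneg (l : List A) : 0 ≤ (l.map norm).prod :=
  List.prod_nonneg (by simp +contextual)

theorem Pr.norm_pT (h : Pr z a b) (l : List A) (y : A) {G : List A → A} {C : ℝ} (hC : 0 ≤ C)
    (hG : ∀ w, ‖G w‖ ≤ C * (w.map norm).prod) :
    ‖pT z a b y l G‖ ≤ C * ((y :: l).map norm).prod := by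
  induction l generalizing y G C with
  | nil =>
    refine (hG _).trans (mul_le_mul_of_nonneg_left ?_ hC)
    simpa using (norm_mul_le _ _).trans (mul_le_of_le_one_left (norm_nonneg _) h.nz)
  | cons y₁ l ih =>
    have := h.ne
    have n0 : (0 : ℝ) < Fintype.card ι := by exact_mod_cast Fintype.card_pos
    rw [pT_cons, norm_smul, norm_inv, Complex.norm_natCast, inv_mul_le_iff₀ n0, ← nsmul_eq_mul,
      ← card_univ, ← sum_const]
    refine norm_sum_le_of_le _ fun i _ => (ih _ (C := C * ‖y * b i‖) (by positivity)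
      fun w => (hG _).trans (by simp [mul_assoc])).trans ?_
    have h1 := (norm_mul_le y (b i)).trans (mul_le_of_le_one_right (norm_nonneg _) (h.nb i))
    have h2 := (norm_mul_le (a i) y₁).trans (mul_le_of_le_one_left (norm_nonneg _) (h.na i))
    have := prod_norm_nonneg l
    simp only [List.map_cons, List.prod_cons, mul_assoc]
    gcongr

theorem Pr.norm_pH (h : Pr z a b) (h1 : ‖(1 : A)‖ ≤ 1) (l : List A) (y : A) {G : List A → A}
    {C : ℝ} (hC : 0 ≤ C) (hG : ∀ w, ‖G w‖ ≤ C * (w.map norm).prod) :
    ‖pH z a b y l G‖ ≤ l.length * C * ((y :: l).map norm).prod := by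
  induction l generalizing y G C with
  | nil => simp [pH]
  | cons y₁ l ih =>
    have k : ∀ w, ‖cs y G w‖ ≤ C * ‖y‖ * (w.map norm).prod := fun w =>
      (hG _).trans (by simp [mul_assoc])
    have a1 := h.norm_pT (y₁ :: l) 1 (by positivity) k
    have a2 := ih y₁ (by positivity) k
    have a3 := prod_norm_nonneg (y₁ :: l)
    rw [List.map_cons, List.prod_cons] at a1
    have a4 := a1.trans (mul_le_mul_of_nonneg_left (mul_le_of_le_one_left a3 h1) (by positivity))
    rw [pH_cons, List.length_cons, List.map_cons, List.prod_cons]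
    push_cast
    exact (norm_sub_le _ _).trans (by linarith)

theorem Pr.coch_T (h : Pr z a b) {G : List A → A} {m : ℕ} {C : ℝ} (hC : 0 ≤ C) (hG : Coch G m C) :
    Coch (lT z a b G) m C where
  ml := ML.lT hG.ml
  lm x y l := by
    rw [lT, lT, ← pT_hm h.cen]
    refine (pT_congr fun w hw => ?_).trans (pT_map (LinearMap.mulLeft ℂ x) l y G)
    cases w
    · simp at hw
    · exact hG.lm _ _ _
  rm := RM.lT hG.rm
  bdd l := by
    cases l
    · simpa [lT] using hC
    · exact h.norm_pT _ _ hC hG.bdd
  len l hl := by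
    cases l
    · rfl
    · exact (pT_congr fun w hw => hG.len w (by rwa [hw])).trans (map_zero _)

theorem Pr.coch_H (h : Pr z a b) (h1 : ‖(1 : A)‖ ≤ 1) {G : List A → A} {m : ℕ} {C : ℝ}
    (hC : 0 ≤ C) (hG : Coch G (m + 1) C) : Coch (lH z a b G) m (m * C) := by
  have hl : ∀ l : List A, l.length ≠ m → lH z a b G l = 0 := fun l hl => by
    cases l
    · rfl
    · exact (pH_congr fun w hw => hG.len w (by simpa [hw] using hl)).trans (map_zero _)
  refine ⟨ML.lH hG.ml, fun x y l => ?_, RM.lH hG.rm, fun l => ?_, hl⟩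
  · rw [lH, lH, ← pH_hm]
    refine (pH_congr fun w hw => ?_).trans (pH_map (LinearMap.mulLeft ℂ x) l y G)
    cases w
    · simp at hw
    · exact hG.lm _ _ _
  · have := prod_norm_nonneg l
    by_cases c : l.length = m
    · cases l with
      | nil => rw [lH, norm_zero]; positivity
      | cons y l =>
        refine (h.norm_pH h1 _ _ hC hG.bdd).trans ?_
        gcongr
        simp [← c]
    · rw [hl l c, norm_zero]
      positivity

end Vale.Agent.P082
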