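import Vale.Agent.P082.Base

/-! Interfaces between the parts of the proof. -/

namespace Vale.Agent.P082

open scoped InnerProductSpace ComplexConjugate ComplexOrder BigOperators
open Filter Topology Vale.Agent.P104 Finset

universe u v

section Bar

variable {A : Type*} [NormedRing A] [NormedAlgebra ℂ A]

/-- Closure properties of a gauge. -/
structure Gauge (Gd : (A →L[ℂ] A) → ℝ → Prop) : Prop where
  add : ∀ ψ ψ' c c', Gd ψ c → Gd ψ' c' → Gd (ψ + ψ') (c + c')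
  smul : ∀ (t : ℂ) ψ c, Gd ψ c → Gd (t • ψ) (‖t‖ * c)
  right : ∀ x ψ c, Gd ψ c → Gd (ψ ∘L ContinuousLinearMap.mul ℂ A x) (c * ‖x‖)
  mul : ∀ y, Gd (ContinuousLinearMap.mul ℂ A y) ‖y‖

/-- `F` is a cocycle of degree `n`. -/
def Cocyc (F : List A → A) (n : ℕ) : Prop := ∀ l : List A, l.length = n + 3 → Bd l F = 0

/-- The last slices of `F` have gauge controlled by `C`. -/
def Slices (Gd : (A →L[ℂ] A) → ℝ → Prop) (F : List A → A) (n : ℕ) (C : ℝ) : Prop :=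
  ∀ l : List A, l.length = n → ∃ ψ : A →L[ℂ] A, (∀ a, ψ a = F (l ++ [a, 1])) ∧
    Gd ψ (C * (l.map norm).prod)

end Bar

/-- WP A1. -/
def BarStmt : Prop := ∀ (A : Type u) [NormedRing A] [NormedAlgebra ℂ A], ‖(1 : A)‖ ≤ 1 →
  ∀ (k : ℕ) (f : ContinuousMultilinearMap ℂ (fun _ : Fin (k + 1) => A) A),
    (∀ a, hochD f a = 0) → ∃ (F : List A → A) (C : ℝ), 0 ≤ C ∧ Coch F (k + 3) C ∧ Cocyc F (k + 1) ∧
      ∀ C', Sol F (k + 1) 1 C' →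
        ∃ g : ContinuousMultilinearMap ℂ (fun _ : Fin k => A) A, ∀ a, f a = hochD g a

/-- WP A2. -/
def SolAvgStmt : Prop := ∀ (A : Type u) [NormedRing A] [NormedAlgebra ℂ A]
  (Gd : (A →L[ℂ] A) → ℝ → Prop) (ρ : (A →L[ℂ] A) → A) (z : A) (F : List A → A) (k : ℕ)
  (C₀ C : ℝ), Gauge Gd → Avg Gd ρ z → (∀ x, z * x = x * z) → Coch F (k + 3) C₀ →
    Cocyc F (k + 1) → Slices Gd F (k + 1) C → Sol F (k + 1) z C

section VN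

variable {K : Type u} [NormedAddCommGroup K] [InnerProductSpace ℂ K] [CompleteSpace K]
  {M : VonNeumannAlgebra K}

/-- `z` has infinitely many orthogonal copies. -/
def CopA (z : Alg M) : Prop :=
  ∃ s : ℕ → Alg M, (∀ j, star (s j) * s j = z) ∧ ∀ j k, j ≠ k → star (s j) * s k = 0

/-- A finite sum of vector functionals. -/
def VecF (φ : Alg M →ₗ[ℂ] ℂ) : Prop :=
  ∃ (I : Type) (_ : Fintype I) (ξ η : I → K), ∀ a, φ a = ∑ i, ⟪η i, a.1 (ξ i)⟫_ℂ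

/-- `M z` is a matrix algebra over a commutative algebra. -/
def TypeI (z : Alg M) : Prop :=
  ∃ (I : Type) (_ : Fintype I) (_ : DecidableEq I) (v : I → Alg M) (g : Alg M), Frame v g z ∧
    ∀ x y, (g * x * g) * (g * y * g) = (g * y * g) * (g * x * g)

/-- Subprojections of `z` can be halved. -/
def HalvA {A : Type*} [Ring A] [StarRing A] (z : A) : Prop :=
  ∀ g, star g = g → g * g = g → z * g = g →
    ∃ w, w * star w * w = w ∧ w * w = 0 ∧ star w * w + w * star w = g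

/-- `M z` has no abelian part and carries a faithful normal trace. -/
def TypeII (z : Alg M) : Prop := HalvA z ∧ ∃ τ : Alg M →ₚ[ℂ] ℂ, VecF τ.toLinearMap ∧
  (∀ x y, τ (x * y) = τ (y * x)) ∧ (∀ x, τ (x * z) = τ x) ∧
    ∀ x, τ (star x * x) = 0 → x * z = 0

variable (M)

/-- WP C0: the central support of `q` is covered by partial isometries starting under `q`. -/
def CoverStmt : Prop := ∀ q : Alg M, IsStarProjection q → ∃ (z : Alg M) (S : Set (Alg M)),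
  Cen z ∧ z * q = q ∧ (∀ w ∈ S, w * star w * w = w ∧ w * q = w ∧ z * w = w) ∧
    (∀ w ∈ S, ∀ w' ∈ S, w ≠ w' → star w * w' = 0) ∧
    ∀ ξ : K, HasSum (fun w : S => (w.1 * star w.1).1 ξ) (z.1 ξ)

/-- WP C1. -/
def StructStmt : Prop := ∀ p : Alg M, Cen p → p ≠ 0 →
  ∃ z, Cen z ∧ z ≠ 0 ∧ p * z = z ∧ (CopA z ∨ TypeI z ∨ TypeII z)

/-- WP C2. -/
def GlueStmt : Prop := ∀ (F : List (Alg M) → Alg M) (n : ℕ) (C : ℝ), 0 ≤ C →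
  (∀ p, Cen p → p ≠ 0 → ∃ z, Cen z ∧ z ≠ 0 ∧ p * z = z ∧ Sol F n z C) → Sol F n 1 C

/-- Approximate invariant averages for the finite set of data `D`. -/
def Approx (z : Alg M) (Y : Set (Alg M →ₗ[ℂ] ℂ)) (S : Set (Alg M)) : Prop :=
  ∀ (D : Finset ((Alg M →L[ℂ] Alg M) × Alg M × (Alg M →ₗ[ℂ] ℂ))) (ε : ℝ), 0 < ε →
    ∃ (Ω : Type) (_ : Fintype Ω) (p : Ω → ℝ) (m : Ω → Alg M), (∀ ω, 0 ≤ p ω) ∧ ∑ ω, p ω = 1 ∧
      (∀ ω, ‖m ω‖ ≤ 1) ∧ ∀ d ∈ D, d.2.2 ∈ Y →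
        ‖∑ ω, (p ω : ℂ) * d.2.2 (d.2.1 * (m ω * star (m ω) - 1) * z)‖ ≤ ε ∧ (d.2.1 ∈ S →
        ‖∑ ω, (p ω : ℂ) * d.2.2 ((d.1 (d.2.1 * m ω) * star (m ω) -
          d.1 (m ω) * star (m ω) * d.2.1) * z)‖ ≤ ε)

/-- WP C3. -/
def ApproxStmt : Prop := ∀ (z : Alg M) (Y : Set (Alg M →ₗ[ℂ] ℂ)) (S : Set (Alg M)), Cen z →
  (∀ φ ∈ Y, VecF φ) → (∀ a, a * z = a → (∀ φ ∈ Y, φ a = 0) → a = 0) →
  (∀ T : Subalgebra ℂ (Alg M), IsClosed (T : Set (Alg M)) → S ⊆ T → T = ⊤) →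
  Approx M z Y S → ∃ ρ, Avg (fun ψ c => ‖ψ‖ ≤ c) ρ z

/-- WP C4 (uses C3). -/
def AvgIStmt : Prop := ∀ z : Alg M, Cen z → TypeI z → ∃ ρ, Avg (fun ψ c => ‖ψ‖ ≤ c) ρ z

/-- WP E (uses C3 and D). -/
def AvgIIStmt : Prop := ∀ z : Alg M, Cen z → TypeII z → ∃ ρ, Avg (fun ψ c => ‖ψ‖ ≤ c) ρ z

/-- WP B1 (uses C0). -/
def AvgCBStmt : Prop := Gauge (CB (M := M)) ∧ ∃ ρ, Avg (CB (M := M)) ρ 1

/-- WP B2. -/
def CopiesStmt : Prop := ∀ (z : Alg M) (F : List (Alg M) → Alg M) (k : ℕ) (C : ℝ), 0 ≤ C →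
  Cen z → CopA z → Coch F (k + 3) C → Cocyc F (k + 1) → ∃ G H, Coch G (k + 3) C ∧
    Cocyc G (k + 1) ∧ Slices CB G (k + 1) C ∧ Coch H (k + 2) ((k + 2) * C) ∧
      ∀ l : List (Alg M), l.length = k + 3 → Bd l H = G l - F l * z

end VN

section II

variable {A E : Type*} [CStarAlgebra A] [NormedAddCommGroup E] [InnerProductSpace ℂ E]

/-- A sesquilinear form bounded both on `L^∞ × L^1` and on `L^2 × L^2`. -/
structure TwoB (Λ : A →ₗ[ℂ] E) (B : A →ₗ[ℂ] A →ₗ⋆[ℂ] ℂ) (Kb L : ℝ) : Prop where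
  one : ∀ a b c, ‖B a (b * c)‖ ≤ Kb * ‖a‖ * ‖Λ b‖ * ‖Λ c‖
  two : ∀ a b, ‖B a b‖ ≤ L * ‖Λ a‖ * ‖Λ b‖

/-- The matrix of `x` between the frames `v`, `v'` has small entries. -/
def Flt (Λ : A →ₗ[ℂ] E) {I : Type*} [Fintype I] (v v' : I → A) (x : A) (η : ℝ) : Prop :=
  ∃ y y' : I → I → A, (∀ b c, star (v b) * x * v' c = y b c + y' b c) ∧ (∀ b c, ‖y b c‖ ≤ η) ∧
    ∑ b, ∑ c, ‖Λ (y' b c)‖ ^ 2 ≤ η ^ 2

/-- A random unitary matrix with prescribed first and second moments. -/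
structure Design {I G : Type*} [Fintype I] [DecidableEq I] [Fintype G] (U : G → I → I → ℂ) :
    Prop where
  ne : Nonempty G
  col : ∀ γ a b, ∑ c, conj (U γ c a) * U γ c b = if a = b then 1 else 0
  row : ∀ γ a b, ∑ c, U γ a c * conj (U γ b c) = if a = b then 1 else 0
  p1 : ∀ a b, ∑ γ, U γ a b = 0
  p2 : ∀ a b c d, ∑ γ, U γ a b * U γ c d = 0
  p3 : ∀ a b c d, ∑ γ, U γ a b * conj (U γ c d) =
    if a = c ∧ b = d then (Fintype.card G : ℂ) / Fintype.card I else 0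

/-- The element with scalar matrix `u` in the frame `v`. -/
noncomputable def dm {I : Type*} [Fintype I] (v : I → A) (u : I → I → ℂ) : A :=
  ∑ a, ∑ b, u a b • (v a * star (v b))

end II

/-- WP D (main estimate in the tracial case). -/
def MainIIStmt : Prop := ∀ (A : Type u) (E : Type v) [CStarAlgebra A] [PartialOrder A]
  [StarOrderedRing A] [NormedAddCommGroup E] [InnerProductSpace ℂ E] (τ : A →ₗ[ℂ] ℂ)
  (Λ : A →ₗ[ℂ] E) (z : A), Tr τ Λ → IsStarProjection z → (∀ x, z * x = x * z) →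
  (∀ x, τ (x * z) = τ x) → HalvA z → ∀ (J : Type) [Fintype J] (x : J → A) (o : J),
  (∀ j, x j ∈ unitary A) → ∀ (Kb L ε : ℝ), 0 ≤ Kb → 0 ≤ L → 0 < ε →
    ∃ (Ω : Type) (_ : Fintype Ω) (p : Ω → ℝ) (u : Ω → A), (∀ ω, 0 ≤ p ω) ∧ ∑ ω, p ω = 1 ∧
      (∀ ω, u ω * star (u ω) = z ∧ star (u ω) * u ω = z) ∧ ∀ B, TwoB Λ B Kb L → ∀ j,
        ‖∑ ω, (p ω : ℂ) * (B (x j * u ω) (x j * u ω) - B (x o * u ω) (x o * u ω))‖ ≤ ε

/-- WP D1a. -/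
def ChebStmt : Prop := ∀ T : ℝ, ∃ (N : ℕ) (a b c : ℕ → ℝ),
  (∀ n, 0 ≤ a n * b n) ∧ T ≤ ∑ n ∈ range N, a n * b n ∧ ∑ n ∈ range N, c n ^ 2 ≤ 1 ∧
  (∑ n ∈ range N, c n • Polynomial.Chebyshev.S ℝ n) ^ 2 =
    ∑ n ∈ range N, b n • Polynomial.Chebyshev.S ℝ n ∧
  ∀ t : ℝ, |t| ≤ 2 →
    |(∑ n ∈ range N, a n • Polynomial.Chebyshev.S ℝ (n + 1 : ℕ)).eval t| ≤ 100

/-- WP D1b. -/
def TruncStmt : Prop := ∀ (f : Polynomial ℝ) (ε : ℝ), 0 < ε → ∃ p : ℕ, ∀ t : ℝ,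
  (f.eval t - f.eval (max (-2) (min 2 t))) ^ 2 ≤ ε * (t / 2) ^ (2 * p)

/-- WP D2a. -/
def DesignStmt : Prop := ∀ (I : Type) [Fintype I] [DecidableEq I] [Nonempty I],
  ∃ (G : Type) (_ : Fintype G) (U : G → I → I → ℂ), Design U

/-- WP D2b. -/
def FramesStmt : Prop := ∀ (A : Type u) (E : Type v) [CStarAlgebra A] [PartialOrder A]
  [StarOrderedRing A] [NormedAddCommGroup E] [InnerProductSpace ℂ E] (τ : A →ₗ[ℂ] ℂ)
  (Λ : A →ₗ[ℂ] E) (z : A), Tr τ Λ → IsStarProjection z → (∀ x, z * x = x * z) →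
  (∀ x, τ (x * z) = τ x) → HalvA z → ∀ (J : Type) [Fintype J] (x : J → A),
  (∀ j, x j ∈ unitary A) → ∀ (r : ℕ) (η : ℝ), 0 < η →
    ∃ (I : Type) (_ : Fintype I) (_ : DecidableEq I) (_ : Nonempty I) (g : A)
      (v : Fin r → I → A), (∀ i, Frame (v i) g z) ∧
        ∀ i k, i ≠ k → ∀ j j', Flt Λ (v i) (v k) (star (x j) * x j') η

/-- WP D3. -/
def PairStmt : Prop := ∀ (A : Type u) (E : Type v) [CStarAlgebra A] [PartialOrder A]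
  [StarOrderedRing A] [NormedAddCommGroup E] [InnerProductSpace ℂ E] (τ : A →ₗ[ℂ] ℂ)
  (Λ : A →ₗ[ℂ] E) (z g x : A) (I G : Type) [Fintype I] [DecidableEq I] [Fintype G]
  (v v' : I → A) (U U' : G → I → I → ℂ) (η : ℝ), Tr τ Λ → (∀ x, z * x = x * z) →
  (∀ x, τ (x * z) = τ x) → Frame v g z → Frame v' g z → Design U → Design U' → 0 ≤ η →
  Flt Λ v v' x η →
  (∀ β : A, ‖β‖ ≤ 1 → 𝔼 γ', ‖Λ ((Fintype.card G : ℂ)⁻¹ • ∑ γ,
      dm v (U γ) * (x * dm v' (U' γ') * β) * star (dm v (U γ)))‖ ≤ 2 * (‖Λ 1‖ + 1) * η) ∧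
  ∀ B Kb L, 0 ≤ Kb → 0 ≤ L → TwoB Λ B Kb L → ∀ α δ α' β δ' : A, ‖α‖ ≤ 1 → ‖δ‖ ≤ 1 →
    ‖α'‖ ≤ 1 → ‖β‖ ≤ 1 → ‖δ'‖ ≤ 1 →
    ‖𝔼 γ, 𝔼 γ', B (α * dm v (U γ) * x * dm v' (U' γ') * δ)
      (α' * dm v' (U' γ') * β * dm v (U γ) * δ')‖ ≤ (Kb * ‖Λ 1‖ ^ 2 + L * ‖Λ 1‖) * η

end Vale.Agent.P082
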