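import Vale.Agent.P082.PairW

/-! Normalized sums of reduced words. -/

namespace Vale.Agent.P082

open scoped InnerProductSpace ComplexConjugate BigOperators
open Vale.Agent.P104 Finset Function

universe u v

variable {R : Type} [Fintype R] [DecidableEq R]

open Classical in
theorem bad_small {σ : ℝ} (h0 : 0 ≤ σ) (h1 : σ ≤ 1) (h2 : σ ^ 2 * Fintype.card R ≤ 1) (L : ℕ) :
    σ ^ L * #{u ∈ All (R × Bool) L | Bad u} ≤ (2 * L) ^ L * σ := by
  rcases L.eq_zero_or_pos with rfl | hL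
  · have : ¬Bad ([] : List (R × Bool)) := fun h => by simpa using h.card
    simp [All, filter_singleton, this, h0]
  have h3 : (#{u ∈ All (R × Bool) L | Bad u} : ℝ) ≤
      Fintype.card R ^ ((L - 1) / 2) * (2 * L) ^ L := by exact_mod_cast card_Bad L
  refine (mul_le_mul (pow_le_pow_of_le_one h0 h1 (show 2 * ((L - 1) / 2) + 1 ≤ L by omega)) h3
    (by positivity) (by positivity)).trans ?_
  have := pow_le_one₀ (n := (L - 1) / 2) (by positivity) h2
  calc _ = (2 * L) ^ L * σ * (σ ^ 2 * Fintype.card R) ^ ((L - 1) / 2) := by ring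
    _ ≤ _ := mul_le_of_le_one_right (by positivity) this

section Alg

variable {A : Type*} [CStarAlgebra A]

/-- Weighted normalized sum of the reduced words of length `n`. -/
noncomputable def Wd (z : A) (ξ : R × Bool → A) (σ : ℝ) (c : List (R × Bool) → ℝ) (n : ℕ) : A :=
  ∑ w ∈ Red R n, ((σ ^ n * c w : ℝ) : ℂ) • val z ξ w

/-- Weight of the first letter. -/
def hd (k : R × Bool → ℝ) : List (R × Bool) → ℝ
  | [] => 0
  | s :: _ => k s

/-- Weighted normalized sum of the letters. -/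
noncomputable def Lk (ξ : R × Bool → A) (σ : ℝ) (k : R × Bool → ℝ) : A :=
  ∑ s, ((σ * k s : ℝ) : ℂ) • ξ s

variable {z : A} {ξ : R × Bool → A} {σ : ℝ}

theorem Wd_zero (c : List (R × Bool) → ℝ) : Wd z ξ σ c 0 = (c [] : ℂ) • z := by
  simp [Wd, Red, All, filter_singleton, val]

theorem Lk_mul_zero (k : R × Bool → ℝ) :
    Lk ξ σ k * Wd z ξ σ 1 0 = Wd z ξ σ (hd k) 1 := by
  rw [Wd_zero, Wd, sum_Red_succ]
  simp [Red, All, filter_singleton, val, hd, Lk, sum_mul]

theorem Lets.Lk_mul (h : Lets z ξ) (k : R × Bool → ℝ) (n : ℕ) :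
    Lk ξ σ k * Wd z ξ σ 1 (n + 1) = Wd z ξ σ (hd k) (n + 2) +
      ((σ ^ 2 * ∑ s, k s : ℝ) : ℂ) • Wd z ξ σ 1 n - ((σ ^ 2 : ℝ) : ℂ) • Wd z ξ σ (hd k) n := by
  have e1 : Lk ξ σ k * Wd z ξ σ 1 (n + 1) = Wd z ξ σ (hd k) (n + 2) + ∑ w ∈ Red R (n + 1),
      ∑ s with w.head? = some (bar s), ((σ ^ (n + 2) * k s : ℝ) : ℂ) • val z ξ (s :: w) := by
    rw [Wd, Wd, sum_Red_succ (n + 1), ← sum_add_distrib, mul_sum]
    refine sum_congr rfl fun w _ => ?_
    refine Eq.trans ?_ (sum_filter_not_add_sum_filter _ (fun s => w.head? = some (bar s))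
      fun s => ((σ ^ (n + 2) * k s : ℝ) : ℂ) • val z ξ (s :: w)).symm
    rw [Lk, sum_mul]
    refine sum_congr rfl fun s _ => ?_
    rw [smul_mul_smul_comm, val]
    congr 1
    simp only [Pi.one_apply]
    push_cast
    ring
  rw [e1, sum_Red_succ, add_sub_assoc, Wd, Wd, Wd, smul_sum, smul_sum, ← sum_sub_distrib]
  congr 1
  refine sum_congr rfl fun w _ => ?_
  have e2 : ∀ t : R × Bool, ∑ s with (t :: w).head? = some (bar s),
      ((σ ^ (n + 2) * k s : ℝ) : ℂ) • val z ξ (s :: t :: w) =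
        ((σ ^ (n + 2) * k (bar t) : ℝ) : ℂ) • val z ξ w := fun t => by
    rw [sum_eq_single_of_mem (bar t) (by simp)]
    · have := h.inv (bar t)
      rw [bar_bar] at this
      rw [val, val, ← mul_assoc, this, h.z_val]
    · intro s hs hne
      simp only [List.head?_cons, Option.some.injEq, mem_filter, mem_univ, true_and] at hs
      exact absurd (by rw [hs, bar_bar]) hne
  have e3 : ∑ t with w.head? ≠ some (bar t), k (bar t) = ∑ s, k s - hd k w := by
    have hb : Involutive (bar (R := R)) := bar_bar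
    rw [sum_filter, ← Equiv.sum_comp hb.toPerm]
    simp only [Involutive.coe_toPerm, bar_bar]
    cases w with
    | nil => simp [hd]
    | cons s w =>
      rw [← sum_filter, hd, ← sum_erase_eq_sub (mem_univ s)]
      refine sum_congr ?_ fun _ _ => rfl
      ext t
      simp [eq_comm]
  simp only [e2, ← sum_smul, smul_smul, ← sub_smul, ← Complex.ofReal_sum, ← mul_sum, e3,
    Pi.one_apply]
  congr 1
  push_cast
  ring

theorem Wd_hd_one (n : ℕ) : Wd z ξ σ (hd 1) (n + 1) = Wd z ξ σ 1 (n + 1) := by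
  refine sum_congr rfl fun w hw => ?_
  have := mem_All.1 (mem_filter.1 hw).1
  cases w with
  | nil => simp at this
  | cons s w => rfl

end Alg

variable {A : Type u} {E : Type v} [CStarAlgebra A] [PartialOrder A] [StarOrderedRing A]
  [NormedAddCommGroup E] [InnerProductSpace ℂ E] {τ : A →ₗ[ℂ] ℂ} {Λ : A →ₗ[ℂ] E}
  {I G : Type} [Fintype I] [DecidableEq I] [Fintype G]
  {z g : A} {v : R → I → A} {U : G → I → I → ℂ} {a : R × Bool → A} {η : ℝ}
  {B : A →ₗ[ℂ] A →ₗ⋆[ℂ] ℂ} {Kb L σ : ℝ}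

/-- The error term for pairs of total length `m`. -/
noncomputable def err (t Kb L σ η : ℝ) (r m : ℕ) : ℝ :=
  L * t ^ 2 * ((2 * m) ^ m * σ) + (2 * r) ^ m * ((Kb * t ^ 2 + 3 * L * t * (t + 1)) * η)

theorem Setup.pair_le (h : Setup τ Λ z g v U a η) (hL : 0 ≤ L) (hB : TwoB Λ B Kb L)
    (w w' : List (R × Bool)) :
    ‖𝔼 γ : R → G, B (val z (lt v U a γ) w) (val z (lt v U a γ) w')‖ ≤ L * ‖Λ 1‖ ^ 2 := by
  have := h.des.ne
  refine (norm_expect_le' _).trans (expect_le univ_nonempty fun γ _ => (hB.two _ _).trans ?_)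
  have n : ∀ w, ‖Λ (val z (lt v U a γ) w)‖ ≤ ‖Λ 1‖ := fun w => (trw_one h.tr _).trans
    (mul_le_of_le_one_right (norm_nonneg _) ((h.lets γ).norm_val _))
  rw [sq, ← mul_assoc]
  gcongr <;> exact n _

theorem Setup.wsum (hP : PairStmt.{u, v}) (h : Setup τ Λ z g v U a η) (hK : 0 ≤ Kb)
    (hL : 0 ≤ L) (hB : TwoB Λ B Kb L) (h0 : 0 ≤ σ) (h1 : σ ≤ 1)
    (h2 : σ ^ 2 * Fintype.card R ≤ 1) {c c' : List (R × Bool) → ℝ} (hc : ∀ w, |c w| ≤ 1)
    (hc' : ∀ w, |c' w| ≤ 1) (n n' : ℕ) :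
    ‖𝔼 γ : R → G, B (Wd z (lt v U a γ) σ c n) (Wd z (lt v U a γ) σ c' n') -
      if n = n' then ∑ w ∈ Inj R n, ((σ ^ (2 * n) * (c w * c' w) : ℝ) : ℂ) *
        𝔼 γ : R → G, B (val z (lt v U a γ) w) (val z (lt v U a γ) w) else 0‖ ≤
      err ‖Λ 1‖ Kb L σ η (Fintype.card R) (n + n') := by
  classical
  set e : List (R × Bool) → List (R × Bool) → ℂ := fun w w' =>
    𝔼 γ : R → G, B (val z (lt v U a γ) w) (val z (lt v U a γ) w') with he
  set f : List (R × Bool) × List (R × Bool) → ℂ := fun p =>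
    ((σ ^ (n + n') * (c p.1 * c' p.2) : ℝ) : ℂ) * e p.1 p.2 with hf
  have e1 : 𝔼 γ : R → G, B (Wd z (lt v U a γ) σ c n) (Wd z (lt v U a γ) σ c' n') =
      ∑ p ∈ Red R n ×ˢ Red R n', f p := by
    simp only [Wd, map_sum, LinearMap.sum_apply, map_smulₛₗ, LinearMap.smul_apply, smul_eq_mul,
      Complex.conj_ofReal, RingHom.id_apply, expect_sum_comm, ← mul_expect, sum_product_right, hf,
      he, ← mul_assoc]
    refine sum_congr rfl fun w' _ => ?_
    rw [mul_sum]
    refine sum_congr rfl fun w _ => ?_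
    rw [← mul_assoc]
    congr 1
    push_cast
    ring
  have e2 : (if n = n' then ∑ w ∈ Inj R n, ((σ ^ (2 * n) * (c w * c' w) : ℝ) : ℂ) * e w w else 0) =
      ∑ p ∈ Red R n ×ˢ Red R n' with p.1 = p.2 ∧ (p.1.map Prod.fst).Nodup, f p := by
    split_ifs with hn
    · subst hn
      refine sum_bij (fun w _ => (w, w)) (fun w hw => ?_) (fun _ _ _ _ h => congrArg Prod.fst h)
        (fun p hp => ?_) fun w _ => by rw [hf, two_mul]
      · exact mem_filter.2 ⟨mem_product.2 ⟨Inj_subset _ hw, Inj_subset _ hw⟩, rfl,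
          (mem_filter.1 hw).2⟩
      · obtain ⟨h3, h4, h5⟩ := mem_filter.1 hp
        exact ⟨p.1, mem_filter.2 ⟨(mem_filter.1 (mem_product.1 h3).1).1, h5⟩, Prod.ext rfl h4⟩
    · refine (sum_eq_zero fun p hp => absurd ?_ hn).symm
      obtain ⟨h3, h4, -⟩ := mem_filter.1 hp
      rw [← mem_All.1 (mem_filter.1 (mem_product.1 h3).1).1,
        ← mem_All.1 (mem_filter.1 (mem_product.1 h3).2).1, h4]
  rw [e1, e2, ← sum_filter_add_sum_filter_not (Red R n ×ˢ Red R n')
    (fun p => p.1 = p.2 ∧ (p.1.map Prod.fst).Nodup) f, add_sub_cancel_left]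
  set δ := (Kb * ‖Λ 1‖ ^ 2 + 3 * L * ‖Λ 1‖ * (‖Λ 1‖ + 1)) * η
  have η0 := h.eta
  have δ0 : 0 ≤ δ := by positivity
  have hsub : ∀ p ∈ Red R n ×ˢ Red R n', p.1 ++ p.2 ∈ All (R × Bool) (n + n') := fun p hp => by
    rw [mem_All, List.length_append, mem_All.1 (mem_filter.1 (mem_product.1 hp).1).1,
      mem_All.1 (mem_filter.1 (mem_product.1 hp).2).1]
  calc _ ≤ ∑ p ∈ Red R n ×ˢ Red R n',
        ((if Bad (p.1 ++ p.2) then L * ‖Λ 1‖ ^ 2 * σ ^ (n + n') else 0) + δ) := by
        rw [sum_filter]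
        refine norm_sum_le_of_le _ fun p hp => ?_
        have k1 : ‖f p‖ ≤ σ ^ (n + n') * ‖e p.1 p.2‖ := by
          rw [hf, norm_mul, Complex.norm_real, Real.norm_eq_abs, abs_mul, abs_mul,
            abs_of_nonneg (by positivity)]
          exact mul_le_mul_of_nonneg_right (mul_le_of_le_one_right (by positivity)
            (mul_le_one₀ (hc _) (abs_nonneg _) (hc' _))) (norm_nonneg _)
        by_cases hd : p.1 = p.2 ∧ (p.1.map Prod.fst).Nodup
        · rw [if_neg (not_not.2 hd), norm_zero]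
          positivity
        rw [if_pos hd]
        split_ifs with hb
        · refine k1.trans (le_add_of_le_of_nonneg ?_ δ0)
          rw [mul_comm]
          exact mul_le_mul_of_nonneg_right (h.pair_le hL hB _ _) (by positivity)
        · rw [zero_add]
          exact k1.trans ((mul_le_of_le_one_left (norm_nonneg _) (pow_le_one₀ h0 h1)).trans
            (h.pair hP hK hL hB (mem_filter.1 (mem_product.1 hp).1).2
              (mem_filter.1 (mem_product.1 hp).2).2 hb hd))
    _ ≤ ∑ u ∈ All (R × Bool) (n + n'),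
        ((if Bad u then L * ‖Λ 1‖ ^ 2 * σ ^ (n + n') else 0) + δ) := by
        rw [← sum_image (g := fun p : List _ × List _ => p.1 ++ p.2)
          (f := fun u => (if Bad u then L * ‖Λ 1‖ ^ 2 * σ ^ (n + n') else 0) + δ)]
        · exact sum_le_sum_of_subset_of_nonneg (image_subset_iff.2 hsub) fun _ _ _ => by positivity
        · intro p hp p' hp' hh
          have := List.append_inj hh (by
            rw [mem_All.1 (mem_filter.1 (mem_product.1 hp).1).1,
              mem_All.1 (mem_filter.1 (mem_product.1 hp').1).1])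
          exact Prod.ext this.1 this.2
    _ ≤ _ := by
        rw [sum_add_distrib, ← sum_filter, sum_const, sum_const, card_All, nsmul_eq_mul,
          nsmul_eq_mul, mul_comm, mul_assoc, err]
        refine add_le_add (mul_le_mul_of_nonneg_left ?_ (by positivity)) (le_of_eq ?_)
        · exact_mod_cast bad_small h0 h1 h2 (n + n')
        · simp [mul_comm, δ]

end Vale.Agent.P082
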