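import Mathlib

/-! Combinatorics of words. -/

namespace Vale.Agent.P082

open Finset

section Lists

variable {S T : Type*}

theorem exists_dup (f : S → T) (l : List S) (h : ¬(l.map f).Nodup) :
    ∃ w₁ s w₂ s' w₃, l = w₁ ++ s :: (w₂ ++ s' :: w₃) ∧ f s' = f s ∧ ((s :: w₂).map f).Nodup := by
  induction l with
  | nil => simp at h
  | cons s l ih =>
    by_cases h' : (l.map f).Nodup
    · have h1 : f s ∈ l.map f := by
        by_contra h1
        exact h (List.nodup_cons.2 ⟨h1, h'⟩)
      obtain ⟨s', h2, h3⟩ := List.mem_map.1 h1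
      obtain ⟨w₂, w₃, rfl⟩ := List.append_of_mem h2
      refine ⟨[], s, w₂, s', w₃, rfl, h3, ?_⟩
      rw [List.map_append, List.nodup_append] at h'
      refine List.nodup_cons.2 ⟨fun h4 => h'.2.2 _ h4 _ (by simp) h3.symm, h'.1⟩
    · obtain ⟨w₁, t, w₂, t', w₃, rfl, h1, h2⟩ := ih h'
      exact ⟨s :: w₁, t, w₂, t', w₃, rfl, h1, h2⟩

theorem exists_descent {w w' : List S} (hw : w.Nodup) (hp : w.Perm w') (hne : w ≠ w') :
    ∃ w₁ s t w₂ u₁ u₂ u₃, w = w₁ ++ s :: t :: w₂ ∧ w' = u₁ ++ t :: (u₂ ++ s :: u₃) := by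
  classical
  have hw' : w'.Nodup := hp.nodup_iff.1 hw
  by_cases hc : w.IsChain fun s t => w'.idxOf s < w'.idxOf t
  · exfalso
    have : Trans (fun s t => w'.idxOf s < w'.idxOf t) (fun s t => w'.idxOf s < w'.idxOf t)
      (fun s t => w'.idxOf s < w'.idxOf t) := ⟨lt_trans⟩
    refine hne (hp.eq_of_pairwise (fun a b _ _ h1 h2 => absurd h1 h2.not_gt)
      (List.isChain_iff_pairwise.1 hc) ?_)
    rw [List.pairwise_iff_getElem]
    intro i j hi hj hij
    rwa [hw'.idxOf_getElem, hw'.idxOf_getElem]
  · rw [List.isChain_iff_forall_rel_of_append_cons_cons] at hc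
    push Not at hc
    obtain ⟨s, t, w₁, w₂, rfl, h⟩ := hc
    have hs : s ∈ w' := hp.subset (by simp)
    have ht : t ∈ w' := hp.subset (by simp)
    have hst : s ≠ t := by
      rintro rfl
      simp [List.nodup_append] at hw
    obtain ⟨u₁, u, rfl⟩ := List.append_of_mem ht
    have ht1 : t ∉ u₁ := fun h1 => (List.nodup_append.1 hw').2.2 _ h1 _ (by simp) rfl
    have hs1 : s ∉ u₁ := fun h1 => by
      rw [List.idxOf_append_of_mem h1, List.idxOf_append_of_notMem ht1] at h
      have := List.idxOf_lt_length_of_mem h1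
      omega
    have hs2 : s ∈ u := by simpa [hs1, hst] using hs
    obtain ⟨u₂, u₃, rfl⟩ := List.append_of_mem hs2
    exact ⟨w₁, s, t, w₂, u₁, u₂, u₃, rfl, rfl⟩

variable [Fintype S] [DecidableEq S]

/-- All words of length `n`. -/
def All (S : Type*) [Fintype S] [DecidableEq S] : ℕ → Finset (List S)
  | 0 => {[]}
  | n + 1 => (univ ×ˢ All S n).image fun p => p.1 :: p.2

theorem mem_All {n : ℕ} {w : List S} : w ∈ All S n ↔ w.length = n := by
  induction n generalizing w with
  | zero => simp [All]
  | succ n ih => cases w <;> simp [All, ih]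

theorem sum_All_succ {V : Type*} [AddCommMonoid V] (n : ℕ) (f : List S → V) :
    ∑ w ∈ All S (n + 1), f w = ∑ s, ∑ w ∈ All S n, f (s :: w) := by
  rw [All, sum_image, sum_product]
  rintro ⟨a, b⟩ - ⟨c, d⟩ - h
  simpa using h

theorem card_All_filter (P : S → Prop) [DecidablePred P] (n : ℕ) :
    #{w ∈ All S n | ∀ s ∈ w, P s} = #{s | P s} ^ n := by
  induction n with
  | zero => simp [All, filter_singleton]
  | succ n ih =>
    rw [card_filter, sum_All_succ, pow_succ', ← ih, card_filter, card_filter, sum_mul_sum]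
    refine sum_congr rfl fun s _ => sum_congr rfl fun w _ => ?_
    by_cases h : P s <;> simp [h]

theorem card_All (n : ℕ) : #(All S n) = Fintype.card S ^ n := by
  simpa using card_All_filter (S := S) (fun _ => True) n

end Lists

variable {R : Type*} [Fintype R] [DecidableEq R]

/-- The inverse letter. -/
def bar (s : R × Bool) : R × Bool := (s.1, !s.2)

omit [Fintype R] [DecidableEq R] in
@[simp] theorem bar_bar (s : R × Bool) : bar (bar s) = s := by simp [bar]

omit [Fintype R] [DecidableEq R] in
@[simp] theorem bar_fst (s : R × Bool) : (bar s).1 = s.1 := rfl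

omit [Fintype R] [DecidableEq R] in
theorem bar_ne (s : R × Bool) : bar s ≠ s := by simp [bar, Prod.ext_iff]

omit [Fintype R] [DecidableEq R] in
theorem eq_or_bar {s t : R × Bool} (h : t.1 = s.1) : t = s ∨ t = bar s := by
  obtain ⟨a, b⟩ := s
  obtain ⟨c, d⟩ := t
  cases b <;> cases d <;> simp_all [bar]

/-- Reduced words. -/
def Red (R : Type*) [Fintype R] [DecidableEq R] (n : ℕ) : Finset (List (R × Bool)) :=
  {w ∈ All _ n | w.IsChain fun s t => t ≠ bar s}

/-- Words with distinct indices. -/
def Inj (R : Type*) [Fintype R] [DecidableEq R] (n : ℕ) : Finset (List (R × Bool)) :=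
  {w ∈ All _ n | (w.map Prod.fst).Nodup}

theorem Inj_subset (n : ℕ) : Inj R n ⊆ Red R n := fun w hw => by
  rw [Inj, mem_filter] at hw
  refine mem_filter.2 ⟨hw.1, ?_⟩
  refine ((List.pairwise_map.1 hw.2).imp fun h h' => h ?_).isChain
  rw [h', bar_fst]

theorem sum_Red_succ {V : Type*} [AddCommMonoid V] (n : ℕ) (f : List (R × Bool) → V) :
    ∑ w ∈ Red R (n + 1), f w =
      ∑ w ∈ Red R n, ∑ s with w.head? ≠ some (bar s), f (s :: w) := by
  rw [Red, sum_filter, sum_All_succ, sum_comm, Red, sum_filter]
  refine sum_congr rfl fun w _ => ?_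
  rw [sum_filter]
  split_ifs with h
  · refine sum_congr rfl fun s _ => if_congr ?_ rfl rfl
    cases w <;> simp_all [eq_comm]
  · refine sum_eq_zero fun s _ => if_neg fun h' => h h'.tail

theorem card_Red_le (n : ℕ) : (#(Red R n) : ℝ) ≤ 2 * (2 * Fintype.card R - 1) ^ n ∨
    Fintype.card R = 0 := by
  refine (Nat.eq_zero_or_pos _).symm.imp_left fun h0 => ?_
  have h1 : (1 : ℝ) ≤ Fintype.card R := by exact_mod_cast h0
  have key : ∀ n, (#(Red R (n + 2)) : ℝ) = (2 * Fintype.card R - 1) * #(Red R (n + 1)) := by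
    intro n
    rw [card_eq_sum_ones, Nat.cast_sum, sum_Red_succ, mul_comm, ← nsmul_eq_mul, ← sum_const]
    refine sum_congr rfl fun w hw => ?_
    have := mem_All.1 (mem_filter.1 hw).1
    obtain _ | ⟨t, w⟩ := w
    · simp at this
    · have e : ({s | (t :: w).head? ≠ some (bar s)} : Finset _) = univ.erase (bar t) := by
        ext s
        simp only [List.head?_cons, ne_eq, Option.some.injEq, mem_filter, mem_univ, true_and,
          mem_erase, and_true]
        exact not_congr ⟨fun h => by simp [h], fun h => by simp [h]⟩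
      rw [e, sum_const, card_erase_of_mem (mem_univ _), card_univ, Fintype.card_prod,
        Fintype.card_bool, nsmul_eq_mul, Nat.cast_sub (by omega)]
      push_cast
      ring
  induction n using Nat.twoStepInduction with
  | zero => simp [Red, All, filter_singleton]
  | one =>
    have : (#(Red R 1) : ℝ) ≤ #(All (R × Bool) 1) := by exact_mod_cast card_filter_le _ _
    rw [card_All] at this
    simp only [Fintype.card_prod, Fintype.card_bool, pow_one] at this ⊢
    push_cast at this
    linarith
  | more n _ ih =>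
    rw [key, pow_succ' _ (n + 1), mul_left_comm]
    exact mul_le_mul_of_nonneg_left ih (by linarith)

theorem card_Inj_ge (N n : ℕ) (hn : n ≤ N) (hN : N ≤ Fintype.card R) :
    (2 * ((Fintype.card R : ℝ) - N)) ^ n ≤ #(Inj R n) := by
  have hN' : (N : ℝ) ≤ Fintype.card R := by exact_mod_cast hN
  induction n with
  | zero => simp [Inj, All, filter_singleton]
  | succ n ih =>
    rw [pow_succ]
    refine (mul_le_mul_of_nonneg_right (ih (by omega)) (by linarith)).trans ?_
    rw [Inj, Inj, card_filter _ (All _ (n + 1)), sum_All_succ, sum_comm, ← nsmul_eq_mul,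
      ← sum_const, sum_filter, Nat.cast_sum]
    refine sum_le_sum fun w hw => ?_
    split_ifs with h
    · have e : ∑ s : R × Bool, (if ((s :: w).map Prod.fst).Nodup then 1 else 0) =
          #(((w.map Prod.fst).toFinset)ᶜ ×ˢ (univ : Finset Bool)) := by
        rw [← card_filter]
        congr 1
        ext s
        simp only [List.map_cons, List.nodup_cons, h, and_true, mem_filter, mem_univ, true_and,
          mem_product, mem_compl, List.mem_toFinset]
      rw [e, card_product, card_compl, List.toFinset_card_of_nodup h, List.length_map,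
        mem_All.1 hw, Nat.cast_mul, Nat.cast_sub (by omega)]
      have : (n : ℝ) + 1 ≤ N := by exact_mod_cast hn
      simp only [card_univ, Fintype.card_bool, Nat.cast_ofNat]
      linarith
    · positivity

/-- Words in which no index occurs once and some index occurs at least three times. -/
def Bad (u : List (R × Bool)) : Prop :=
  (∀ i, (u.map Prod.fst).count i ≠ 1) ∧ ∃ i, 3 ≤ (u.map Prod.fst).count i

omit [Fintype R] in
theorem Bad.card {u : List (R × Bool)} (h : Bad u) :
    2 * #(u.map Prod.fst).toFinset + 1 ≤ u.length := by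
  obtain ⟨h1, i, hi⟩ := h
  have hi' : i ∈ (u.map Prod.fst).toFinset := List.mem_toFinset.2 (List.count_pos_iff.1 (by omega))
  rw [← List.length_map Prod.fst, ← List.sum_toFinset_count_eq_length, mul_comm,
    ← smul_eq_mul, ← sum_const]
  refine sum_lt_sum (f := fun _ => 2) (g := fun j => (u.map Prod.fst).count j) (fun j hj => ?_)
    ⟨i, hi', hi⟩
  exact (Nat.two_le_iff _).2 ⟨(List.count_pos_iff.2 (List.mem_toFinset.1 hj)).ne', h1 j⟩

open Classical in
theorem card_Bad (L : ℕ) : #{u ∈ All (R × Bool) L | Bad u} ≤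
    Fintype.card R ^ ((L - 1) / 2) * (2 * L) ^ L := by
  set d := (L - 1) / 2
  have h1 : {u ∈ All (R × Bool) L | Bad u} ⊆ (univ : Finset (Fin d → R)).biUnion fun h =>
      {u ∈ All (R × Bool) L | ∀ s ∈ u, s.1 ∈ univ.image h} := fun u hu => by
    obtain ⟨hu, hb⟩ := mem_filter.1 hu
    have h2 := hb.card
    rw [mem_All.1 hu] at h2
    obtain ⟨i, -⟩ := hb.2
    set T := (u.map Prod.fst).toFinset
    refine mem_biUnion.2 ⟨fun k => T.toList.getD k i, mem_univ _, mem_filter.2 ⟨hu, fun s hs => ?_⟩⟩
    have h3 : s.1 ∈ T.toList := mem_toList.2 (List.mem_toFinset.2 (List.mem_map_of_mem hs))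
    obtain ⟨k, hk, h4⟩ := List.getElem_of_mem h3
    have h5 : k < d := by rw [length_toList] at hk; omega
    exact mem_image.2 ⟨⟨k, h5⟩, mem_univ _, by rw [List.getD_eq_getElem _ _ hk, h4]⟩
  refine (card_le_card h1).trans ((card_biUnion_le_card_mul _ _ ((2 * L) ^ L) fun h _ => ?_).trans
    (by simp))
  refine le_trans (le_of_eq ?_) (le_trans (card_All_filter (fun s : R × Bool =>
    s.1 ∈ univ.image h) L).le (Nat.pow_le_pow_left ?_ _))
  · congr
  have e : ({s : R × Bool | s.1 ∈ univ.image h} : Finset _) = univ.image h ×ˢ univ := by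
    ext s; simp
  have := card_image_le (s := univ) (f := h)
  rw [e, card_product]
  simp only [card_univ, Fintype.card_fin, Fintype.card_bool] at this ⊢
  omega

end Vale.Agent.P082
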