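import Vale.Agent.P082.Stmts
import Vale.Agent.P082.Words

/-! Random letters and the values of words. -/

namespace Vale.Agent.P082

open scoped InnerProductSpace ComplexConjugate BigOperators
open Vale.Agent.P104 Finset Function

theorem expect_update {R G V : Type*} [Fintype R] [DecidableEq R] [Fintype G] [Nonempty G]
    [AddCommMonoid V] [Module ℚ≥0 V] (i : R) (Φ : (R → G) → V) :
    𝔼 γ, Φ γ = 𝔼 γ, 𝔼 g, Φ (update γ i g) := by
  have hinv : Involutive fun p : (R → G) × G => (update p.1 i p.2, p.1 i) := fun p => by simp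
  have h1 : 𝔼 p : (R → G) × G, Φ p.1 = 𝔼 p : (R → G) × G, Φ (update p.1 i p.2) :=
    (Fintype.expect_equiv hinv.toPerm _ _ fun p => by simp [Involutive.toPerm]).symm
  rw [← univ_product_univ, expect_product, expect_product] at h1
  simpa only [Fintype.expect_const] using h1

theorem norm_expect_le' {Ω : Type*} [Fintype Ω] (f : Ω → ℂ) : ‖𝔼 ω, f ω‖ ≤ 𝔼 ω, ‖f ω‖ := by
  rw [expect_eq_sum_div_card, expect_eq_sum_div_card, norm_div, Complex.norm_natCast]
  exact div_le_div_of_nonneg_right (norm_sum_le _ _) (Nat.cast_nonneg _)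

section Tr

variable {A E : Type*} [CStarAlgebra A] [PartialOrder A] [StarOrderedRing A]
  [NormedAddCommGroup E] [InnerProductSpace ℂ E] {τ : A →ₗ[ℂ] ℂ} {Λ : A →ₗ[ℂ] E}

theorem trw_right (h : Tr τ Λ) (y a : A) : ‖Λ (y * a)‖ ≤ ‖Λ y‖ * ‖a‖ := by
  refine le_of_sq_le_sq ?_ (by positivity)
  have h1 := h.mul_le (star_mul_self_nonneg y) (y := a * star a) (C := ‖a‖ ^ 2) (by
    rw [← Algebra.algebraMap_eq_smul_one]
    exact CStarAlgebra.mul_star_le_algebraMap_norm_sq)
  rw [mul_pow, h.nsq, h.nsq, star_mul, mul_assoc, h.tr, mul_comm]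
  simpa only [mul_assoc] using h1

theorem trw_left (h : Tr τ Λ) (a y : A) : ‖Λ (a * y)‖ ≤ ‖a‖ * ‖Λ y‖ := by
  rw [← h.norm_star, star_mul, mul_comm, ← h.norm_star y, ← norm_star a]
  exact trw_right h _ _

theorem trw_one (h : Tr τ Λ) (a : A) : ‖Λ a‖ ≤ ‖Λ 1‖ * ‖a‖ := by
  simpa using trw_right h 1 a

theorem trw_both (h : Tr τ Λ) {a b : A} (ha : ‖a‖ ≤ 1) (hb : ‖b‖ ≤ 1) (y : A) :
    ‖Λ (a * y * b)‖ ≤ ‖Λ y‖ :=
  (trw_right h _ _).trans ((mul_le_of_le_one_right (norm_nonneg _) hb).trans
    ((trw_left h _ _).trans (mul_le_of_le_one_left (norm_nonneg _) ha)))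

end Tr

variable {I G : Type*} [Fintype I] [DecidableEq I] [Fintype G] {U : G → I → I → ℂ}

/-- The design or its adjoint. -/
def Ue (U : G → I → I → ℂ) (b : Bool) (γ : G) (i j : I) : ℂ :=
  if b then U γ i j else conj (U γ j i)

theorem Design.ue (h : Design U) (b : Bool) : Design (Ue U b) := by
  cases b
  · refine ⟨h.ne, fun γ a b => ?_, fun γ a b => ?_, fun a b => ?_, fun a b c d => ?_,
      fun a b c d => ?_⟩ <;> simp only [Ue, Bool.false_eq_true, if_false, Complex.conj_conj]
    · exact h.row γ a b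
    · exact h.col γ a b
    · rw [← map_sum, h.p1, map_zero]
    · simp only [← map_mul]
      rw [← map_sum, h.p2, map_zero]
    · simp only [mul_comm (conj _)]
      rw [h.p3]
      exact if_congr (by tauto) rfl rfl
  · exact h

variable {A : Type*} [CStarAlgebra A]

omit [DecidableEq I] [Fintype G] in
theorem star_dm_ue (v : I → A) (b : Bool) (γ : G) :
    star (dm v (Ue U b γ)) = dm v (Ue U (!b) γ) := by
  simp only [dm, star_sum, star_smul, star_mul, star_star]
  rw [sum_comm]
  cases b <;> simp [Ue]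

theorem dm_mul_star {v : I → A} {g z : A} (hv : Frame v g z) (h : Design U) (γ : G) :
    dm v (U γ) * star (dm v (U γ)) = z := by
  have : ∀ a b c d, v a * star (v b) * (v d * star (v c)) =
      if b = d then v a * star (v c) else 0 := fun a b c d => by
    rw [mul_assoc, ← mul_assoc (star (v b)), hv.orth]
    split_ifs
    · rw [hv.fix']
    · simp
  simp only [dm, star_sum, star_smul, star_mul, star_star, sum_mul, mul_sum, smul_mul_assoc,
    mul_smul_comm, this, smul_ite, smul_zero, sum_ite_eq', mem_univ, if_true, smul_sum, smul_smul]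
  rw [← hv.sum]
  refine sum_congr rfl fun a _ => ?_
  rw [sum_comm]
  simp only [← sum_smul, Complex.star_def, mul_comm (conj _), h.row]
  simp

theorem sum_dm (v : I → A) (h : Design U) : ∑ γ, dm v (U γ) = 0 := by
  simp only [dm]
  rw [sum_comm]
  refine sum_eq_zero fun a _ => ?_
  rw [sum_comm]
  simp only [← sum_smul, h.p1, zero_smul, sum_const_zero]

theorem sum_dm_two {V : Type*} [AddCommGroup V] [Module ℂ V] (v : I → A) (h : Design U)
    (Φ : A →ₗ[ℂ] A →ₗ[ℂ] V) : ∑ γ, Φ (dm v (U γ)) (dm v (U γ)) = 0 := by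
  simp only [dm, map_sum, map_smul, LinearMap.sum_apply, LinearMap.smul_apply, smul_sum,
    smul_smul]
  rw [sum_comm]
  refine sum_eq_zero fun a _ => ?_
  rw [sum_comm]
  refine sum_eq_zero fun b _ => ?_
  rw [sum_comm]
  refine sum_eq_zero fun c _ => ?_
  rw [sum_comm]
  simp only [← sum_smul, h.p2, zero_smul, sum_const_zero]

variable {R : Type*}

/-- The value of a word. -/
def val (z : A) (ξ : R × Bool → A) : List (R × Bool) → A
  | [] => z
  | s :: w => ξ s * val z ξ w

/-- A family of letters. -/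
structure Lets (z : A) (ξ : R × Bool → A) : Prop where
  proj : IsStarProjection z
  cen : ∀ x, z * x = x * z
  inv : ∀ s, ξ s * ξ (bar s) = z
  adj : ∀ s, star (ξ s) = ξ (bar s)
  fix : ∀ s, z * ξ s = ξ s

variable {z : A} {ξ : R × Bool → A}

theorem Lets.z_val (h : Lets z ξ) (w : List (R × Bool)) : z * val z ξ w = val z ξ w := by
  cases w
  · exact h.proj.isIdempotentElem.eq
  · rw [val, ← mul_assoc, h.fix]

theorem Lets.append (h : Lets z ξ) (w w' : List (R × Bool)) :
    val z ξ (w ++ w') = val z ξ w * val z ξ w' := by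
  induction w with
  | nil => exact (h.z_val _).symm
  | cons s w ih => rw [List.cons_append, val, val, ih, mul_assoc]

theorem Lets.mul_star (h : Lets z ξ) (w : List (R × Bool)) :
    val z ξ w * star (val z ξ w) = z ∧ star (val z ξ w) * val z ξ w = z := by
  induction w with
  | nil => simp [val, h.proj.isSelfAdjoint.star_eq, h.proj.isIdempotentElem.eq]
  | cons s w ih =>
    have := h.inv (bar s)
    rw [bar_bar] at this
    constructor
    · rw [val, star_mul, mul_assoc, ← mul_assoc (val z ξ w), ih.1, h.adj, h.fix, h.inv]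
    · rw [val, star_mul, mul_assoc, ← mul_assoc (star (ξ s)), h.adj, this, h.z_val, ih.2]

theorem norm_le_of_mul_star {u : A} (hz : IsStarProjection z) (h : u * star u = z) : ‖u‖ ≤ 1 := by
  have h1 := CStarRing.norm_self_mul_star (x := u)
  have := hz.norm_le
  rw [h] at h1
  nlinarith [norm_nonneg u]

theorem Lets.norm_val (h : Lets z ξ) (w : List (R × Bool)) : ‖val z ξ w‖ ≤ 1 :=
  norm_le_of_mul_star h.proj (h.mul_star w).1


theorem val_congr {ξ' : R × Bool → A} {w : List (R × Bool)} (h : ∀ s ∈ w, ξ s = ξ' s) :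
    val z ξ w = val z ξ' w := by
  induction w with
  | nil => rfl
  | cons s w ih =>
    rw [val, val, h s (by simp), ih fun t ht => h t (by simp [ht])]

end Vale.Agent.P082
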